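import Vale.Agent.Lib.P074.GN

open MeasureTheory Set Filter Topology Metric
open scoped ENNReal

namespace Vale.Agent.P074

set_option linter.unusedSectionVars false

variable {d : ℕ}

section lift

variable {ι ι₁ : Type} [Fintype ι] [Nonempty ι] [Fintype ι₁] [Nonempty ι₁]

lemma lift_pot {ρ : ι → ι₁} (hρ : Function.Surjective ρ) (Y : ι₁ → E d) (c : ι₁ → ℝ) (x : E d) :
    pot (Y ∘ ρ) (c ∘ ρ) x = pot Y c x := by
  apply le_antisymm
  · apply pot_le
    intro k
    exact le_pot Y c x (ρ k)
  · apply pot_le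
    intro f
    obtain ⟨k, rfl⟩ := hρ f
    exact le_pot (Y ∘ ρ) (c ∘ ρ) x k

open scoped Classical in
/-- A minimizer for merged sites lifts to a minimizer for labelled sites. -/
lemma lift_min {K : Set (E d)} {a : E d → ℝ} {ρ : ι → ι₁} (hρ : Function.Surjective ρ)
    {Y : ι₁ → E d} {m : ι → ℝ} (hm0 : ∀ k, 0 ≤ m k) {n : ι₁ → ℝ}
    (hn : ∀ f, n f = ∑ k, if ρ k = f then m k else 0) {c : ι₁ → ℝ}
    (hc : IsMin K a Y n c) : IsMin K a (Y ∘ ρ) m (c ∘ ρ) := by
  intro c'
  have hne : ∀ f, (Finset.univ.filter (fun k => ρ k = f)).Nonempty := by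
    intro f
    obtain ⟨k, hk⟩ := hρ f
    exact ⟨k, by simp [hk]⟩
  set e : ι₁ → ℝ := fun f => (Finset.univ.filter (fun k => ρ k = f)).inf' (hne f) c' with he
  have hle : ∀ k, e (ρ k) ≤ c' k := fun k => Finset.inf'_le _ (by simp)
  have hpot : ∀ x, pot (Y ∘ ρ) c' x = pot Y e x := by
    intro x
    apply le_antisymm
    · apply pot_le
      intro k
      have h1 := le_pot Y e x (ρ k)
      have h2 := hle k
      simp only [Function.comp]
      linarith
    · apply pot_le
      intro f
      obtain ⟨k, hk, hk2⟩ := Finset.exists_mem_eq_inf' (hne f) c'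
      have h3 : ρ k = f := by simpa using hk
      have h4 := le_pot (Y ∘ ρ) c' x k
      simp only [Function.comp, h3] at h4
      have h5 : e f = c' k := hk2
      rw [h5]
      exact h4
  have hsum : ∀ g : ι₁ → ℝ, ∑ f, n f * g f = ∑ k, m k * g (ρ k) := by
    intro g
    simp only [hn, Finset.sum_mul]
    rw [Finset.sum_comm]
    apply Finset.sum_congr rfl
    intro k _
    rw [Finset.sum_eq_single (ρ k)]
    · simp
    · intro f _ hf
      rw [if_neg (Ne.symm hf), zero_mul]
    · simp
  have e1 : kant K a (Y ∘ ρ) m (c ∘ ρ) = kant K a Y n c := by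
    unfold kant
    simp only [lift_pot hρ, hsum c, Function.comp]
  have e2 : kant K a Y n e ≤ kant K a (Y ∘ ρ) m c' := by
    unfold kant
    simp only [hpot, hsum e]
    have : ∑ k, m k * e (ρ k) ≤ ∑ k, m k * c' k :=
      Finset.sum_le_sum (fun k _ => mul_le_mul_of_nonneg_left (hle k) (hm0 k))
    linarith
  rw [e1]
  exact (hc e).trans e2

end lift

open scoped Classical in
/-- Measures concentrated on a finite set are determined by their values on singletons. -/
lemma measure_eq_sum_singletons (α : Measure (E d)) (F : Finset (E d)) (h : α (↑F)ᶜ = 0)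
    {U : Set (E d)} (_mU : MeasurableSet U) :
    α U = ∑ f ∈ F with f ∈ U, α {f} := by
  rw [sum_measure_singleton]
  have hsub : U = (U ∩ ↑F) ∪ (U \ ↑F) := by
    ext x
    simp only [mem_union, mem_inter_iff, Set.mem_sdiff]
    tauto
  have h0 : α (U \ ↑F) = 0 := measure_mono_null (fun x hx => hx.2) h
  have e : ((F.filter (· ∈ U) : Finset (E d)) : Set (E d)) = U ∩ ↑F := by
    ext x
    simp [and_comm]
  rw [e]
  apply le_antisymm
  · calc α U ≤ α (U ∩ ↑F) + α (U \ ↑F) := by
          nth_rw 1 [hsub]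
          exact measure_union_le _ _
      _ = α (U ∩ ↑F) := by rw [h0, add_zero]
  · exact measure_mono inter_subset_left

open scoped Classical in
lemma measure_ext_of_finite {α β : Measure (E d)} (F : Finset (E d)) (hα : α (↑F)ᶜ = 0)
    (hβ : β (↑F)ᶜ = 0) (h : ∀ f ∈ F, α {f} = β {f}) : α = β := by
  ext U mU
  rw [measure_eq_sum_singletons α F hα mU, measure_eq_sum_singletons β F hβ mU]
  apply Finset.sum_congr rfl
  intro f hf
  exact h f (Finset.mem_of_mem_filter f hf)

section atom

variable {ι : Type} [Fintype ι] [Nonempty ι]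

/-- The map sending each open cell to its site. -/
noncomputable def atomMap (Y : ι → E d) (c : ι → ℝ) (k₀ : ι) (x : E d) : E d :=
  (∑ k, (scell Y c k).indicator (fun _ => Y k) x) +
    ((⋃ k, scell Y c k)ᶜ).indicator (fun _ => Y k₀) x

lemma atomMap_measurable (Y : ι → E d) (c : ι → ℝ) (k₀ : ι) : Measurable (atomMap Y c k₀) := by
  unfold atomMap
  apply Measurable.add
  · apply Finset.measurable_fun_sum
    intro k _
    exact measurable_const.indicator (scell_measurable Y c k)
  · exact measurable_const.indicator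
      (MeasurableSet.iUnion (fun k => scell_measurable Y c k)).compl

lemma atomMap_of_mem {Y : ι → E d} {c : ι → ℝ} (k₀ : ι) {k : ι} {x : E d}
    (hx : x ∈ scell Y c k) : atomMap Y c k₀ x = Y k := by
  classical
  unfold atomMap
  rw [Finset.sum_eq_single k]
  · rw [indicator_of_mem hx, indicator_of_notMem, add_zero]
    simp only [mem_compl_iff, not_not, mem_iUnion]
    exact ⟨k, hx⟩
  · intro l _ hl
    apply indicator_of_notMem
    intro hxl
    exact Set.disjoint_left.mp (scell_disjoint Y c hl) hxl hx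
  · simp

lemma atomMap_of_notMem {Y : ι → E d} {c : ι → ℝ} (k₀ : ι) {x : E d}
    (hx : ∀ k, x ∉ scell Y c k) : atomMap Y c k₀ x = Y k₀ := by
  unfold atomMap
  rw [Finset.sum_eq_zero (fun k _ => indicator_of_notMem (hx k) _), zero_add, indicator_of_mem]
  simpa using hx

lemma atomMap_mem_range (Y : ι → E d) (c : ι → ℝ) (k₀ : ι) (x : E d) :
    ∃ k, atomMap Y c k₀ x = Y k := by
  by_cases h : ∃ k, x ∈ scell Y c k
  · obtain ⟨k, hk⟩ := h
    exact ⟨k, atomMap_of_mem k₀ hk⟩
  · push Not at h
    exact ⟨k₀, atomMap_of_notMem k₀ h⟩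

/-- The site map is a subgradient of the potential on the open cells. -/
lemma atomMap_subgrad {Y : ι → E d} {c : ι → ℝ} (k₀ : ι) {k : ι} {x : E d}
    (hx : x ∈ scell Y c k) (y : E d) :
    pot Y c x + inner ℝ (y - x) (atomMap Y c k₀ x) ≤ pot Y c y := by
  rw [atomMap_of_mem k₀ hx, pot_of_scell hx, inner_sub_left]
  have := le_pot Y c y k
  linarith

/-- The mass of a cell under the uniform measure. -/
lemma atomMap_mass {K : Set (E d)} (hK : IsCompact K) (hK0 : volume K ≠ 0) {Y : ι → E d}
    (hY : Function.Injective Y) {n c : ι → ℝ} (hc : IsOpt K (fun _ => 1) Y n c) (k₀ k : ι) :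
    unif K (atomMap Y c k₀ ⁻¹' {Y k}) = ENNReal.ofReal (n k / volume.real K) := by
  have fK : volume K ≠ ⊤ := hK.measure_lt_top.ne
  have hV0 : 0 < volume.real K := by
    rw [measureReal_def]
    exact ENNReal.toReal_pos hK0 fK
  have mS : MeasurableSet (atomMap Y c k₀ ⁻¹' {Y k}) :=
    (atomMap_measurable Y c k₀) (measurableSet_singleton _)
  rw [unif, Measure.smul_apply, Measure.restrict_apply mS, smul_eq_mul]
  have hcongr : volume (atomMap Y c k₀ ⁻¹' {Y k} ∩ K) = volume (K ∩ scell Y c k) := by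
    apply measure_congr
    filter_upwards [ae_mem_scell hY c] with x hx
    obtain ⟨l, hl⟩ := hx
    have hT := atomMap_of_mem k₀ hl
    apply propext
    constructor
    · rintro ⟨h1, h2⟩
      have h3 : atomMap Y c k₀ x = Y k := h1
      rw [hT] at h3
      have : l = k := hY h3
      subst this
      exact ⟨h2, hl⟩
    · rintro ⟨h1, h2⟩
      have h3 := atomMap_of_mem k₀ h2
      exact ⟨h3, h1⟩
  rw [hcongr]
  have hsub : K ∩ scell Y c k ⊆ K := inter_subset_left
  have hfin : volume (K ∩ scell Y c k) ≠ ⊤ := ne_top_of_le_ne_top fK (measure_mono hsub)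
  have hn : n k = volume.real (K ∩ scell Y c k) := by
    rw [← hc k, int_const_real, mul_one]
  have hn0 : 0 ≤ n k := by
    rw [hn]
    exact measureReal_nonneg
  have e1 : volume (K ∩ scell Y c k) = ENNReal.ofReal (n k) := by
    rw [hn, measureReal_def, ENNReal.ofReal_toReal hfin]
  have e2 : (volume K)⁻¹ = ENNReal.ofReal (volume.real K)⁻¹ := by
    rw [ENNReal.ofReal_inv_of_pos hV0, measureReal_def, ENNReal.ofReal_toReal fK]
  rw [e1, e2, ← ENNReal.ofReal_mul (by positivity), div_eq_mul_inv, mul_comm]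

/-- A measurable function on `E d` taking prescribed values at the distinct sites. -/
noncomputable def chat (Y : ι → E d) (c : ι → ℝ) (y : E d) : ℝ :=
  ∑ k, ({Y k} : Set (E d)).indicator (fun _ => c k) y

lemma chat_measurable (Y : ι → E d) (c : ι → ℝ) : Measurable (chat Y c) := by
  unfold chat
  apply Finset.measurable_fun_sum
  intro k _
  exact measurable_const.indicator (measurableSet_singleton _)

lemma chat_site {Y : ι → E d} (hY : Function.Injective Y) (c : ι → ℝ) (k : ι) :
    chat Y c (Y k) = c k := by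
  classical
  unfold chat
  rw [Finset.sum_eq_single k]
  · simp
  · intro l _ hl
    apply indicator_of_notMem
    simp only [mem_singleton_iff]
    exact fun h => hl (hY h).symm
  · simp

/-- The maps to the cells are optimal. -/
theorem atomMap_optimal {K : Set (E d)} (hK : IsCompact K) (hK0 : volume K ≠ 0) {Y : ι → E d}
    (hY : Function.Injective Y) (c : ι → ℝ) (k₀ : ι) :
    IsOptimalMap K ((unif K).map (atomMap Y c k₀)) (atomMap Y c k₀) := by
  classical
  set T := atomMap Y c k₀ with hT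
  have mT : Measurable T := atomMap_measurable Y c k₀
  have fK : volume K ≠ ⊤ := hK.measure_lt_top.ne
  have mK : MeasurableSet K := hK.measurableSet
  have hprob := unif_prob hK0 fK
  refine ⟨mT, rfl, ?_⟩
  intro S mS hSmap
  set ρ := unif K with hρ
  set μ := ρ.map T with hμ
  -- the sites
  set F : Finset (E d) := Finset.univ.image Y with hF
  have hFm : MeasurableSet ((↑F : Set (E d))ᶜ) := (F.finite_toSet.measurableSet).compl
  have hμF : μ (↑F)ᶜ = 0 := by
    rw [hμ, Measure.map_apply mT hFm]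
    have : T ⁻¹' (↑F)ᶜ = ∅ := by
      ext x
      obtain ⟨k, hk⟩ := atomMap_mem_range Y c k₀ x
      simp only [mem_preimage, mem_compl_iff, Finset.mem_coe, mem_empty_iff_false, iff_false,
        not_not, hF, Finset.mem_image, Finset.mem_univ, true_and]
      exact ⟨k, hk.symm⟩
    rw [this, measure_empty]
  have site : ∀ U : E d → E d, Measurable U → ρ.map U = μ → ∀ᵐ x ∂ρ, ∃ k, U x = Y k := by
    intro U mU hU
    have h0 : ρ (U ⁻¹' (↑F)ᶜ) = 0 := by
      rw [← Measure.map_apply mU hFm, hU]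
      exact hμF
    rw [ae_iff]
    refine measure_mono_null ?_ h0
    intro x hx
    simp only [mem_preimage, mem_compl_iff, Finset.mem_coe, hF, Finset.mem_image, Finset.mem_univ,
      true_and]
    rintro ⟨k, hk⟩
    exact hx ⟨k, hk.symm⟩
  have hKae : ∀ᵐ x ∂ρ, x ∈ K := by
    rw [hρ, ae_unif_iff hK0 fK]
    exact ae_restrict_mem mK
  obtain ⟨Rk, hRk⟩ := hK.isBounded.exists_norm_le
  set G : E d → ℝ := fun y => ‖y‖ ^ 2 - 2 * chat Y c y with hG
  have mG : Measurable G := (measurable_norm.pow_const 2).sub ((chat_measurable Y c).const_mul 2)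
  set A : E d → ℝ := fun x => ‖x‖ ^ 2 - 2 * pot Y c x with hA
  have cA : Continuous A := by
    have := pot_continuous Y c
    simp only [hA]
    fun_prop
  obtain ⟨BA, hBA⟩ := hK.exists_bound_of_continuousOn cA.continuousOn
  have iA : Integrable A ρ := by
    apply Integrable.of_bound cA.aestronglyMeasurable BA
    filter_upwards [hKae] with x hx using hBA x hx
  obtain ⟨BG, hBG⟩ : ∃ BG : ℝ, ∀ k, ‖G (Y k)‖ ≤ BG :=
    ⟨∑ k, ‖G (Y k)‖, fun k => Finset.single_le_sum (f := fun k => ‖G (Y k)‖)
      (fun _ _ => norm_nonneg _) (Finset.mem_univ k)⟩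
  obtain ⟨Ry, hRy⟩ : ∃ Ry : ℝ, ∀ k, ‖Y k‖ ≤ Ry :=
    ⟨∑ k, ‖Y k‖, fun k => Finset.single_le_sum (f := fun k => ‖Y k‖)
      (fun _ _ => norm_nonneg _) (Finset.mem_univ k)⟩
  have iG : ∀ U : E d → E d, Measurable U → ρ.map U = μ → Integrable (fun x => G (U x)) ρ := by
    intro U mU hU
    apply Integrable.of_bound (mG.comp mU).aestronglyMeasurable BG
    filter_upwards [site U mU hU] with x ⟨k, hk⟩
    show ‖G (U x)‖ ≤ BG
    rw [hk]
    exact hBG k
  have iC : ∀ U : E d → E d, Measurable U → ρ.map U = μ →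
      Integrable (fun x => ‖x - U x‖ ^ 2) ρ := by
    intro U mU hU
    have mC : Measurable (fun x => ‖x - U x‖ ^ 2) := by
      have : Measurable (fun x => x - U x) := measurable_id.sub mU
      exact this.norm.pow_const 2
    apply Integrable.of_bound mC.aestronglyMeasurable ((Rk + Ry) ^ 2)
    filter_upwards [site U mU hU, hKae] with x ⟨k, hk⟩ hxK
    show ‖‖x - U x‖ ^ 2‖ ≤ (Rk + Ry) ^ 2
    rw [Real.norm_eq_abs, abs_of_nonneg (sq_nonneg _), hk]
    have h1 : ‖x - Y k‖ ≤ Rk + Ry := (norm_sub_le _ _).trans (add_le_add (hRk x hxK) (hRy k))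
    exact pow_le_pow_left₀ (norm_nonneg _) h1 2
  have cost_eq : ∀ U : E d → E d, Measurable U → ρ.map U = μ →
      cost K U = ENNReal.ofReal (∫ x, ‖x - U x‖ ^ 2 ∂ρ) := by
    intro U mU hU
    rw [cost, ofReal_integral_eq_lintegral_ofReal (iC U mU hU) (ae_of_all _ (fun x => sq_nonneg _))]
  have intG : ∀ U : E d → E d, Measurable U → ρ.map U = μ →
      ∫ x, G (U x) ∂ρ = ∫ y, G y ∂μ := by
    intro U mU hU
    rw [← hU, integral_map mU.aemeasurable mG.aestronglyMeasurable]
  rw [cost_eq T mT rfl, cost_eq S mS hSmap]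
  apply ENNReal.ofReal_le_ofReal
  -- lower bound for `S`
  have lowS : ∫ x, (A x + G (S x)) ∂ρ ≤ ∫ x, ‖x - S x‖ ^ 2 ∂ρ := by
    apply integral_mono_ae (iA.add (iG S mS hSmap)) (iC S mS hSmap)
    filter_upwards [site S mS hSmap] with x ⟨k, hk⟩
    show A x + G (S x) ≤ ‖x - S x‖ ^ 2
    rw [hk]
    simp only [hA, hG]
    rw [chat_site hY, norm_sub_sq_real]
    have := le_pot Y c x k
    linarith
  have eqT : ∫ x, ‖x - T x‖ ^ 2 ∂ρ = ∫ x, (A x + G (T x)) ∂ρ := by
    apply integral_congr_ae
    have h1 : ∀ᵐ x ∂ρ, ∃ k, x ∈ scell Y c k := by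
      rw [hρ, ae_unif_iff hK0 fK]
      exact ae_restrict_of_ae (ae_mem_scell hY c)
    filter_upwards [h1] with x ⟨k, hk⟩
    have h2 : T x = Y k := atomMap_of_mem k₀ hk
    simp only [hA, hG]
    rw [h2, chat_site hY, norm_sub_sq_real, pot_of_scell hk]
    ring
  rw [eqT, integral_add iA (iG T mT rfl), intG T mT rfl]
  rw [integral_add iA (iG S mS hSmap), intG S mS hSmap] at lowS
  exact lowS

end atom

end Vale.Agent.P074
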