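import Vale.Agent.Lib.P074.Semi

open MeasureTheory Set Filter Topology Metric
open scoped ENNReal

namespace Vale.Agent.P074

set_option linter.unusedSectionVars false

variable {d : ℕ} {ι : Type} [Fintype ι] [Nonempty ι]

/-- Midpoints of the cells for `c₁` and `c₂` lie in the cell for the mean weight. -/
lemma mid_scell {K : Set (E d)} (hconv : Convex ℝ K) {Y : ι → E d} {c₁ c₂ : ι → ℝ} {k : ι}
    {x y : E d} (hx : x ∈ K ∩ scell Y c₁ k) (hy : y ∈ K ∩ scell Y c₂ k) :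
    (1 / 2 : ℝ) • (x + y) ∈ K ∩ scell Y (fun l => (c₁ l + c₂ l) / 2) k := by
  constructor
  · have := hconv hx.1 hy.1 (by norm_num : (0:ℝ) ≤ 1 / 2) (by norm_num : (0:ℝ) ≤ 1 / 2)
      (by norm_num)
    rwa [← smul_add] at this
  · intro l hl
    have h1 := hx.2 l hl
    have h2 := hy.2 l hl
    simp only [inner_smul_left, inner_add_left, conj_trivial]
    linarith

/-- The term of one cell. -/
lemma cell_term {K : Set (E d)} (hKm : MeasurableSet K) (hconv : Convex ℝ K) {o : E d} {D : ℝ}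
    (hD : 0 < D) (hball : K ⊆ closedBall o D) {Y : ι → E d} {m : ι → ℝ}
    {ξ : E d → ℝ} (hξc : Continuous ξ) (hξ : ∀ x ∈ K, |ξ x| ≤ 1 / 2) {c ĉ : ι → ℝ}
    (k : ι) (hmk : 0 < m k)
    (hc : ∫ x in K ∩ scell Y c k, (1 : ℝ) = m k) (hĉ : ∫ x in K ∩ scell Y ĉ k, (1 + ξ x) = m k)
    (v : E d) {l : ℝ} (hl : 0 < l) :
    ∃ R : ℝ, (∫ x in K ∩ scell Y c k, inner ℝ x v * 1) -
        (∫ x in K ∩ scell Y ĉ k, inner ℝ x v * (1 + ξ x)) ≤
        (l / 2) * (m k * ‖v‖ ^ 2) + (D ^ 2 / (2 * l)) * R ∧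
      (1 / 65536) * R - 3 * (∫ x in K ∩ scell Y ĉ k, ξ x ^ 2) ≤
        (∫ x in K ∩ scell Y (fun l => (ĉ l + c l) / 2) k, gw (1 / (32 * D ^ 2)) o x) -
          ((∫ x in K ∩ scell Y ĉ k, gw (1 / (32 * D ^ 2)) o x) +
            ∫ x in K ∩ scell Y c k, gw (1 / (32 * D ^ 2)) o x) / 2 := by
  set A := K ∩ scell Y ĉ k with hA
  set B := K ∩ scell Y c k with hB
  set C := K ∩ scell Y (fun l => (ĉ l + c l) / 2) k with hC
  have mA : MeasurableSet A := hKm.inter (scell_measurable Y ĉ k)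
  have mB : MeasurableSet B := hKm.inter (scell_measurable Y c k)
  have mC : MeasurableSet C := hKm.inter (scell_measurable _ _ k)
  have sA : A ⊆ closedBall o D := inter_subset_left.trans hball
  have sB : B ⊆ closedBall o D := inter_subset_left.trans hball
  have sC : C ⊆ closedBall o D := inter_subset_left.trans hball
  have hβ : volume.real B = m k := by
    rw [← hc, int_const_real, mul_one]
  obtain ⟨e, he, hev⟩ : ∃ e : E d, ‖e‖ ≤ 1 ∧ ‖v‖ • e = v := by
    by_cases hv : v = 0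
    · exact ⟨0, by simp, by simp [hv]⟩
    · have hv' : ‖v‖ ≠ 0 := norm_ne_zero_iff.mpr hv
      refine ⟨(‖v‖⁻¹) • v, ?_, ?_⟩
      · rw [norm_smul, norm_inv, norm_norm, inv_mul_cancel₀ hv']
      · rw [smul_smul, mul_inv_cancel₀ hv', one_smul]
  have main := one_cell (o := o) hD mA mB mC sA sB sC
    (fun x hx y hy => mid_scell hconv hx hy) hξc (fun x hx => hξ x hx.1)
    (hĉ.trans hβ.symm) (by rw [hβ]; exact hmk) he
  rw [hβ] at main
  obtain ⟨I, hI⟩ : ∃ I, I = (∫ x in A, inner ℝ (x - o) e * (1 + ξ x)) -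
      ∫ x in B, inner ℝ (x - o) e := ⟨_, rfl⟩
  rw [← hI] at main
  refine ⟨I ^ 2 / (m k * D ^ 2), ?_, ?_⟩
  · -- the pairing identity
    have dec : ∀ x, inner ℝ x v = ‖v‖ * inner ℝ (x - o) e + inner ℝ o v := by
      intro x
      have h1 : inner ℝ (x - o) v = ‖v‖ * inner ℝ (x - o) e := by
        nth_rw 1 [← hev]
        rw [inner_smul_right]
      rw [← h1, inner_sub_left]
      ring
    have cin : Continuous (fun x : E d => inner ℝ (x - o) e) := by fun_prop
    have i1 : IntegrableOn (fun x : E d => inner ℝ (x - o) e) B volume := intOn_of_ball sB cin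
    have i2 : IntegrableOn (fun x : E d => inner ℝ (x - o) e * (1 + ξ x)) A volume :=
      intOn_of_ball sA (by fun_prop)
    have i3 : IntegrableOn (fun x : E d => 1 + ξ x) A volume := intOn_of_ball sA (by fun_prop)
    have fB : volume B < ⊤ := (measure_mono sB).trans_lt measure_closedBall_lt_top
    have e1 : ∫ x in B, inner ℝ x v * 1 = ‖v‖ * (∫ x in B, inner ℝ (x - o) e) +
        inner ℝ o v * m k := by
      have : ∀ x, inner ℝ x v * 1 = ‖v‖ * inner ℝ (x - o) e + inner ℝ o v := by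
        intro x
        rw [mul_one, dec]
      simp only [this]
      rw [integral_add (i1.const_mul _) (integrableOn_const fB.ne), integral_const_mul,
        int_const_real, hβ]
      ring
    have e2 : ∫ x in A, inner ℝ x v * (1 + ξ x) =
        ‖v‖ * (∫ x in A, inner ℝ (x - o) e * (1 + ξ x)) + inner ℝ o v * m k := by
      have : ∀ x, inner ℝ x v * (1 + ξ x) =
          ‖v‖ * (inner ℝ (x - o) e * (1 + ξ x)) + inner ℝ o v * (1 + ξ x) := by
        intro x
        rw [dec]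
        ring
      simp only [this]
      rw [integral_add (i2.const_mul _) (i3.const_mul _), integral_const_mul, integral_const_mul,
        hĉ]
    rw [e1, e2]
    have e3 : ‖v‖ * (∫ x in B, inner ℝ (x - o) e) -
        ‖v‖ * (∫ x in A, inner ℝ (x - o) e * (1 + ξ x)) = -(‖v‖ * I) := by
      rw [hI]
      ring
    have e4 : (D ^ 2 / (2 * l)) * (I ^ 2 / (m k * D ^ 2)) = I ^ 2 / (2 * l * m k) := by
      field_simp
    rw [e4]
    have h5 : -(‖v‖ * I) ≤ (l / 2) * (m k * ‖v‖ ^ 2) + I ^ 2 / (2 * l * m k) := by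
      have h6 : 0 < 2 * l * m k := by positivity
      rw [← sub_nonneg]
      have e5 : (l / 2) * (m k * ‖v‖ ^ 2) + I ^ 2 / (2 * l * m k) - -(‖v‖ * I) =
          (l * m k * ‖v‖ + I) ^ 2 / (2 * l * m k) := by
        field_simp
        ring
      rw [e5]
      positivity
    linarith
  · have e : (1 / 65536) * (I ^ 2 / (m k * D ^ 2)) = (1 / 65536) * I ^ 2 / (m k * D ^ 2) := by
      ring
    rw [e]
    exact main

/-- The barycentric estimate: the cell barycenters depend on the source density in an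
`L²`-Lipschitz way, with a constant proportional to the diameter. -/
theorem bary_core {K : Set (E d)} (hK : IsCompact K) (hKm : MeasurableSet K) (hconv : Convex ℝ K)
    {o : E d} {D : ℝ} (hD : 0 < D) (hball : K ⊆ closedBall o D) {Y : ι → E d}
    (hY : Function.Injective Y) {m : ι → ℝ} (hm0 : ∀ k, 0 < m k)
    {ξ : E d → ℝ} (hξc : Continuous ξ) (hξ : ∀ x ∈ K, |ξ x| ≤ 1 / 2) {c ĉ : ι → ℝ}
    (hc : IsOpt K (fun _ => 1) Y m c) (hĉ : IsOpt K (fun x => 1 + ξ x) Y m ĉ)
    (v : ι → E d) {l : ℝ} (hl : 0 < l) :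
    ∑ k, ((∫ x in K ∩ scell Y c k, inner ℝ x (v k) * 1) -
        ∫ x in K ∩ scell Y ĉ k, inner ℝ x (v k) * (1 + ξ x)) ≤
      (l / 2) * ∑ k, m k * ‖v k‖ ^ 2 + (196608 * D ^ 2 / (2 * l)) * ∫ x in K, ξ x ^ 2 := by
  have hterm := fun k => cell_term hKm hconv hD hball hξc hξ k (hm0 k) (hc k) (hĉ k) (v k) hl
  choose R hR1 hR2 using hterm
  set w : E d → ℝ := gw (1 / (32 * D ^ 2)) o with hw
  have iw : IntegrableOn w K volume := int_of_cont hK (gw_continuous _ _)
  have iξ : IntegrableOn (fun x => ξ x ^ 2) K volume := int_of_cont hK (by fun_prop)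
  have s1 : ∑ k, ∫ x in K ∩ scell Y ĉ k, w x = ∫ x in K, w x := sum_scell hY ĉ iw hKm
  have s2 : ∑ k, ∫ x in K ∩ scell Y c k, w x = ∫ x in K, w x := sum_scell hY c iw hKm
  have s3 : ∑ k, ∫ x in K ∩ scell Y (fun l => (ĉ l + c l) / 2) k, w x ≤ ∫ x in K, w x := by
    have m' : ∀ k, MeasurableSet (K ∩ scell Y (fun l => (ĉ l + c l) / 2) k) := fun k =>
      hKm.inter (scell_measurable Y _ k)
    have d' : ∀ k l, k ≠ l → Disjoint (K ∩ scell Y (fun l => (ĉ l + c l) / 2) k)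
        (K ∩ scell Y (fun l => (ĉ l + c l) / 2) l) := fun k l h =>
      (scell_disjoint Y _ h).mono inter_subset_right inter_subset_right
    rw [sum_disjoint_cells m' d' iw (fun k => inter_subset_left)]
    apply setIntegral_mono_set iw
    · filter_upwards [ae_restrict_mem hKm] with x _ using (gw_pos _ _ _).le
    · exact (iUnion_subset (fun k => inter_subset_left)).eventuallyLE
  have s4 : ∑ k, ∫ x in K ∩ scell Y ĉ k, ξ x ^ 2 = ∫ x in K, ξ x ^ 2 := sum_scell hY ĉ iξ hKm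
  have h1 : ∑ k, ((1 / 65536) * R k - 3 * (∫ x in K ∩ scell Y ĉ k, ξ x ^ 2)) ≤
      ∑ k, ((∫ x in K ∩ scell Y (fun l => (ĉ l + c l) / 2) k, w x) -
        ((∫ x in K ∩ scell Y ĉ k, w x) + ∫ x in K ∩ scell Y c k, w x) / 2) :=
    Finset.sum_le_sum (fun k _ => hR2 k)
  rw [Finset.sum_sub_distrib, Finset.sum_sub_distrib, ← Finset.mul_sum, ← Finset.mul_sum, s4,
    ← Finset.sum_div, Finset.sum_add_distrib, s1, s2] at h1
  have h2 : ∑ k, R k ≤ 196608 * ∫ x in K, ξ x ^ 2 := by linarith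
  calc ∑ k, ((∫ x in K ∩ scell Y c k, inner ℝ x (v k) * 1) -
        ∫ x in K ∩ scell Y ĉ k, inner ℝ x (v k) * (1 + ξ x))
      ≤ ∑ k, ((l / 2) * (m k * ‖v k‖ ^ 2) + (D ^ 2 / (2 * l)) * R k) :=
        Finset.sum_le_sum (fun k _ => hR1 k)
    _ = (l / 2) * ∑ k, m k * ‖v k‖ ^ 2 + (D ^ 2 / (2 * l)) * ∑ k, R k := by
        rw [Finset.sum_add_distrib, Finset.mul_sum, Finset.mul_sum]
    _ ≤ (l / 2) * ∑ k, m k * ‖v k‖ ^ 2 + (D ^ 2 / (2 * l)) * (196608 * ∫ x in K, ξ x ^ 2) := by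
        gcongr
    _ = _ := by
        field_simp

end Vale.Agent.P074
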