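import Vale.Agent.Lib.P074.PL

open MeasureTheory Set Filter Topology Metric
open scoped ENNReal

namespace Vale.Agent.P074

set_option linter.unusedSectionVars false

variable {d : ℕ}

/-- The Gaussian weight. -/
noncomputable def gw (t : ℝ) (o x : E d) : ℝ := Real.exp (-(t * ‖x - o‖ ^ 2 / 2))

lemma gw_pos (t : ℝ) (o x : E d) : 0 < gw t o x := Real.exp_pos _

lemma gw_continuous (t : ℝ) (o : E d) : Continuous (gw t o) := by
  unfold gw
  fun_prop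

lemma gw_mid (t : ℝ) (o x y : E d) :
    gw t o ((1 / 2 : ℝ) • (x + y)) ^ 2 = gw t o x * gw t o y * Real.exp (t * ‖x - y‖ ^ 2 / 4) := by
  unfold gw
  rw [← Real.exp_add, ← Real.exp_add, sq, ← Real.exp_add]
  congr 1
  have e1 : (1 / 2 : ℝ) • (x + y) - o = (1 / 2 : ℝ) • ((x - o) + (y - o)) := by
    have e0 : (x - o) + (y - o) = (x + y) - (2 : ℝ) • o := by
      rw [two_smul]
      abel
    rw [e0, smul_sub, smul_smul]
    norm_num
  have e2 : x - y = (x - o) - (y - o) := by abel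
  have h := parallelogram_law_with_norm ℝ (x - o) (y - o)
  rw [e1, norm_smul, e2]
  simp only [Real.norm_eq_abs, abs_of_pos (by norm_num : (0:ℝ) < 1 / 2)]
  linear_combination (-t / 4) * h

lemma intOn_of_ball {S : Set (E d)} {o : E d} {D : ℝ} (hS : S ⊆ closedBall o D) {u : E d → ℝ}
    (hu : Continuous u) : IntegrableOn u S volume :=
  (hu.continuousOn.integrableOn_compact (isCompact_closedBall o D)).mono_set hS

lemma lint_ind {S : Set (E d)} {o : E d} {D : ℝ} (mS : MeasurableSet S) (hS : S ⊆ closedBall o D)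
    {u : E d → ℝ} (hu : Continuous u) (h0 : ∀ x, 0 ≤ u x) :
    ∫⁻ x, S.indicator (fun x => ENNReal.ofReal (u x)) x = ENNReal.ofReal (∫ x in S, u x) := by
  rw [lintegral_indicator mS,
    ofReal_integral_eq_lintegral_ofReal (intOn_of_ball hS hu) (ae_of_all _ h0)]

/-- The tilted Prekopa-Leindler inequality for the Gaussian weight. -/
lemma tilt_real {A B C : Set (E d)} {o : E d} {D t θ L : ℝ} (mA : MeasurableSet A)
    (mB : MeasurableSet B) (mC : MeasurableSet C) (hA : A ⊆ closedBall o D)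
    (hB : B ⊆ closedBall o D) (hC : C ⊆ closedBall o D) (ht : 0 < t)
    {g : E d → ℝ} (hg : Continuous g) (hL : ∀ x ∈ A, ∀ y ∈ B, |g x - g y| ≤ L * ‖x - y‖)
    (hmid : ∀ x ∈ A, ∀ y ∈ B, (1 / 2 : ℝ) • (x + y) ∈ C) :
    (∫ x in A, gw t o x * Real.exp (θ * g x)) * (∫ x in B, gw t o x * Real.exp (-θ * g x)) ≤
      (∫ x in C, gw t o x) ^ 2 * Real.exp (θ ^ 2 * L ^ 2 / t) := by
  set c : ℝ := θ ^ 2 * L ^ 2 / (2 * t) with hc
  have hw := gw_continuous t o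
  have cA : Continuous (fun x => gw t o x * Real.exp (θ * g x)) := by fun_prop
  have cB : Continuous (fun x => gw t o x * Real.exp (-θ * g x)) := by fun_prop
  have cC : Continuous (fun x => gw t o x * Real.exp c) := by fun_prop
  have nA : ∀ x, 0 ≤ gw t o x * Real.exp (θ * g x) := fun x =>
    mul_nonneg (gw_pos _ _ _).le (Real.exp_pos _).le
  have nB : ∀ x, 0 ≤ gw t o x * Real.exp (-θ * g x) := fun x =>
    mul_nonneg (gw_pos _ _ _).le (Real.exp_pos _).le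
  have nC : ∀ x, 0 ≤ gw t o x * Real.exp c := fun x =>
    mul_nonneg (gw_pos _ _ _).le (Real.exp_pos _).le
  have pl := pl_euclid
    (f := A.indicator (fun x => ENNReal.ofReal (gw t o x * Real.exp (θ * g x))))
    (g := B.indicator (fun x => ENNReal.ofReal (gw t o x * Real.exp (-θ * g x))))
    (h := C.indicator (fun x => ENNReal.ofReal (gw t o x * Real.exp c)))
    (cA.measurable.ennreal_ofReal.indicator mA) (cB.measurable.ennreal_ofReal.indicator mB)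
    (cC.measurable.ennreal_ofReal.indicator mC)
    (by
      intro x y
      by_cases hx : x ∈ A
      · by_cases hy : y ∈ B
        · rw [indicator_of_mem hx, indicator_of_mem hy, indicator_of_mem (hmid x hx y hy),
            ← ENNReal.ofReal_mul (nA x), ← ENNReal.ofReal_pow (nC _)]
          apply ENNReal.ofReal_le_ofReal
          have e1 : (gw t o ((1 / 2 : ℝ) • (x + y)) * Real.exp c) ^ 2 =
              gw t o x * gw t o y * (Real.exp (t * ‖x - y‖ ^ 2 / 4) * Real.exp (2 * c)) := by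
            rw [mul_pow, gw_mid, ← Real.exp_nat_mul]
            push_cast
            ring
          have e2 : gw t o x * Real.exp (θ * g x) * (gw t o y * Real.exp (-θ * g y)) =
              gw t o x * gw t o y * Real.exp (θ * (g x - g y)) := by
            rw [mul_mul_mul_comm, ← Real.exp_add]
            congr 2
            ring
          rw [e1, e2, ← Real.exp_add]
          apply mul_le_mul_of_nonneg_left _ (mul_pos (gw_pos _ _ _) (gw_pos _ _ _)).le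
          apply Real.exp_le_exp.mpr
          have h1 := hL x hx y hy
          set r : ℝ := ‖x - y‖ with hr
          have hr0 : 0 ≤ r := norm_nonneg _
          have h2 : θ * (g x - g y) ≤ |θ| * (L * r) := by
            calc θ * (g x - g y) ≤ |θ * (g x - g y)| := le_abs_self _
              _ = |θ| * |g x - g y| := abs_mul _ _
              _ ≤ |θ| * (L * r) := by gcongr
          have h3 : 2 * c = θ ^ 2 * L ^ 2 / t := by
            rw [hc]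
            field_simp
          rw [h3]
          have h4 : 0 ≤ (t * r / 2 - |θ| * L) ^ 2 / t := by positivity
          have e3 : (t * r / 2 - |θ| * L) ^ 2 / t =
              t * r ^ 2 / 4 - |θ| * (L * r) + θ ^ 2 * L ^ 2 / t := by
            have : |θ| ^ 2 = θ ^ 2 := sq_abs θ
            field_simp
            rw [← this]
            ring
          rw [e3] at h4
          linarith
        · simp [indicator_of_notMem hy]
      · simp [indicator_of_notMem hx])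
  rw [lint_ind mA hA cA nA, lint_ind mB hB cB nB, lint_ind mC hC cC nC] at pl
  have iC : ∫ x in C, gw t o x * Real.exp c = (∫ x in C, gw t o x) * Real.exp c :=
    integral_mul_const _ _
  have i0A : 0 ≤ ∫ x in A, gw t o x * Real.exp (θ * g x) := integral_nonneg nA
  have i0B : 0 ≤ ∫ x in B, gw t o x * Real.exp (-θ * g x) := integral_nonneg nB
  have i0C : 0 ≤ ∫ x in C, gw t o x * Real.exp c := integral_nonneg nC
  rw [← ENNReal.ofReal_mul i0A, ← ENNReal.ofReal_pow i0C,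
    ENNReal.ofReal_le_ofReal_iff (by positivity), iC, mul_pow, ← Real.exp_nat_mul] at pl
  have e : ((2 : ℕ) : ℝ) * c = θ ^ 2 * L ^ 2 / t := by
    rw [hc]
    push_cast
    field_simp
  rwa [e] at pl

/-- Jensen's inequality for the exponential against the weight `gw`. -/
lemma jensen_exp {S : Set (E d)} {o : E d} {D t : ℝ} (hS : S ⊆ closedBall o D)
    {g : E d → ℝ} (hg : Continuous g) (θ : ℝ) {X : ℝ} (hX : X = ∫ x in S, gw t o x) (hX0 : 0 < X) :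
    X * Real.exp (θ * ((∫ x in S, g x * gw t o x) / X)) ≤
      ∫ x in S, gw t o x * Real.exp (θ * g x) := by
  set b : ℝ := (∫ x in S, g x * gw t o x) / X with hb
  have hw := gw_continuous t o
  have i1 : IntegrableOn (fun x => gw t o x * Real.exp (θ * g x)) S volume :=
    intOn_of_ball hS (by fun_prop)
  have i2 : IntegrableOn (gw t o) S volume := intOn_of_ball hS hw
  have i3 : IntegrableOn (fun x => g x * gw t o x) S volume := intOn_of_ball hS (by fun_prop)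
  have key : ∀ x, Real.exp (θ * b) * ((1 - θ * b) * gw t o x + θ * (g x * gw t o x)) ≤
      gw t o x * Real.exp (θ * g x) := by
    intro x
    have h1 : θ * (g x - b) + 1 ≤ Real.exp (θ * (g x - b)) := Real.add_one_le_exp _
    have h2 : Real.exp (θ * g x) = Real.exp (θ * b) * Real.exp (θ * (g x - b)) := by
      rw [← Real.exp_add]
      congr 1
      ring
    rw [h2]
    have h3 := mul_le_mul_of_nonneg_left h1 (mul_pos (Real.exp_pos (θ * b)) (gw_pos t o x)).le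
    nlinarith [h3]
  have e : ∫ x in S, Real.exp (θ * b) * ((1 - θ * b) * gw t o x + θ * (g x * gw t o x)) =
      X * Real.exp (θ * b) := by
    rw [integral_const_mul, integral_add (i2.const_mul _) (i3.const_mul _), integral_const_mul,
      integral_const_mul, ← hX]
    have : (∫ x in S, g x * gw t o x) = b * X := by
      rw [hb]
      field_simp
    rw [this]
    ring
  rw [← e]
  exact integral_mono ((((i2.const_mul _).add (i3.const_mul _))).const_mul _) i1 key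

/-- The tilted inequality with the optimal tilt. -/
lemma tilt_main {A B C : Set (E d)} {o : E d} {D t L : ℝ} (mA : MeasurableSet A)
    (mB : MeasurableSet B) (mC : MeasurableSet C) (hA : A ⊆ closedBall o D)
    (hB : B ⊆ closedBall o D) (hC : C ⊆ closedBall o D) (ht : 0 < t) (hL0 : 0 < L)
    {g : E d → ℝ} (hg : Continuous g) (hL : ∀ x ∈ A, ∀ y ∈ B, |g x - g y| ≤ L * ‖x - y‖)
    (hmid : ∀ x ∈ A, ∀ y ∈ B, (1 / 2 : ℝ) • (x + y) ∈ C)
    {X Y : ℝ} (hX : X = ∫ x in A, gw t o x) (hY : Y = ∫ x in B, gw t o x)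
    (hX0 : 0 < X) (hY0 : 0 < Y) {Δ : ℝ}
    (hΔ : Δ = (∫ x in A, g x * gw t o x) / X - (∫ x in B, g x * gw t o x) / Y) :
    X * Y * Real.exp (t * Δ ^ 2 / (4 * L ^ 2)) ≤ (∫ x in C, gw t o x) ^ 2 := by
  set θ : ℝ := t * Δ / (2 * L ^ 2) with hθ
  have h0 := tilt_real (θ := θ) mA mB mC hA hB hC ht hg hL hmid
  have j1 := jensen_exp hA hg θ hX hX0
  have j2 := jensen_exp hB hg (-θ) hY hY0
  set a := (∫ x in A, g x * gw t o x) / X with ha
  set b := (∫ x in B, g x * gw t o x) / Y with hb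
  have h1 : (X * Real.exp (θ * a)) * (Y * Real.exp (-θ * b)) ≤
      (∫ x in C, gw t o x) ^ 2 * Real.exp (θ ^ 2 * L ^ 2 / t) :=
    (mul_le_mul j1 j2 (by positivity) (integral_nonneg (fun x =>
      mul_nonneg (gw_pos _ _ _).le (Real.exp_pos _).le))).trans h0
  have e1 : (X * Real.exp (θ * a)) * (Y * Real.exp (-θ * b)) =
      X * Y * Real.exp (θ * Δ) := by
    rw [mul_mul_mul_comm, ← Real.exp_add, hΔ]
    congr 2
    ring
  rw [e1] at h1
  have e2 : θ * Δ = t * Δ ^ 2 / (4 * L ^ 2) + θ ^ 2 * L ^ 2 / t := by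
    rw [hθ]
    field_simp
    ring
  rw [e2, Real.exp_add, ← mul_assoc] at h1
  exact le_of_mul_le_mul_right h1 (Real.exp_pos _)

/-- From the squared form to a linear lower bound. -/
lemma linear_of_sq {X Y z S G : ℝ} (hS : S ^ 2 = X * Y) (hS0 : 0 ≤ S) (hz : 0 ≤ z)
    (h : X * Y * Real.exp (2 * G) ≤ z ^ 2) : S * (1 + G) ≤ z := by
  have h1 : (S * Real.exp G) ^ 2 ≤ z ^ 2 := by
    rw [mul_pow, hS, ← Real.exp_nat_mul]
    simpa using h
  have h2 : S * Real.exp G ≤ z := abs_le_of_sq_le_sq' h1 hz |>.2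
  have h3 : 1 + G ≤ Real.exp G := by
    linarith [Real.add_one_le_exp G]
  exact (mul_le_mul_of_nonneg_left h3 hS0).trans h2

lemma cell_a {X Y S : ℝ} (hX0 : 0 < X) (hY0 : 0 < Y) (hXY1 : X ≤ 3 * Y) (hXY2 : Y ≤ 3 * X)
    (hS : S ^ 2 = X * Y) (hS0 : 0 ≤ S) : X + Y ≤ 3 * S ∧ 2 * S ≤ X + Y := by
  constructor
  · have h1 : (X + Y) ^ 2 ≤ (3 * S) ^ 2 := by
      rw [mul_pow, hS]
      nlinarith [mul_le_mul_of_nonneg_left hXY1 hX0.le, mul_le_mul_of_nonneg_left hXY2 hY0.le]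
    exact abs_le_of_sq_le_sq' h1 (by positivity) |>.2
  · have h1 : (2 * S) ^ 2 ≤ (X + Y) ^ 2 := by
      rw [mul_pow, hS]
      nlinarith [sq_nonneg (X - Y)]
    exact abs_le_of_sq_le_sq' h1 (by positivity) |>.2

lemma cell_b {v rA rB T F Δ₁ : ℝ} (hrA1 : 1 ≤ rA) (hrB1 : 1 ≤ rB)
    (e3 : v * ((rA + rB) / 2) = (-F) - T * Δ₁ / 2) :
    v ^ 2 ≤ 2 * F ^ 2 + T ^ 2 * Δ₁ ^ 2 / 2 := by
  have h2 : 1 ≤ ((rA + rB) / 2) ^ 2 := by
    have : 1 ≤ (rA + rB) / 2 := by linarith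
    nlinarith
  have h1 : v ^ 2 ≤ (v * ((rA + rB) / 2)) ^ 2 := by
    rw [mul_pow]
    nlinarith [sq_nonneg v]
  rw [e3] at h1
  nlinarith [sq_nonneg (2 * F - T * Δ₁)]

lemma cell_c {T S v F E₂ Δ₁ : ℝ} (hT0 : 0 < T) (h2 : (T / 2 - S) * (2 * T) ≤ v ^ 2)
    (h3 : v ^ 2 ≤ 2 * F ^ 2 + T ^ 2 * Δ₁ ^ 2 / 2) (h5 : F ^ 2 ≤ 2 * E₂ * T) :
    T / 2 - S ≤ 2 * E₂ + T * Δ₁ ^ 2 / 4 := by
  have h6 : (T / 2 - S) * (2 * T) ≤ (2 * E₂ + T * Δ₁ ^ 2 / 4) * (2 * T) := by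
    have e : (2 * E₂ + T * Δ₁ ^ 2 / 4) * (2 * T) = 2 * (2 * E₂ * T) + T ^ 2 * Δ₁ ^ 2 / 2 := by ring
    rw [e]
    linarith
  exact le_of_mul_le_mul_right h6 (by positivity)

lemma cell_d {α T S z E₂ Δ₁ Q : ℝ} (hα : 0 < α) (hαT : (50 / 51) * α ≤ T) (hTS : T ≤ 3 * S)
    (hd1 : 0 ≤ Δ₁ ^ 2) (hQ0 : 0 ≤ Q) (h4 : T / 2 - S ≤ 2 * E₂ + T * Δ₁ ^ 2 / 4)
    (h6 : S * (1 + (15 / 8) * Δ₁ ^ 2 + Q / 2048) ≤ z) :
    α * Δ₁ ^ 2 / 4 + α * Q / 8192 - 2 * E₂ ≤ z - T / 2 := by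
  have a1 : (T / 3) * ((15 / 8) * Δ₁ ^ 2) ≤ S * ((15 / 8) * Δ₁ ^ 2) :=
    mul_le_mul_of_nonneg_right (by linarith) (by positivity)
  have a2 : (T / 3) * (Q / 2048) ≤ S * (Q / 2048) :=
    mul_le_mul_of_nonneg_right (by linarith) (by positivity)
  have a3 : α * (Δ₁ ^ 2 / 4) ≤ T * ((3 / 8) * Δ₁ ^ 2) := by
    have : α / 4 ≤ T * (3 / 8) := by linarith
    calc α * (Δ₁ ^ 2 / 4) = (α / 4) * Δ₁ ^ 2 := by ring
      _ ≤ (T * (3 / 8)) * Δ₁ ^ 2 := mul_le_mul_of_nonneg_right this hd1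
      _ = T * ((3 / 8) * Δ₁ ^ 2) := by ring
  have a4 : α * (Q / 8192) ≤ (T / 3) * (Q / 2048) := by
    have : α / 8192 ≤ (T / 3) / 2048 := by linarith
    calc α * (Q / 8192) = (α / 8192) * Q := by ring
      _ ≤ ((T / 3) / 2048) * Q := mul_le_mul_of_nonneg_right this hQ0
      _ = (T / 3) * (Q / 2048) := by ring
  have e1 : S * (1 + (15 / 8) * Δ₁ ^ 2 + Q / 2048) =
      S + S * ((15 / 8) * Δ₁ ^ 2) + S * (Q / 2048) := by ring
  rw [e1] at h6
  have e2 : (T / 3) * ((15 / 8) * Δ₁ ^ 2) = T * ((5 / 8) * Δ₁ ^ 2) := by ring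
  have e3 : T * Δ₁ ^ 2 / 4 = T * ((1 / 4) * Δ₁ ^ 2) := by ring
  have e4 : T * ((5 / 8) * Δ₁ ^ 2) = T * ((1 / 4) * Δ₁ ^ 2) + T * ((3 / 8) * Δ₁ ^ 2) := by ring
  have e5 : α * Δ₁ ^ 2 / 4 = α * (Δ₁ ^ 2 / 4) := by ring
  have e6 : α * Q / 8192 = α * (Q / 8192) := by ring
  rw [e5, e6]
  linarith

lemma cell_e {rA ν μ Δ₁ Δ₂ D : ℝ} (hrA1 : 1 ≤ rA) (hμD : μ ^ 2 ≤ D ^ 2)
    (e8 : rA * (ν - μ) = Δ₂ - Δ₁ * μ) : (ν - μ) ^ 2 ≤ 2 * (Δ₂ ^ 2 + D ^ 2 * Δ₁ ^ 2) := by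
  have a1 : (ν - μ) ^ 2 ≤ (rA * (ν - μ)) ^ 2 := by
    rw [mul_pow]
    have : 1 ≤ rA ^ 2 := by nlinarith
    nlinarith [sq_nonneg (ν - μ)]
  rw [e8] at a1
  have a2 : (Δ₁ * μ) ^ 2 ≤ D ^ 2 * Δ₁ ^ 2 := by
    rw [mul_pow, mul_comm]
    exact mul_le_mul_of_nonneg_right hμD (sq_nonneg _)
  nlinarith [sq_nonneg (Δ₂ + Δ₁ * μ)]

lemma cell_f {D α β I Δ₁ Δ₂ Q E₂ : ℝ} (hD : 0 < D) (hα : 0 < α) (hβ : 0 < β) (hαβ1 : α ≤ 2 * β)
    (hQ : Q = Δ₂ ^ 2 / D ^ 2) (hE : 0 ≤ E₂)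
    (h9 : I ^ 2 ≤ 4 * α ^ 2 * (Δ₂ ^ 2 + D ^ 2 * Δ₁ ^ 2) + 8 * D ^ 2 * α * E₂) :
    (1 / 65536) * I ^ 2 / (β * D ^ 2) ≤ α * Δ₁ ^ 2 / 4 + α * Q / 8192 + E₂ := by
  have hQ0 : 0 ≤ Q := by rw [hQ]; positivity
  have hd1 : 0 ≤ Δ₁ ^ 2 := sq_nonneg _
  rw [div_le_iff₀ (by positivity)]
  have eQ : Q * D ^ 2 = Δ₂ ^ 2 := by
    rw [hQ]
    field_simp
  have b1 : α ^ 2 ≤ α * (2 * β) := by nlinarith
  have hDD : 0 < D ^ 2 := by positivity
  have b2 : α * D ^ 2 ≤ 2 * β * D ^ 2 := mul_le_mul_of_nonneg_right hαβ1 hDD.le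
  have b3 : 4 * α ^ 2 * (Δ₂ ^ 2 + D ^ 2 * Δ₁ ^ 2) ≤
      8 * (α * β * D ^ 2) * (Q + Δ₁ ^ 2) := by
    have e : Δ₂ ^ 2 + D ^ 2 * Δ₁ ^ 2 = D ^ 2 * (Q + Δ₁ ^ 2) := by
      rw [mul_add, mul_comm (D ^ 2) Q, eQ]
    rw [e]
    have hq : 0 ≤ Q + Δ₁ ^ 2 := by positivity
    have h1 : α ^ 2 * D ^ 2 ≤ (α * (2 * β)) * D ^ 2 := mul_le_mul_of_nonneg_right b1 hDD.le
    have h2 := mul_le_mul_of_nonneg_right h1 hq
    linarith
  have b4 : 8 * D ^ 2 * α * E₂ ≤ 16 * (β * D ^ 2) * E₂ := by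
    have h1 := mul_le_mul_of_nonneg_right b2 hE
    linarith
  have b5 : 0 ≤ α * β * D ^ 2 := by positivity
  have b6 : 0 ≤ (β * D ^ 2) * E₂ := by positivity
  have b7 : 0 ≤ α * β * D ^ 2 * Δ₁ ^ 2 := by positivity
  have b8 : (1 / 65536) * I ^ 2 ≤ (1 / 65536) * (8 * (α * β * D ^ 2) * (Q + Δ₁ ^ 2) +
      16 * (β * D ^ 2) * E₂) := by
    linarith
  refine b8.trans ?_
  have e : (α * Δ₁ ^ 2 / 4 + α * Q / 8192 + E₂) * (β * D ^ 2) =
      (α * β * D ^ 2 * Δ₁ ^ 2) / 4 + (α * β * D ^ 2 * Q) / 8192 + (β * D ^ 2) * E₂ := by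
    ring
  rw [e]
  have e2 : (1 / 65536) * (8 * (α * β * D ^ 2) * (Q + Δ₁ ^ 2) + 16 * (β * D ^ 2) * E₂) =
      (α * β * D ^ 2 * Δ₁ ^ 2) / 8192 + (α * β * D ^ 2 * Q) / 8192 + ((β * D ^ 2) * E₂) / 4096 := by
    ring
  rw [e2]
  linarith

lemma cell_g {α β X Y Na Nb Pp D rA rB Δ₁ Δ₂ E₂ I : ℝ} (hα : 0 < α) (hβ : 0 < β)
    (hX0 : 0 < X) (hY0 : 0 < Y) (eα : α = rA * X) (eβ : β = rB * Y) (hrA1 : 1 ≤ rA)
    (hΔ₁' : Δ₁ = rA - rB) (hΔ₂ : Δ₂ = Na / X - Nb / Y) (hNb : |Nb| ≤ D * β)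
    (hI : I = (Na - α * (Nb / β)) + Pp) (hPp : Pp ^ 2 ≤ 4 * D ^ 2 * α * E₂) :
    I ^ 2 ≤ 4 * α ^ 2 * (Δ₂ ^ 2 + D ^ 2 * Δ₁ ^ 2) + 8 * D ^ 2 * α * E₂ := by
  obtain ⟨μ, hμ⟩ : ∃ μ, μ = Nb / β := ⟨_, rfl⟩
  have hμD : μ ^ 2 ≤ D ^ 2 := by
    have h1 : |μ| ≤ D := by
      rw [hμ, abs_div, abs_of_pos hβ, div_le_iff₀ hβ]
      exact hNb
    exact sq_le_sq' (by linarith [(abs_le.mp h1).1]) (abs_le.mp h1).2
  obtain ⟨ν, hν⟩ : ∃ ν, ν = Na / α := ⟨_, rfl⟩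
  have eNa : Na = α * ν := by
    rw [hν]
    field_simp
  have eNb : Nb = β * μ := by
    rw [hμ]
    field_simp
  have e8 : rA * (ν - μ) = Δ₂ - Δ₁ * μ := by
    have a1 : Na / X = rA * ν := by
      rw [eNa, eα]
      field_simp
    have a2 : Nb / Y = rB * μ := by
      rw [eNb, eβ]
      field_simp
    rw [hΔ₂, hΔ₁', a1, a2]
    ring
  have h8 := cell_e hrA1 hμD e8
  have e9 : Na - α * (Nb / β) = α * (ν - μ) := by
    rw [← hμ, eNa]
    ring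
  rw [e9] at hI
  rw [hI]
  have a1 : (α * (ν - μ)) ^ 2 ≤ α ^ 2 * (2 * (Δ₂ ^ 2 + D ^ 2 * Δ₁ ^ 2)) := by
    rw [mul_pow]
    exact mul_le_mul_of_nonneg_left h8 (by positivity)
  have a2 : (α * (ν - μ) + Pp) ^ 2 ≤ 2 * (α * (ν - μ)) ^ 2 + 2 * Pp ^ 2 := by
    nlinarith [sq_nonneg (α * (ν - μ) - Pp)]
  linarith

lemma cell_h {α β X Y S F E₂ rA rB Δ₁ T : ℝ} (hT : T = X + Y) (hT0 : 0 < T)
    (hαT : α ≤ 2 * T) (hF : β = α + F) (hFE : F ^ 2 ≤ α * E₂) (hE : 0 ≤ E₂)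
    (hS : S ^ 2 = X * Y) (hSmax : 2 * S ≤ T) (hS0 : 0 ≤ S) (hrA1 : 1 ≤ rA) (hrB1 : 1 ≤ rB)
    (eα : α = rA * X) (eβ : β = rB * Y) (hΔ₁' : Δ₁ = rA - rB) :
    T / 2 - S ≤ 2 * E₂ + T * Δ₁ ^ 2 / 4 := by
  have e3 : (X - Y) * ((rA + rB) / 2) = (-F) - T * Δ₁ / 2 := by
    have : -F = α - β := by rw [hF]; ring
    rw [this, eα, eβ, hΔ₁', hT]
    ring
  have h3 := cell_b hrA1 hrB1 e3
  have h2 : (T / 2 - S) * (2 * T) ≤ (X - Y) ^ 2 := by
    have e : (X - Y) ^ 2 = T ^ 2 - 4 * S ^ 2 := by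
      rw [hS, hT]
      ring
    rw [e]
    nlinarith [mul_nonneg (sub_nonneg.mpr hSmax) hS0]
  have h5 : F ^ 2 ≤ 2 * E₂ * T := by
    calc F ^ 2 ≤ α * E₂ := hFE
      _ ≤ (2 * T) * E₂ := mul_le_mul_of_nonneg_right hαT hE
      _ = 2 * E₂ * T := by ring
  exact cell_c hT0 h2 h3 h5

/-- The arithmetic of one cell. -/
lemma cell_real {D α β X Y S z Na Nb F E₂ Pp Δ₁ Δ₂ I : ℝ} (hD : 0 < D) (hα : 0 < α) (hβ : 0 < β)
    (hX1 : X ≤ α) (hX2 : (50 / 51) * α ≤ X) (hY1 : Y ≤ β) (hY2 : (50 / 51) * β ≤ Y)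
    (hαβ1 : α ≤ 2 * β) (hαβ2 : β ≤ 2 * α) (hF : β = α + F) (hFE : F ^ 2 ≤ α * E₂) (hE : 0 ≤ E₂)
    (hS : S ^ 2 = X * Y) (hS0 : 0 ≤ S) (hz1 : S * (1 + (15 / 4) * Δ₁ ^ 2) ≤ z)
    (hz2 : S * (1 + Δ₂ ^ 2 / (1024 * D ^ 2)) ≤ z) (hΔ₁ : Δ₁ = α / X - β / Y)
    (hΔ₂ : Δ₂ = Na / X - Nb / Y) (hNb : |Nb| ≤ D * β) (hI : I = (Na - α * (Nb / β)) + Pp)
    (hPp : Pp ^ 2 ≤ 4 * D ^ 2 * α * E₂) :
    (1 / 65536) * I ^ 2 / (β * D ^ 2) - 3 * E₂ ≤ z - (X + Y) / 2 := by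
  have hX0 : 0 < X := by linarith [mul_pos (by norm_num : (0:ℝ) < 50 / 51) hα]
  have hY0 : 0 < Y := by linarith [mul_pos (by norm_num : (0:ℝ) < 50 / 51) hβ]
  obtain ⟨T, hT⟩ : ∃ T, T = X + Y := ⟨_, rfl⟩
  have hT0 : 0 < T := by rw [hT]; positivity
  have hXY1 : X ≤ 3 * Y := by linarith
  have hXY2 : Y ≤ 3 * X := by linarith
  obtain ⟨hTS, hSmax⟩ := cell_a hX0 hY0 hXY1 hXY2 hS hS0
  rw [← hT] at hTS hSmax
  obtain ⟨rA, hrA⟩ : ∃ rA, rA = α / X := ⟨_, rfl⟩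
  obtain ⟨rB, hrB⟩ : ∃ rB, rB = β / Y := ⟨_, rfl⟩
  have hrA1 : 1 ≤ rA := by
    rw [hrA, le_div_iff₀ hX0]
    linarith
  have hrB1 : 1 ≤ rB := by
    rw [hrB, le_div_iff₀ hY0]
    linarith
  have eα : α = rA * X := by
    rw [hrA]
    field_simp
  have eβ : β = rB * Y := by
    rw [hrB]
    field_simp
  have hΔ₁' : Δ₁ = rA - rB := by rw [hΔ₁, hrA, hrB]
  have hαT : (50 / 51) * α ≤ T := by linarith
  have h4 := cell_h hT hT0 (by linarith) hF hFE hE hS hSmax hS0 hrA1 hrB1 eα eβ hΔ₁'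
  have h9 := cell_g hα hβ hX0 hY0 eα eβ hrA1 hΔ₁' hΔ₂ hNb hI hPp
  obtain ⟨Q, hQ⟩ : ∃ Q, Q = Δ₂ ^ 2 / D ^ 2 := ⟨_, rfl⟩
  have hQ0 : 0 ≤ Q := by rw [hQ]; positivity
  have h6 : S * (1 + (15 / 8) * Δ₁ ^ 2 + Q / 2048) ≤ z := by
    have e6 : Δ₂ ^ 2 / (1024 * D ^ 2) = Q / 1024 := by
      rw [hQ]
      field_simp
    rw [e6] at hz2
    have e : S * (1 + (15 / 8) * Δ₁ ^ 2 + Q / 2048) =
        (S * (1 + (15 / 4) * Δ₁ ^ 2) + S * (1 + Q / 1024)) / 2 := by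
      ring
    rw [e]
    linarith
  have h7 := cell_d hα hαT hTS (sq_nonneg Δ₁) hQ0 h4 h6
  have h10 := cell_f hD hα hβ hαβ1 hQ hE h9
  rw [← hT]
  linarith

/-- Cauchy-Schwarz on a bounded set for continuous functions. -/
lemma cs_set {S : Set (E d)} {o : E d} {D : ℝ} (hS : S ⊆ closedBall o D) {u v : E d → ℝ}
    (hu : Continuous u) (hv : Continuous v) :
    (∫ x in S, u x * v x) ^ 2 ≤ (∫ x in S, u x ^ 2) * ∫ x in S, v x ^ 2 := by
  have iu : IntegrableOn (fun x => u x ^ 2) S volume := intOn_of_ball hS (by fun_prop)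
  have iv : IntegrableOn (fun x => v x ^ 2) S volume := intOn_of_ball hS (by fun_prop)
  have iuv : IntegrableOn (fun x => u x * v x) S volume := intOn_of_ball hS (by fun_prop)
  have key : ∀ l : ℝ, 0 ≤ (∫ x in S, v x ^ 2) * (l * l) +
      (-(2 * ∫ x in S, u x * v x)) * l + ∫ x in S, u x ^ 2 := by
    intro l
    have h0 : 0 ≤ ∫ x in S, (u x - l * v x) ^ 2 := integral_nonneg (fun x => sq_nonneg _)
    have e : ∀ x, (u x - l * v x) ^ 2 = u x ^ 2 + (-(2 * l)) * (u x * v x) + (l * l) * v x ^ 2 :=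
      fun x => by ring
    simp only [e] at h0
    have i1 : IntegrableOn (fun x => u x ^ 2 + (-(2 * l)) * (u x * v x)) S volume :=
      iu.add (iuv.const_mul _)
    rw [integral_add i1 (iv.const_mul _), integral_add iu (iuv.const_mul _),
      integral_const_mul, integral_const_mul] at h0
    linarith
  have h := discrim_le_zero key
  rw [discrim] at h
  nlinarith

lemma exp_mid_bound : Real.exp (1 / 64) ≤ 51 / 50 := by
  have h1 : 1 - 1 / 64 ≤ Real.exp (-(1 / 64)) := by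
    have := Real.add_one_le_exp (-(1 / 64 : ℝ))
    linarith
  have h2 : Real.exp (1 / 64) * Real.exp (-(1 / 64)) = 1 := by
    rw [← Real.exp_add]
    simp
  have h3 := Real.exp_pos (1 / 64 : ℝ)
  nlinarith

/-- The inverse weight. -/
noncomputable def gwi (t : ℝ) (o x : E d) : ℝ := Real.exp (t * ‖x - o‖ ^ 2 / 2)

lemma gwi_continuous (t : ℝ) (o : E d) : Continuous (gwi t o) := by
  unfold gwi
  fun_prop

lemma gwi_mul_gw (t : ℝ) (o x : E d) : gwi t o x * gw t o x = 1 := by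
  unfold gwi gw
  rw [← Real.exp_add]
  simp

section ball

variable {o : E d} {D : ℝ}

lemma ball_exponent (hD : 0 < D) {x : E d} (hx : x ∈ closedBall o D) :
    (1 / (32 * D ^ 2)) * ‖x - o‖ ^ 2 / 2 ≤ 1 / 64 := by
  have h1 : ‖x - o‖ ≤ D := by simpa [dist_eq_norm] using hx
  have h2 : ‖x - o‖ ^ 2 ≤ D ^ 2 := pow_le_pow_left₀ (norm_nonneg _) h1 2
  have e : (1 / (32 * D ^ 2)) * ‖x - o‖ ^ 2 / 2 = (‖x - o‖ ^ 2 / D ^ 2) / 64 := by
    field_simp
    ring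
  rw [e]
  have h3 : ‖x - o‖ ^ 2 / D ^ 2 ≤ 1 := (div_le_one (by positivity)).mpr h2
  linarith

lemma gwi_le (hD : 0 < D) {x : E d} (hx : x ∈ closedBall o D) :
    gwi (1 / (32 * D ^ 2)) o x ≤ 51 / 50 :=
  (Real.exp_le_exp.mpr (ball_exponent hD hx)).trans exp_mid_bound

lemma one_le_gwi (hD : 0 < D) (x : E d) : 1 ≤ gwi (1 / (32 * D ^ 2)) o x := by
  unfold gwi
  apply Real.one_le_exp
  positivity

lemma gw_le_one (hD : 0 < D) (x : E d) : gw (1 / (32 * D ^ 2)) o x ≤ 1 := by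
  unfold gw
  apply Real.exp_le_one_iff.mpr
  have : 0 ≤ (1 / (32 * D ^ 2)) * ‖x - o‖ ^ 2 / 2 := by positivity
  linarith

lemma gw_ge (hD : 0 < D) {x : E d} (hx : x ∈ closedBall o D) :
    50 / 51 ≤ gw (1 / (32 * D ^ 2)) o x := by
  have h1 := gwi_mul_gw (1 / (32 * D ^ 2)) o x
  have h2 := gwi_le hD hx
  have h3 := gw_pos (1 / (32 * D ^ 2)) o x
  nlinarith

lemma gwi_lip (hD : 0 < D) {x y : E d} (hx : x ∈ closedBall o D) (hy : y ∈ closedBall o D) :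
    |gwi (1 / (32 * D ^ 2)) o x - gwi (1 / (32 * D ^ 2)) o y| ≤
      ((51 / 50) * ((1 / (32 * D ^ 2)) * D)) * ‖x - y‖ := by
  set t : ℝ := 1 / (32 * D ^ 2) with ht
  have ht0 : 0 < t := by positivity
  have h1 : ‖x - o‖ ≤ D := by simpa [dist_eq_norm] using hx
  have h2 : ‖y - o‖ ≤ D := by simpa [dist_eq_norm] using hy
  have h3 : |‖x - o‖ - ‖y - o‖| ≤ ‖x - y‖ := by
    have := abs_norm_sub_norm_le (x - o) (y - o)
    rwa [show x - o - (y - o) = x - y by abel] at this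
  set p : ℝ := t * ‖x - o‖ ^ 2 / 2 with hp
  set q : ℝ := t * ‖y - o‖ ^ 2 / 2 with hq
  have hpq : |p - q| ≤ t * D * ‖x - y‖ := by
    have e : p - q = (t / 2) * ((‖x - o‖ - ‖y - o‖) * (‖x - o‖ + ‖y - o‖)) := by
      rw [hp, hq]
      ring
    rw [e, abs_mul, abs_mul, abs_of_pos (by positivity : 0 < t / 2),
      abs_of_nonneg (by positivity : 0 ≤ ‖x - o‖ + ‖y - o‖)]
    have h4 : |‖x - o‖ - ‖y - o‖| * (‖x - o‖ + ‖y - o‖) ≤ ‖x - y‖ * (2 * D) :=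
      mul_le_mul h3 (by linarith) (by positivity) (norm_nonneg _)
    calc t / 2 * (|‖x - o‖ - ‖y - o‖| * (‖x - o‖ + ‖y - o‖)) ≤ t / 2 * (‖x - y‖ * (2 * D)) :=
          mul_le_mul_of_nonneg_left h4 (by positivity)
      _ = t * D * ‖x - y‖ := by ring
  have hxb : Real.exp p ≤ 51 / 50 := gwi_le hD hx
  have hyb : Real.exp q ≤ 51 / 50 := gwi_le hD hy
  have side : ∀ a b : ℝ, Real.exp a ≤ 51 / 50 → |a - b| ≤ t * D * ‖x - y‖ →
      Real.exp a - Real.exp b ≤ (51 / 50) * (t * D) * ‖x - y‖ := by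
    intro a b ha hab
    have h5 : Real.exp a * (b - a + 1) ≤ Real.exp b := by
      have h6 : b - a + 1 ≤ Real.exp (b - a) := Real.add_one_le_exp _
      have h7 := mul_le_mul_of_nonneg_left h6 (Real.exp_pos a).le
      rwa [← Real.exp_add, show a + (b - a) = b by ring] at h7
    have h8 : Real.exp a * (a - b) ≤ (51 / 50) * (t * D * ‖x - y‖) := by
      have h9 : a - b ≤ t * D * ‖x - y‖ := (le_abs_self _).trans hab
      have h10 : 0 ≤ t * D * ‖x - y‖ := by positivity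
      calc Real.exp a * (a - b) ≤ Real.exp a * (t * D * ‖x - y‖) :=
            mul_le_mul_of_nonneg_left h9 (Real.exp_pos a).le
        _ ≤ (51 / 50) * (t * D * ‖x - y‖) := mul_le_mul_of_nonneg_right ha h10
    nlinarith
  show |Real.exp p - Real.exp q| ≤ _
  rw [abs_le]
  have e : (51 / 50) * (t * D) * ‖x - y‖ = (51 / 50) * (t * D) * ‖x - y‖ := rfl
  constructor
  · have := side q p hyb (by rwa [abs_sub_comm])
    have e2 : (51 / 50) * (t * D) * ‖x - y‖ = (51 / 50) * (t * D) * ‖x - y‖ := rfl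
    linarith
  · exact side p q hxb hpq

lemma gwi2_lip (hD : 0 < D) {e : E d} (he : ‖e‖ ≤ 1) {x y : E d} (hx : x ∈ closedBall o D)
    (hy : y ∈ closedBall o D) :
    |inner ℝ (x - o) e * gwi (1 / (32 * D ^ 2)) o x - inner ℝ (y - o) e * gwi (1 / (32 * D ^ 2)) o y|
      ≤ 2 * ‖x - y‖ := by
  set t : ℝ := 1 / (32 * D ^ 2) with ht
  have h1 := gwi_lip hD hx hy
  rw [← ht] at h1
  have h2 : ‖y - o‖ ≤ D := by simpa [dist_eq_norm] using hy
  have e0 : inner ℝ (x - o) e * gwi t o x - inner ℝ (y - o) e * gwi t o y =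
      inner ℝ (x - y) e * gwi t o x + inner ℝ (y - o) e * (gwi t o x - gwi t o y) := by
    have : x - o = (x - y) + (y - o) := by abel
    rw [this, inner_add_left]
    ring
  rw [e0]
  have i1 : |inner ℝ (x - y) e| ≤ ‖x - y‖ := by
    have := abs_real_inner_le_norm (x - y) e
    exact this.trans (by nlinarith [norm_nonneg (x - y)])
  have i2 : |inner ℝ (y - o) e| ≤ D := by
    have := abs_real_inner_le_norm (y - o) e
    exact this.trans (by nlinarith [norm_nonneg (y - o)])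
  have g1 : |gwi t o x| ≤ 51 / 50 := by
    rw [abs_of_pos (by unfold gwi; exact Real.exp_pos _)]
    exact gwi_le hD hx
  have a1 : |inner ℝ (x - y) e * gwi t o x| ≤ ‖x - y‖ * (51 / 50) := by
    rw [abs_mul]
    exact mul_le_mul i1 g1 (abs_nonneg _) (norm_nonneg _)
  have a2 : |inner ℝ (y - o) e * (gwi t o x - gwi t o y)| ≤
      D * (((51 / 50) * (t * D)) * ‖x - y‖) := by
    rw [abs_mul]
    exact mul_le_mul i2 h1 (abs_nonneg _) hD.le
  have e3 : D * (((51 / 50) * (t * D)) * ‖x - y‖) = (51 / 1600) * ‖x - y‖ := by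
    rw [ht]
    field_simp
    ring
  rw [e3] at a2
  have := abs_add_le (inner ℝ (x - y) e * gwi t o x) (inner ℝ (y - o) e * (gwi t o x - gwi t o y))
  have hn := norm_nonneg (x - y)
  linarith

lemma int_const_real (S : Set (E d)) (c : ℝ) : ∫ _x in S, c = volume.real S * c := by
  rw [setIntegral_const, smul_eq_mul]

lemma weight_bounds (hD : 0 < D) {A : Set (E d)} (mA : MeasurableSet A) (hA : A ⊆ closedBall o D) :
    (∫ x in A, gw (1 / (32 * D ^ 2)) o x) ≤ volume.real A ∧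
      (50 / 51) * volume.real A ≤ ∫ x in A, gw (1 / (32 * D ^ 2)) o x := by
  have fA : volume A < ⊤ := (measure_mono hA).trans_lt measure_closedBall_lt_top
  have iwA : IntegrableOn (gw (1 / (32 * D ^ 2)) o) A volume := intOn_of_ball hA (gw_continuous _ _)
  constructor
  · have : ∫ x in A, gw (1 / (32 * D ^ 2)) o x ≤ ∫ _x in A, (1 : ℝ) :=
      setIntegral_mono_on iwA (integrableOn_const fA.ne) mA (fun x _ => gw_le_one hD x)
    rwa [int_const_real, mul_one] at this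
  · have : ∫ _x in A, (50 / 51 : ℝ) ≤ ∫ x in A, gw (1 / (32 * D ^ 2)) o x :=
      setIntegral_mono_on (integrableOn_const fA.ne) iwA mA (fun x hx => gw_ge hD (hA hx))
    rw [int_const_real] at this
    linarith

lemma mass_bounds {A : Set (E d)} (mA : MeasurableSet A) (hA : A ⊆ closedBall o D)
    {ξ : E d → ℝ} (hξc : Continuous ξ) (hξ : ∀ x ∈ A, |ξ x| ≤ 1 / 2) {β : ℝ}
    (hmass : ∫ x in A, (1 + ξ x) = β) :
    β = volume.real A + ∫ x in A, ξ x ∧ β ≤ (3 / 2) * volume.real A ∧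
      (1 / 2) * volume.real A ≤ β := by
  have fA : volume A < ⊤ := (measure_mono hA).trans_lt measure_closedBall_lt_top
  have iξ : IntegrableOn ξ A volume := intOn_of_ball hA hξc
  have h1 : IntegrableOn (fun _ : E d => (1 : ℝ)) A volume := integrableOn_const fA.ne
  have h2 : IntegrableOn (fun x : E d => 1 + ξ x) A volume := h1.add iξ
  refine ⟨?_, ?_, ?_⟩
  · rw [← hmass, integral_add h1 iξ, int_const_real, mul_one]
  · rw [← hmass]
    have : ∫ x in A, (1 + ξ x) ≤ ∫ _x in A, (3 / 2 : ℝ) := by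
      apply setIntegral_mono_on h2 (integrableOn_const fA.ne) mA
      intro x hx
      have := abs_le.mp (hξ x hx)
      linarith [this.2]
    rw [int_const_real] at this
    linarith
  · rw [← hmass]
    have : ∫ _x in A, (1 / 2 : ℝ) ≤ ∫ x in A, (1 + ξ x) := by
      apply setIntegral_mono_on (integrableOn_const fA.ne) h2 mA
      intro x hx
      have := abs_le.mp (hξ x hx)
      linarith [this.1]
    rw [int_const_real] at this
    linarith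

lemma tilt_one (hD : 0 < D) {A B C : Set (E d)} (mA : MeasurableSet A) (mB : MeasurableSet B)
    (mC : MeasurableSet C) (hA : A ⊆ closedBall o D) (hB : B ⊆ closedBall o D)
    (hC : C ⊆ closedBall o D) (hmid : ∀ x ∈ A, ∀ y ∈ B, (1 / 2 : ℝ) • (x + y) ∈ C)
    {X Y S z Δ₁ : ℝ} (hX : X = ∫ x in A, gw (1 / (32 * D ^ 2)) o x)
    (hY : Y = ∫ x in B, gw (1 / (32 * D ^ 2)) o x) (hz : z = ∫ x in C, gw (1 / (32 * D ^ 2)) o x)
    (hX0 : 0 < X) (hY0 : 0 < Y) (hS2 : S ^ 2 = X * Y) (hS0 : 0 ≤ S)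
    (hΔ₁ : Δ₁ = volume.real A / X - volume.real B / Y) :
    S * (1 + (15 / 4) * Δ₁ ^ 2) ≤ z := by
  set t : ℝ := 1 / (32 * D ^ 2) with ht
  have ht0 : 0 < t := by positivity
  have hz0 : 0 ≤ z := by
    rw [hz]
    exact integral_nonneg (fun x => (gw_pos _ _ _).le)
  have hL : 0 < (51 / 50) * (t * D) := by positivity
  have := tilt_main (g := gwi t o) (L := (51 / 50) * (t * D)) (Δ := Δ₁) mA mB mC hA hB hC ht0
    hL (gwi_continuous t o) (fun x hx y hy => gwi_lip hD (hA hx) (hB hy)) hmid hX hY hX0 hY0 (by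
      simp only [gwi_mul_gw, int_const_real, mul_one]
      exact hΔ₁)
  apply linear_of_sq hS2 hS0 hz0
  rw [← hz] at this
  refine le_trans ?_ this
  apply mul_le_mul_of_nonneg_left _ (by positivity)
  apply Real.exp_le_exp.mpr
  have e : t * Δ₁ ^ 2 / (4 * ((51 / 50) * (t * D)) ^ 2) = (20000 / 2601) * Δ₁ ^ 2 := by
    rw [ht]
    field_simp
    ring
  rw [e]
  nlinarith [sq_nonneg Δ₁]

lemma tilt_two (hD : 0 < D) {A B C : Set (E d)} (mA : MeasurableSet A) (mB : MeasurableSet B)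
    (mC : MeasurableSet C) (hA : A ⊆ closedBall o D) (hB : B ⊆ closedBall o D)
    (hC : C ⊆ closedBall o D) (hmid : ∀ x ∈ A, ∀ y ∈ B, (1 / 2 : ℝ) • (x + y) ∈ C)
    {e : E d} (he : ‖e‖ ≤ 1)
    {X Y S z Δ₂ : ℝ} (hX : X = ∫ x in A, gw (1 / (32 * D ^ 2)) o x)
    (hY : Y = ∫ x in B, gw (1 / (32 * D ^ 2)) o x) (hz : z = ∫ x in C, gw (1 / (32 * D ^ 2)) o x)
    (hX0 : 0 < X) (hY0 : 0 < Y) (hS2 : S ^ 2 = X * Y) (hS0 : 0 ≤ S)
    (hΔ₂ : Δ₂ = (∫ x in A, inner ℝ (x - o) e) / X - (∫ x in B, inner ℝ (x - o) e) / Y) :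
    S * (1 + Δ₂ ^ 2 / (1024 * D ^ 2)) ≤ z := by
  set t : ℝ := 1 / (32 * D ^ 2) with ht
  have ht0 : 0 < t := by positivity
  have hz0 : 0 ≤ z := by
    rw [hz]
    exact integral_nonneg (fun x => (gw_pos _ _ _).le)
  have cin : Continuous (fun x : E d => inner ℝ (x - o) e) := by fun_prop
  have := tilt_main (g := fun x => inner ℝ (x - o) e * gwi t o x) (L := 2) (Δ := Δ₂)
    mA mB mC hA hB hC ht0 (by norm_num) (cin.mul (gwi_continuous t o))
    (fun x hx y hy => gwi2_lip hD he (hA hx) (hB hy)) hmid hX hY hX0 hY0 (by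
      have e1 : ∀ x, inner ℝ (x - o) e * gwi t o x * gw t o x = inner ℝ (x - o) e := by
        intro x
        rw [mul_assoc, gwi_mul_gw, mul_one]
      simp only [e1]
      exact hΔ₂)
  apply linear_of_sq hS2 hS0 hz0
  rw [← hz] at this
  refine le_trans (le_of_eq ?_) this
  congr 2
  rw [ht]
  field_simp
  ring

lemma pair_term (hD : 0 < D) {A B : Set (E d)} (mA : MeasurableSet A)
    (hA : A ⊆ closedBall o D) (hB : B ⊆ closedBall o D)
    {ξ : E d → ℝ} (hξc : Continuous ξ) {e : E d} (he : ‖e‖ ≤ 1) {β : ℝ}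
    (hβ0 : 0 < β) (hβ : β = volume.real B)
    (hβF : β = volume.real A + ∫ x in A, ξ x) :
    |∫ x in B, inner ℝ (x - o) e| ≤ D * β ∧
    ∃ Pp : ℝ, Pp ^ 2 ≤ 4 * D ^ 2 * volume.real A * ∫ x in A, ξ x ^ 2 ∧
      (∫ x in A, inner ℝ (x - o) e * (1 + ξ x)) - ∫ x in B, inner ℝ (x - o) e =
        ((∫ x in A, inner ℝ (x - o) e) -
          volume.real A * ((∫ x in B, inner ℝ (x - o) e) / β)) + Pp := by
  have fA : volume A < ⊤ := (measure_mono hA).trans_lt measure_closedBall_lt_top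
  have fB : volume B < ⊤ := (measure_mono hB).trans_lt measure_closedBall_lt_top
  have cin : Continuous (fun x : E d => inner ℝ (x - o) e) := by fun_prop
  obtain ⟨Nb, hNb⟩ : ∃ Nb, Nb = ∫ x in B, inner ℝ (x - o) e := ⟨_, rfl⟩
  rw [← hNb]
  have hNbB : |Nb| ≤ D * β := by
    rw [hNb, hβ, ← Real.norm_eq_abs]
    apply norm_setIntegral_le_of_norm_le_const fB
    intro x hx
    have h2 : ‖x - o‖ ≤ D := by simpa [dist_eq_norm] using hB hx
    have := abs_real_inner_le_norm (x - o) e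
    rw [Real.norm_eq_abs]
    exact this.trans (by nlinarith [norm_nonneg (x - o)])
  refine ⟨hNbB, ?_⟩
  obtain ⟨μ, hμ⟩ : ∃ μ, μ = Nb / β := ⟨_, rfl⟩
  have hμD : |μ| ≤ D := by
    rw [hμ, abs_div, abs_of_pos hβ0, div_le_iff₀ hβ0]
    exact hNbB
  refine ⟨∫ x in A, (inner ℝ (x - o) e - μ) * ξ x, ?_, ?_⟩
  · have c1 : Continuous (fun x : E d => inner ℝ (x - o) e - μ) := cin.sub continuous_const
    have h0 := cs_set hA c1 hξc
    refine h0.trans (mul_le_mul_of_nonneg_right ?_ (integral_nonneg (fun x => sq_nonneg _)))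
    have : ∫ x in A, (inner ℝ (x - o) e - μ) ^ 2 ≤ ∫ _x in A, (4 * D ^ 2 : ℝ) := by
      apply setIntegral_mono_on (intOn_of_ball hA (by fun_prop)) (integrableOn_const fA.ne) mA
      intro x hx
      have h2 : ‖x - o‖ ≤ D := by simpa [dist_eq_norm] using hA hx
      have h3 : |inner ℝ (x - o) e| ≤ D :=
        (abs_real_inner_le_norm (x - o) e).trans (by nlinarith [norm_nonneg (x - o)])
      have h4 : |inner ℝ (x - o) e - μ| ≤ 2 * D :=
        (abs_sub _ _).trans (by linarith)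
      have h5 := sq_le_sq' (abs_le.mp h4).1 (abs_le.mp h4).2
      nlinarith
    rw [int_const_real] at this
    linarith
  · have i1 : IntegrableOn (fun x => inner ℝ (x - o) e) A volume := intOn_of_ball hA cin
    have i2 : IntegrableOn (fun x => inner ℝ (x - o) e * ξ x) A volume :=
      intOn_of_ball hA (cin.mul hξc)
    have iξ : IntegrableOn ξ A volume := intOn_of_ball hA hξc
    have e1 : ∫ x in A, inner ℝ (x - o) e * (1 + ξ x) =
        (∫ x in A, inner ℝ (x - o) e) + ∫ x in A, inner ℝ (x - o) e * ξ x := by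
      rw [← integral_add i1 i2]
      congr 1
      funext x
      ring
    have e2 : ∫ x in A, (inner ℝ (x - o) e - μ) * ξ x =
        (∫ x in A, inner ℝ (x - o) e * ξ x) - μ * ∫ x in A, ξ x := by
      rw [← integral_const_mul, ← integral_sub i2 (iξ.const_mul _)]
      congr 1
      funext x
      ring
    have e3 : Nb = β * μ := by
      rw [hμ]
      field_simp
    rw [e1, e2, ← hμ, e3, hβF]
    ring

/-- The main inequality of one cell. -/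
theorem one_cell (hD : 0 < D) {A B C : Set (E d)} (mA : MeasurableSet A) (mB : MeasurableSet B)
    (mC : MeasurableSet C) (hA : A ⊆ closedBall o D) (hB : B ⊆ closedBall o D)
    (hC : C ⊆ closedBall o D) (hmid : ∀ x ∈ A, ∀ y ∈ B, (1 / 2 : ℝ) • (x + y) ∈ C)
    {ξ : E d → ℝ} (hξc : Continuous ξ) (hξ : ∀ x ∈ A, |ξ x| ≤ 1 / 2)
    (hmass : ∫ x in A, (1 + ξ x) = volume.real B) (hm : 0 < volume.real B)
    {e : E d} (he : ‖e‖ ≤ 1) :
    (1 / 65536) * ((∫ x in A, inner ℝ (x - o) e * (1 + ξ x)) - ∫ x in B, inner ℝ (x - o) e) ^ 2 /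
        (volume.real B * D ^ 2) - 3 * ∫ x in A, ξ x ^ 2 ≤
      (∫ x in C, gw (1 / (32 * D ^ 2)) o x) -
        ((∫ x in A, gw (1 / (32 * D ^ 2)) o x) + ∫ x in B, gw (1 / (32 * D ^ 2)) o x) / 2 := by
  obtain ⟨hβF, hsup, hinf⟩ := mass_bounds mA hA hξc hξ hmass
  obtain ⟨hX1, hX2⟩ := weight_bounds hD mA hA
  obtain ⟨hY1, hY2⟩ := weight_bounds hD mB hB
  obtain ⟨hNbB, Pp, hPp2, hIeq⟩ := pair_term (o := o) hD mA hA hB hξc he hm rfl hβF
  obtain ⟨α, hα⟩ : ∃ α, α = volume.real A := ⟨_, rfl⟩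
  obtain ⟨β, hβ⟩ : ∃ β, β = volume.real B := ⟨_, rfl⟩
  obtain ⟨X, hX⟩ : ∃ X, X = ∫ x in A, gw (1 / (32 * D ^ 2)) o x := ⟨_, rfl⟩
  obtain ⟨Y, hY⟩ : ∃ Y, Y = ∫ x in B, gw (1 / (32 * D ^ 2)) o x := ⟨_, rfl⟩
  obtain ⟨z, hz⟩ : ∃ z, z = ∫ x in C, gw (1 / (32 * D ^ 2)) o x := ⟨_, rfl⟩
  obtain ⟨F, hF⟩ : ∃ F, F = ∫ x in A, ξ x := ⟨_, rfl⟩
  obtain ⟨E₂, hE₂⟩ : ∃ E₂, E₂ = ∫ x in A, ξ x ^ 2 := ⟨_, rfl⟩
  obtain ⟨Na, hNa⟩ : ∃ Na, Na = ∫ x in A, inner ℝ (x - o) e := ⟨_, rfl⟩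
  obtain ⟨Nb, hNb⟩ : ∃ Nb, Nb = ∫ x in B, inner ℝ (x - o) e := ⟨_, rfl⟩
  obtain ⟨I, hI⟩ : ∃ I, I = (∫ x in A, inner ℝ (x - o) e * (1 + ξ x)) - Nb := ⟨_, rfl⟩
  rw [← hα, ← hF, ← hβ] at hβF
  rw [← hα, ← hβ] at hsup hinf
  rw [← hα, ← hX] at hX1 hX2
  rw [← hβ, ← hY] at hY1 hY2
  rw [← hNb, ← hβ] at hNbB
  rw [← hα, ← hE₂] at hPp2
  rw [← hNa, ← hNb, ← hI, ← hα, ← hβ] at hIeq
  rw [← hNb, ← hI, ← hβ, ← hE₂, ← hX, ← hY, ← hz]
  rw [← hβ] at hm
  have hα0 : 0 < α := by linarith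
  have hX0 : 0 < X := by linarith [mul_pos (by norm_num : (0:ℝ) < 50 / 51) hα0]
  have hY0 : 0 < Y := by linarith [mul_pos (by norm_num : (0:ℝ) < 50 / 51) hm]
  have hFE : F ^ 2 ≤ α * E₂ := by
    have := cs_set hA continuous_const hξc (u := fun _ => (1 : ℝ))
    simp only [one_mul, one_pow] at this
    rw [int_const_real, mul_one] at this
    rw [hF, hα, hE₂]
    exact this
  have hE0 : 0 ≤ E₂ := by
    rw [hE₂]
    exact integral_nonneg (fun x => sq_nonneg _)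
  have hS0 : 0 ≤ Real.sqrt (X * Y) := Real.sqrt_nonneg _
  have hS2 : Real.sqrt (X * Y) ^ 2 = X * Y := Real.sq_sqrt (by positivity)
  have tilt₁ := tilt_one hD mA mB mC hA hB hC hmid hX hY hz hX0 hY0 hS2 hS0 (Δ₁ := α / X - β / Y)
    (by rw [hα, hβ])
  have tilt₂ := tilt_two hD mA mB mC hA hB hC hmid he hX hY hz hX0 hY0 hS2 hS0
    (Δ₂ := Na / X - Nb / Y) (by rw [hNa, hNb])
  exact cell_real hD hα0 hm hX1 hX2 hY1 hY2 (by linarith) (by linarith) hβF hFE hE0 hS2 hS0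
    tilt₁ tilt₂ rfl rfl hNbB hIeq hPp2

end ball

end Vale.Agent.P074
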