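import Vale.Agent.Lib.P074.Core

open MeasureTheory Set Filter Topology Metric

namespace Vale.Agent.P074

set_option linter.unusedSectionVars false

variable {d : ℕ}

lemma lip_continuous {φ : E d → ℝ} {R : ℝ} (hR : 0 ≤ R)
    (h : ∀ x y, φ x ≤ φ y + R * ‖x - y‖) : Continuous φ := by
  have : LipschitzWith (Real.toNNReal R) φ := by
    apply LipschitzWith.of_le_add_mul
    intro x y
    rw [Real.coe_toNNReal R hR, dist_eq_norm]
    exact h x y
  exact this.continuous

/-- Conjugate of `φ` relative to `K`. -/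
noncomputable def conjK (K : Set (E d)) (φ : E d → ℝ) (z : E d) : ℝ :=
  sSup ((fun x => inner ℝ x z - φ x) '' K)

lemma conj_bdd {K : Set (E d)} (hK : IsCompact K) {φ : E d → ℝ} (hφ : Continuous φ) (z : E d) :
    BddAbove ((fun x => inner ℝ x z - φ x) '' K) :=
  (hK.image (by fun_prop)).bddAbove

lemma le_conj {K : Set (E d)} (hK : IsCompact K) {φ : E d → ℝ} (hφ : Continuous φ) {x z : E d}
    (hx : x ∈ K) : inner ℝ x z - φ x ≤ conjK K φ z :=
  le_csSup (conj_bdd hK hφ z) ⟨x, hx, rfl⟩

lemma conj_eq {K : Set (E d)} (hK : IsCompact K) {φ : E d → ℝ} (hφ : Continuous φ) {x z : E d}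
    (hx : x ∈ K) (hsub : ∀ y, φ x + inner ℝ (y - x) z ≤ φ y) :
    conjK K φ z = inner ℝ x z - φ x := by
  apply le_antisymm _ (le_conj hK hφ hx)
  apply csSup_le (Set.Nonempty.image _ ⟨x, hx⟩)
  rintro _ ⟨y, _, rfl⟩
  have := hsub y
  rw [inner_sub_left] at this
  simp only []
  linarith

lemma conj_lip {K : Set (E d)} (hK : IsCompact K) (hne : K.Nonempty) {φ : E d → ℝ}
    (hφ : Continuous φ) {Rk : ℝ} (hRk : ∀ x ∈ K, ‖x‖ ≤ Rk) (z z' : E d) :
    conjK K φ z ≤ conjK K φ z' + Rk * ‖z - z'‖ := by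
  apply csSup_le (hne.image _)
  rintro _ ⟨x, hx, rfl⟩
  have h1 := le_conj hK hφ (z := z') hx
  have h2 : inner ℝ x z = inner ℝ x z' + inner ℝ x (z - z') := by
    rw [inner_sub_right]
    ring
  have h3 : inner ℝ x (z - z') ≤ ‖x‖ * ‖z - z'‖ := real_inner_le_norm _ _
  have h4 : ‖x‖ * ‖z - z'‖ ≤ Rk * ‖z - z'‖ :=
    mul_le_mul_of_nonneg_right (hRk x hx) (norm_nonneg _)
  simp only []
  linarith

lemma conj_continuous {K : Set (E d)} (hK : IsCompact K) (hne : K.Nonempty) {φ : E d → ℝ}
    (hφ : Continuous φ) {Rk : ℝ} (hRk0 : 0 ≤ Rk) (hRk : ∀ x ∈ K, ‖x‖ ≤ Rk) :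
    Continuous (conjK K φ) :=
  lip_continuous hRk0 (conj_lip hK hne hφ hRk)

/-- Second difference formula: integral of the second difference over `A`. -/
lemma int_second_diff {A L : Set (E d)} (hA : MeasurableSet A) (hAf : volume A ≠ ⊤)
    (hL : MeasurableSet L) (hLA : L ⊆ A) {w : E d} (hLw : ∀ x ∈ L, x + w ∈ A)
    {φ : E d → ℝ} {R : ℝ} (hR : 0 ≤ R) (hφ : ∀ x y, φ x ≤ φ y + R * ‖x - y‖) :
    ∫ x in A, (φ (x + w) + φ (x - w) - 2 * φ x) ≤
      2 * R * ‖w‖ * (volume.real A - volume.real L) := by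
  have hφc : Continuous φ := lip_continuous hR hφ
  set F : E d → ℝ := fun x => φ (x + w) - φ x with hF
  have hFc : Continuous F := by
    apply Continuous.sub _ hφc
    exact hφc.comp (continuous_id.add continuous_const)
  have hFb : ∀ x, ‖F x‖ ≤ R * ‖w‖ := by
    intro x
    rw [Real.norm_eq_abs, abs_le]
    have h1 := hφ (x + w) x
    have h2 := hφ x (x + w)
    have e1 : ‖x + w - x‖ = ‖w‖ := by simp
    have e2 : ‖x - (x + w)‖ = ‖w‖ := by simp
    rw [e1] at h1
    rw [e2] at h2
    simp only [hF]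
    constructor <;> linarith
  set f : E d → E d := fun x => x + w with hf
  have hfm : MeasurePreserving f volume volume := measurePreserving_add_right volume w
  have hfe : MeasurableEmbedding f := (MeasurableEquiv.addRight w).measurableEmbedding
  set A' : Set (E d) := f ⁻¹' A with hA'
  have hA'm : MeasurableSet A' := hfm.measurable hA
  have hA'vol : volume A' = volume A := hfm.measure_preimage hA.nullMeasurableSet
  have hLA' : L ⊆ A' := fun x hx => hLw x hx
  have hint : ∀ B : Set (E d), volume B ≠ ⊤ → IntegrableOn F B volume := by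
    intro B hB
    apply Measure.integrableOn_of_bounded hB hFc.aestronglyMeasurable
      (Eventually.of_forall hFb)
  have hA'f : volume A' ≠ ⊤ := by rwa [hA'vol]
  have hLf : volume L ≠ ⊤ := ne_top_of_le_ne_top hAf (measure_mono hLA)
  -- change of variables
  have hcv : ∫ x in A, F (x - w) = ∫ y in A', F y := by
    have := hfm.setIntegral_preimage_emb hfe (fun x => F (x - w)) A
    rw [← this]
    apply setIntegral_congr_fun hA'm
    intro y _
    simp [hf]
  have e0 : ∫ x in A, (φ (x + w) + φ (x - w) - 2 * φ x) =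
      ∫ x in A, (F x - F (x - w)) := by
    apply setIntegral_congr_fun hA
    intro x _
    simp only [hF, sub_add_cancel]
    ring
  have hFm : IntegrableOn (fun x => F (x - w)) A := by
    apply Measure.integrableOn_of_bounded hAf
      (hFc.comp (continuous_id.sub continuous_const)).aestronglyMeasurable
      (Eventually.of_forall (fun x => hFb _))
  rw [e0, integral_sub (hint A hAf) hFm, hcv]
  -- decompose
  have d1 : ∫ x in A, F x = (∫ x in A ∩ L, F x) + ∫ x in A \ L, F x :=
    (integral_inter_add_sdiff hL (hint A hAf)).symm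
  have d2 : ∫ x in A', F x = (∫ x in A' ∩ L, F x) + ∫ x in A' \ L, F x :=
    (integral_inter_add_sdiff hL (hint A' hA'f)).symm
  have e1 : A ∩ L = L := inter_eq_right.mpr hLA
  have e2 : A' ∩ L = L := inter_eq_right.mpr hLA'
  rw [e1] at d1
  rw [e2] at d2
  have b1 : ‖∫ x in A \ L, F x‖ ≤ R * ‖w‖ * volume.real (A \ L) :=
    norm_setIntegral_le_of_norm_le_const
      ((measure_mono sdiff_subset).trans_lt (lt_top_iff_ne_top.mpr hAf)) (fun x _ => hFb x)
  have b2 : ‖∫ x in A' \ L, F x‖ ≤ R * ‖w‖ * volume.real (A' \ L) :=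
    norm_setIntegral_le_of_norm_le_const
      ((measure_mono sdiff_subset).trans_lt (lt_top_iff_ne_top.mpr hA'f)) (fun x _ => hFb x)
  have v1 : volume.real (A \ L) = volume.real A - volume.real L := by
    rw [measureReal_sdiff hLA hL hAf]
  have v2 : volume.real (A' \ L) = volume.real A - volume.real L := by
    rw [measureReal_sdiff hLA' hL hA'f]
    simp only [Measure.real, hA'vol]
  rw [v1] at b1
  rw [v2] at b2
  have b1' := (Real.norm_eq_abs _ ▸ b1 : |∫ x in A \ L, F x| ≤ _)
  have b2' := (Real.norm_eq_abs _ ▸ b2 : |∫ x in A' \ L, F x| ≤ _)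
  rw [abs_le] at b1' b2'
  rw [d1, d2]
  nlinarith [b1'.2, b2'.1]

/-- One-dimensional bound on the excess of a convex function above its supporting hyperplane. -/
lemma excess_segment {φ : E d → ℝ}
    (hconv : ∀ x y t, 0 ≤ t → t ≤ 1 → φ ((1 - t) • x + t • y) ≤ (1 - t) * φ x + t * φ y)
    {x p e : E d} (hsub : ∀ y, φ x + inner ℝ (y - x) p ≤ φ y) {t ρ : ℝ} (hρ : 0 < ρ)
    (ht : |t| ≤ ρ) :
    φ (x + t • e) - φ x - t * inner ℝ e p ≤ φ (x + ρ • e) + φ (x - ρ • e) - 2 * φ x := by
  have ht' := abs_le.mp ht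
  set l : ℝ := (t + ρ) / (2 * ρ) with hl
  have hl0 : 0 ≤ l := div_nonneg (by linarith) (by linarith)
  have hl1 : l ≤ 1 := by
    rw [hl, div_le_one (by linarith)]
    linarith
  have e1 : (1 - l) • (x - ρ • e) + l • (x + ρ • e) = x + t • e := by
    have : t = (2 * l - 1) * ρ := by
      rw [hl]
      field_simp
      ring
    rw [this]
    module
  have h1 := hconv (x - ρ • e) (x + ρ • e) l hl0 hl1
  rw [e1] at h1
  have h2 := hsub (x + ρ • e)
  have h3 := hsub (x - ρ • e)
  have e2 : x + ρ • e - x = ρ • e := by abel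
  have e3 : x - ρ • e - x = -(ρ • e) := by abel
  rw [e2, inner_smul_left] at h2
  rw [e3, inner_neg_left, inner_smul_left] at h3
  simp only [conj_trivial] at h2 h3
  have ht_eq : t = (2 * l - 1) * ρ := by
    rw [hl]
    field_simp
    ring
  -- write the excess values
  set q : ℝ := inner ℝ e p with hq
  set A : ℝ := φ (x + ρ • e) - φ x - ρ * q with hA
  set B : ℝ := φ (x - ρ • e) - φ x + ρ * q with hB
  have hA0 : 0 ≤ A := by rw [hA]; linarith
  have hB0 : 0 ≤ B := by rw [hB]; linarith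
  have key : φ (x + t • e) - φ x - t * q ≤ (1 - l) * B + l * A := by
    have e5 : t * q = (2 * l - 1) * ρ * q := by rw [← ht_eq]
    have e6 : (1 - l) * B + l * A = (1 - l) * φ (x - ρ • e) + l * φ (x + ρ • e) - φ x -
        (2 * l - 1) * ρ * q := by
      rw [hA, hB]
      ring
    rw [e6, e5]
    linarith
  have k2 : (1 - l) * B + l * A ≤ B + A := by nlinarith
  have k3 : B + A = φ (x + ρ • e) + φ (x - ρ • e) - 2 * φ x := by
    rw [hA, hB]
    ring
  linarith

/-- Coordinate direction. -/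
noncomputable abbrev ee (i : Fin d) : E d := EuclideanSpace.basisFun (Fin d) ℝ i

lemma norm_ee (i : Fin d) : ‖(ee i : E d)‖ = 1 := by
  simp [ee]

lemma sum_coord (z : E d) : ∑ i, z i • (ee i : E d) = z := by
  have := (EuclideanSpace.basisFun (Fin d) ℝ).sum_repr z
  simpa only [EuclideanSpace.basisFun_repr] using this

/-- Second differences along the coordinate directions. -/
noncomputable def sdiffSum (φ : E d → ℝ) (ρ : ℝ) (x : E d) : ℝ :=
  ∑ i, (φ (x + ρ • (ee i : E d)) + φ (x - ρ • (ee i : E d)) - 2 * φ x)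

/-- The excess of a convex function is controlled by the coordinate second differences. -/
lemma excess_le {φ : E d → ℝ}
    (hconv : ∀ x y t, 0 ≤ t → t ≤ 1 → φ ((1 - t) • x + t • y) ≤ (1 - t) * φ x + t * φ y)
    (hd : 1 ≤ d) {x p z : E d} (hsub : ∀ y, φ x + inner ℝ (y - x) p ≤ φ y) {τ : ℝ} (hτ : 0 < τ)
    (hz : ‖z‖ ≤ τ) :
    φ (x + z) - φ x - inner ℝ z p ≤ (1 / (d : ℝ)) * sdiffSum φ (d * τ) x := by
  classical
  have hd0 : (0 : ℝ) < d := by exact_mod_cast hd
  have hc : ConvexOn ℝ univ φ := by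
    refine ⟨convex_univ, ?_⟩
    intro a _ b _ s t hs ht hst
    have : s = 1 - t := by linarith
    subst this
    simpa only [smul_eq_mul] using hconv a b t ht (by linarith)
  have hw : ∑ _i : Fin d, (1 / (d : ℝ)) = 1 := by
    simp only [Finset.sum_const, Finset.card_univ, Fintype.card_fin, nsmul_eq_mul]
    field_simp
  have h1 := hc.map_sum_le (t := Finset.univ) (w := fun _ : Fin d => 1 / (d : ℝ))
    (p := fun i => x + ((d : ℝ) * z i) • (ee i : E d))
    (fun _ _ => by positivity) hw (fun _ _ => mem_univ _)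
  have e1 : ∑ i : Fin d, (1 / (d : ℝ)) • (x + ((d : ℝ) * z i) • (ee i : E d)) = x + z := by
    simp only [smul_add, Finset.sum_add_distrib, smul_smul]
    have e2 : ∑ _i : Fin d, (1 / (d : ℝ)) • x = x := by
      rw [← Finset.sum_smul, hw, one_smul]
    rw [e2]
    congr 1
    conv_rhs => rw [← sum_coord z]
    apply Finset.sum_congr rfl
    intro i _
    congr 1
    field_simp
  simp only [e1, smul_eq_mul] at h1
  -- bound each term
  have h2 : ∀ i : Fin d, φ (x + ((d : ℝ) * z i) • (ee i : E d)) - φ x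
      - ((d : ℝ) * z i) * inner ℝ (ee i : E d) p ≤
      φ (x + ((d : ℝ) * τ) • (ee i : E d)) + φ (x - ((d : ℝ) * τ) • (ee i : E d)) - 2 * φ x := by
    intro i
    apply excess_segment hconv hsub (by positivity)
    rw [abs_mul, abs_of_pos hd0]
    apply mul_le_mul_of_nonneg_left _ hd0.le
    have := PiLp.norm_apply_le z i
    rw [Real.norm_eq_abs] at this
    exact this.trans hz
  have e3 : inner ℝ z p = ∑ i : Fin d, (z i) * inner ℝ (ee i : E d) p := by
    conv_lhs => rw [← sum_coord z]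
    rw [sum_inner]
    simp only [inner_smul_left, conj_trivial]
  have h3 : ∑ i : Fin d, (1 / (d : ℝ)) * (φ (x + ((d : ℝ) * z i) • (ee i : E d)) - φ x
      - ((d : ℝ) * z i) * inner ℝ (ee i : E d) p) ≤
      ∑ i : Fin d, (1 / (d : ℝ)) * (φ (x + ((d : ℝ) * τ) • (ee i : E d)) +
        φ (x - ((d : ℝ) * τ) • (ee i : E d)) - 2 * φ x) := by
    apply Finset.sum_le_sum
    intro i _
    exact mul_le_mul_of_nonneg_left (h2 i) (by positivity)
  have e4 : ∑ i : Fin d, (1 / (d : ℝ)) * (φ (x + ((d : ℝ) * z i) • (ee i : E d)) - φ x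
      - ((d : ℝ) * z i) * inner ℝ (ee i : E d) p) =
      ∑ i : Fin d, (1 / (d : ℝ)) * φ (x + ((d : ℝ) * z i) • (ee i : E d)) - φ x
        - inner ℝ z p := by
    rw [e3]
    have e5 : φ x = ∑ _i : Fin d, (1 / (d : ℝ)) * φ x := by
      rw [← Finset.sum_mul, hw, one_mul]
    conv_rhs => rw [e5]
    rw [← Finset.sum_sub_distrib, ← Finset.sum_sub_distrib]
    apply Finset.sum_congr rfl
    intro i _
    field_simp
  rw [e4] at h3
  unfold sdiffSum
  rw [Finset.mul_sum]
  linarith

end Vale.Agent.P074
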