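import Vale.Agent.Lib.P074.Potential

open MeasureTheory Set Filter Topology Metric

namespace Vale.Agent.P074

set_option linter.unusedSectionVars false

variable {d : ℕ}

/-- Homothetic copy of `K` with center `c` and ratio `1 - ε`. -/
def shrink (K : Set (E d)) (c : E d) (ε : ℝ) : Set (E d) := (fun k => c + (1 - ε) • (k - c)) '' K

lemma shrink_eq_homothety (K : Set (E d)) (c : E d) (ε : ℝ) :
    shrink K c ε = AffineMap.homothety c (1 - ε) '' K := by
  ext x
  simp only [shrink, mem_image, AffineMap.homothety_apply, vsub_eq_sub, vadd_eq_add]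
  constructor
  · rintro ⟨k, hk, rfl⟩
    exact ⟨k, hk, by abel⟩
  · rintro ⟨k, hk, rfl⟩
    exact ⟨k, hk, by abel⟩

lemma shrink_volume (K : Set (E d)) (c : E d) {ε : ℝ} (h1 : ε ≤ 1) :
    volume (shrink K c ε) = ENNReal.ofReal ((1 - ε) ^ d) * volume K := by
  rw [shrink_eq_homothety, Measure.addHaar_image_homothety, finrank_euclideanSpace_fin,
    abs_of_nonneg (pow_nonneg (by linarith) _)]

lemma shrink_compact {K : Set (E d)} (hK : IsCompact K) (c : E d) (ε : ℝ) :
    IsCompact (shrink K c ε) :=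
  hK.image (by fun_prop)

lemma shrink_subset {K : Set (E d)} (hK : Convex ℝ K) {c : E d} (hc : c ∈ K) {ε : ℝ}
    (h0 : 0 ≤ ε) (h1 : ε ≤ 1) : shrink K c ε ⊆ K := by
  rintro _ ⟨k, hk, rfl⟩
  have := hK hc hk h0 (by linarith : 0 ≤ 1 - ε) (by ring)
  have e : ε • c + (1 - ε) • k = c + (1 - ε) • (k - c) := by
    simp only [smul_sub, sub_smul, one_smul]
    abel
  simpa only [e, smul_eq_mul] using this

lemma shrink_add {K : Set (E d)} (hK : Convex ℝ K) {c : E d} {a : ℝ}
    (hball : closedBall c a ⊆ K) {ε1 ε2 : ℝ} (h1 : ε1 < ε2) (h2 : ε2 ≤ 1)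
    {x w : E d} (hx : x ∈ shrink K c ε2) (hw : ‖w‖ ≤ (ε2 - ε1) * a) :
    x + w ∈ shrink K c ε1 := by
  obtain ⟨k, hk, rfl⟩ := hx
  have hd : 0 < ε2 - ε1 := by linarith
  have hd1 : 0 < 1 - ε1 := by linarith
  set u : E d := c + (1 / (ε2 - ε1)) • w with hu
  have huK : u ∈ K := by
    apply hball
    rw [mem_closedBall, dist_eq_norm, hu]
    simp only [add_sub_cancel_left, norm_smul, norm_div, norm_one, Real.norm_eq_abs,
      abs_of_pos hd]
    rw [one_div, inv_mul_le_iff₀ hd]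
    exact hw
  set lam : ℝ := (1 - ε2) / (1 - ε1) with hlam
  have hl0 : 0 ≤ lam := div_nonneg (by linarith) hd1.le
  have hl1 : 0 ≤ 1 - lam := by
    rw [hlam, sub_nonneg, div_le_one hd1]
    linarith
  have hk' := hK hk huK hl0 hl1 (by ring)
  refine ⟨_, hk', ?_⟩
  have e1 : (1 - ε1) * lam = 1 - ε2 := by
    rw [hlam]
    field_simp
  have e2 : (1 - ε1) * (1 - lam) = ε2 - ε1 := by
    rw [mul_sub, e1]
    ring
  have e3 : lam • k + (1 - lam) • u - c = lam • (k - c) + (1 - lam) • (u - c) := by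
    simp only [smul_sub, sub_smul, one_smul]
    abel
  simp only []
  rw [e3, smul_add, smul_smul, smul_smul, e1, e2, hu, add_sub_cancel_left, smul_smul,
    mul_one_div_cancel hd.ne', one_smul]
  abel

lemma pow_sub_pow_le_mul {a b : ℝ} (hb : 0 ≤ b) (hab : b ≤ a) (ha : a ≤ 1) (n : ℕ) :
    a ^ n - b ^ n ≤ n * (a - b) := by
  induction n with
  | zero => simp
  | succ n ih =>
    have h1 : b ^ n ≤ 1 := pow_le_one₀ hb (hab.trans ha)
    have h2 : 0 ≤ a ^ n - b ^ n := sub_nonneg.mpr (pow_le_pow_left₀ hb hab n)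
    have e : a ^ (n + 1) - b ^ (n + 1) = a * (a ^ n - b ^ n) + b ^ n * (a - b) := by ring
    rw [e]
    push_cast
    have h3 : a * (a ^ n - b ^ n) ≤ 1 * (a ^ n - b ^ n) :=
      mul_le_mul_of_nonneg_right ha h2
    have h4 : b ^ n * (a - b) ≤ 1 * (a - b) :=
      mul_le_mul_of_nonneg_right h1 (by linarith)
    nlinarith

/-- Difference of volumes of two shrunken copies. -/
lemma shrink_volume_diff {K : Set (E d)} (hKt : volume K ≠ ⊤) (c : E d) {ε1 ε2 : ℝ}
    (h0 : 0 ≤ ε1) (h12 : ε1 ≤ ε2) (h2 : ε2 ≤ 1) :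
    volume.real (shrink K c ε1) - volume.real (shrink K c ε2) ≤
      volume.real K * (d * (ε2 - ε1)) := by
  have hv : ∀ ε, ε ≤ 1 → volume.real (shrink K c ε) = (1 - ε) ^ d * volume.real K := by
    intro ε hε
    rw [measureReal_def, shrink_volume K c hε, ENNReal.toReal_mul,
      ENNReal.toReal_ofReal (pow_nonneg (by linarith) _), measureReal_def]
  rw [hv ε1 (h12.trans h2), hv ε2 h2]
  have h3 := pow_sub_pow_le_mul (a := 1 - ε1) (b := 1 - ε2) (by linarith) (by linarith)
    (by linarith) d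
  have h4 : 0 ≤ volume.real K := measureReal_nonneg
  have e : (1 - ε1) ^ d * volume.real K - (1 - ε2) ^ d * volume.real K =
      volume.real K * ((1 - ε1) ^ d - (1 - ε2) ^ d) := by ring
  rw [e]
  apply mul_le_mul_of_nonneg_left _ h4
  have e2 : (1 - ε1) - (1 - ε2) = ε2 - ε1 := by ring
  rw [e2] at h3
  exact h3

end Vale.Agent.P074
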