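import Mathlib

open MeasureTheory

namespace Vale.Agent.P074

/-- Euclidean space of dimension `d`. -/
abbrev E (d : ℕ) := EuclideanSpace ℝ (Fin d)

/-- The uniform probability measure on `K`, namely `|K|⁻¹ 1_K dx`. -/
noncomputable def unif {d : ℕ} (K : Set (E d)) : Measure (E d) :=
  (volume K)⁻¹ • volume.restrict K

/-- The quadratic transport cost `∫_K |x - T x|² dρ` of a map `T`, with `ρ` uniform on `K`. -/
noncomputable def cost {d : ℕ} (K : Set (E d)) (T : E d → E d) : ENNReal :=
  ∫⁻ x, ENNReal.ofReal (‖x - T x‖ ^ 2) ∂(unif K)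

/-- `T` is a quadratic optimal transport map from the uniform measure on `K` to `μ`: it is Borel,
pushes the uniform measure on `K` to `μ`, and minimizes the cost among all such Borel maps. -/
def IsOptimalMap {d : ℕ} (K : Set (E d)) (μ : Measure (E d)) (T : E d → E d) : Prop :=
  Measurable T ∧ (unif K).map T = μ ∧
    ∀ S : E d → E d, Measurable S → (unif K).map S = μ → cost K T ≤ cost K S

/-- The distance `‖T - S‖_{L²(ρ)}`, with `ρ` uniform on `K`. -/
noncomputable def L2dist {d : ℕ} (K : Set (E d)) (T S : E d → E d) : ℝ :=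
  Real.sqrt (∫⁻ x, ENNReal.ofReal (‖T x - S x‖ ^ 2) ∂(unif K)).toReal

/-- `π` is a coupling of `μ` and `ν`. -/
def IsCoupling {d : ℕ} (μ ν : Measure (E d)) (π : Measure (E d × E d)) : Prop :=
  π.map Prod.fst = μ ∧ π.map Prod.snd = ν

/-- The quadratic Wasserstein distance: the square root of the infimum over couplings `π` of
`∫ |y - z|² dπ(y, z)`. -/
noncomputable def W2 {d : ℕ} (μ ν : Measure (E d)) : ℝ :=
  Real.sqrt (sInf {c : ENNReal | ∃ π : Measure (E d × E d), IsCoupling μ ν π ∧
    c = ∫⁻ p, ENNReal.ofReal (‖p.1 - p.2‖ ^ 2) ∂π}).toReal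

/-- `α` is admissible in dimension `d`: for every compact convex `K` with nonempty interior and
every compact `Y` there is `C` with `‖T_μ - T_ν‖_{L²(ρ)} ≤ C W₂(μ, ν)^α` for all Borel
probability measures `μ, ν` carried by `Y`, and all optimal maps `T_μ`, `T_ν`. -/
def Admissible (d : ℕ) (α : ℝ) : Prop :=
  ∀ K : Set (E d), IsCompact K → Convex ℝ K → (interior K).Nonempty →
    ∀ Y : Set (E d), IsCompact Y → ∃ C : ℝ, ∀ μ ν : Measure (E d),
      IsProbabilityMeasure μ → IsProbabilityMeasure ν → μ Yᶜ = 0 → ν Yᶜ = 0 →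
      ∀ T S : E d → E d, IsOptimalMap K μ T → IsOptimalMap K ν S →
        L2dist K T S ≤ C * W2 μ ν ^ α

end Vale.Agent.P074
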