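import Vale.Agent.Lib.P074.Key

open MeasureTheory Set Filter Topology Metric

namespace Vale.Agent.P074

set_option linter.unusedSectionVars false

variable {d : ℕ}

lemma ae_fst_snd_mem {μ ν : Measure (E d)} {π : Measure (E d × E d)} (hπ : IsCoupling μ ν π)
    {Y : Set (E d)} (hYm : MeasurableSet Y) (hμ : μ Yᶜ = 0) (hν : ν Yᶜ = 0) :
    ∀ᵐ p ∂π, p.1 ∈ Y ∧ p.2 ∈ Y := by
  have h1 : π (Prod.fst ⁻¹' Yᶜ) = 0 := by
    rw [← Measure.map_apply measurable_fst hYm.compl, hπ.1]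
    exact hμ
  have h2 : π (Prod.snd ⁻¹' Yᶜ) = 0 := by
    rw [← Measure.map_apply measurable_snd hYm.compl, hπ.2]
    exact hν
  have h1' : ∀ᵐ p ∂π, p.1 ∈ Y := by
    rw [ae_iff]
    exact h1
  have h2' : ∀ᵐ p ∂π, p.2 ∈ Y := by
    rw [ae_iff]
    exact h2
  filter_upwards [h1', h2'] with p a b
  exact ⟨a, b⟩

lemma coupling_prob {μ ν : Measure (E d)} [IsProbabilityMeasure μ] {π : Measure (E d × E d)}
    (hπ : IsCoupling μ ν π) : IsProbabilityMeasure π := by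
  constructor
  have := measure_univ (μ := μ)
  rw [← hπ.1, Measure.map_apply measurable_fst MeasurableSet.univ] at this
  simpa using this

lemma cost_coupling_le {μ ν : Measure (E d)} [IsProbabilityMeasure μ] {π : Measure (E d × E d)}
    (hπ : IsCoupling μ ν π) {Y : Set (E d)} (hYm : MeasurableSet Y) (hμ : μ Yᶜ = 0) (hν : ν Yᶜ = 0)
    {R : ℝ} (hR : ∀ y ∈ Y, ‖y‖ ≤ R) :
    ∫⁻ p, ENNReal.ofReal (‖p.1 - p.2‖ ^ 2) ∂π ≤ ENNReal.ofReal ((2 * R) ^ 2) := by
  have := coupling_prob hπ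
  have h : ∀ᵐ p ∂π, ENNReal.ofReal (‖p.1 - p.2‖ ^ 2) ≤ ENNReal.ofReal ((2 * R) ^ 2) := by
    filter_upwards [ae_fst_snd_mem hπ hYm hμ hν] with p hp
    apply ENNReal.ofReal_le_ofReal
    have h1 := hR _ hp.1
    have h2 := hR _ hp.2
    have h3 : ‖p.1 - p.2‖ ≤ 2 * R := (norm_sub_le _ _).trans (by linarith)
    exact pow_le_pow_left₀ (norm_nonneg _) h3 2
  calc ∫⁻ p, ENNReal.ofReal (‖p.1 - p.2‖ ^ 2) ∂π
      ≤ ∫⁻ _, ENNReal.ofReal ((2 * R) ^ 2) ∂π := lintegral_mono_ae h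
    _ = ENNReal.ofReal ((2 * R) ^ 2) := by simp

lemma wass_inf_ne_top {μ ν : Measure (E d)} [IsProbabilityMeasure μ] [IsProbabilityMeasure ν]
    {Y : Set (E d)} (hYm : MeasurableSet Y) (hμ : μ Yᶜ = 0) (hν : ν Yᶜ = 0)
    {R : ℝ} (hR : ∀ y ∈ Y, ‖y‖ ≤ R) :
    sInf {c : ENNReal | ∃ π : Measure (E d × E d), IsCoupling μ ν π ∧
      c = ∫⁻ p, ENNReal.ofReal (‖p.1 - p.2‖ ^ 2) ∂π} ≠ ⊤ := by
  have hcoup : IsCoupling μ ν (μ.prod ν) := by
    constructor
    · simp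
    · simp
  apply ne_top_of_le_ne_top (ENNReal.ofReal_ne_top (r := (2 * R) ^ 2))
  have hmem : (∫⁻ p, ENNReal.ofReal (‖p.1 - p.2‖ ^ 2) ∂(μ.prod ν)) ∈
      {c : ENNReal | ∃ π : Measure (E d × E d), IsCoupling μ ν π ∧
        c = ∫⁻ p, ENNReal.ofReal (‖p.1 - p.2‖ ^ 2) ∂π} := ⟨μ.prod ν, hcoup, rfl⟩
  exact (sInf_le hmem).trans (cost_coupling_le hcoup hYm hμ hν hR)

/-- A Lipschitz function has integrals controlled by the transport distance. -/
theorem W_bound {μ ν : Measure (E d)} [IsProbabilityMeasure μ] [IsProbabilityMeasure ν]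
    {Y : Set (E d)} (hY : IsCompact Y) (hμ : μ Yᶜ = 0) (hν : ν Yᶜ = 0)
    {f : E d → ℝ} {Λ : ℝ} (hΛ : 0 < Λ) (hf : ∀ y z, f y ≤ f z + Λ * ‖y - z‖) :
    ∫ y, f y ∂ν - ∫ y, f y ∂μ ≤ Λ * W2 μ ν := by
  have hYm : MeasurableSet Y := hY.measurableSet
  obtain ⟨R, hR⟩ := hY.isBounded.exists_norm_le
  have hfc : Continuous f := lip_continuous hΛ.le hf
  obtain ⟨Bf, hBf⟩ := hY.exists_bound_of_continuousOn hfc.continuousOn
  set D : ℝ := ∫ y, f y ∂ν - ∫ y, f y ∂μ with hD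
  rcases le_or_gt D 0 with hD0 | hD0
  · have : 0 ≤ W2 μ ν := Real.sqrt_nonneg _
    have : 0 ≤ Λ * W2 μ ν := by positivity
    linarith
  have key : ∀ c ∈ {c : ENNReal | ∃ π : Measure (E d × E d), IsCoupling μ ν π ∧
      c = ∫⁻ p, ENNReal.ofReal (‖p.1 - p.2‖ ^ 2) ∂π}, ENNReal.ofReal ((D / Λ) ^ 2) ≤ c := by
    rintro c ⟨π, hπ, rfl⟩
    have hprob := coupling_prob hπ
    have hae := ae_fst_snd_mem hπ hYm hμ hν
    have e1 : ∫ y, f y ∂ν = ∫ p, f p.2 ∂π := by
      rw [← hπ.2, integral_map measurable_snd.aemeasurable hfc.aestronglyMeasurable]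
    have e2 : ∫ y, f y ∂μ = ∫ p, f p.1 ∂π := by
      rw [← hπ.1, integral_map measurable_fst.aemeasurable hfc.aestronglyMeasurable]
    have i1 : Integrable (fun p : E d × E d => f p.2) π := by
      apply Integrable.of_bound (hfc.comp continuous_snd).aestronglyMeasurable Bf
      filter_upwards [hae] with p hp
      exact hBf _ hp.2
    have i2 : Integrable (fun p : E d × E d => f p.1) π := by
      apply Integrable.of_bound (hfc.comp continuous_fst).aestronglyMeasurable Bf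
      filter_upwards [hae] with p hp
      exact hBf _ hp.1
    have hgc : Continuous (fun p : E d × E d => ‖p.1 - p.2‖) := by fun_prop
    have hgb : ∀ᵐ p ∂π, ‖p.1 - p.2‖ ≤ 2 * R := by
      filter_upwards [hae] with p hp
      have h1 := hR _ hp.1
      have h2 := hR _ hp.2
      exact (norm_sub_le _ _).trans (by linarith)
    have i3 : Integrable (fun p : E d × E d => ‖p.1 - p.2‖) π := by
      apply Integrable.of_bound hgc.aestronglyMeasurable (2 * R)
      filter_upwards [hgb] with p hp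
      rwa [norm_norm]
    have i4 : Integrable (fun p : E d × E d => ‖p.1 - p.2‖ ^ 2) π := by
      apply Integrable.of_bound (hgc.pow 2).aestronglyMeasurable ((2 * R) ^ 2)
      filter_upwards [hgb] with p hp
      rw [Real.norm_eq_abs, abs_of_nonneg (sq_nonneg _)]
      exact pow_le_pow_left₀ (norm_nonneg _) hp 2
    set m : ℝ := ∫ p, ‖p.1 - p.2‖ ∂π with hm
    have h1 : D ≤ Λ * m := by
      rw [hD, e1, e2, ← integral_sub i1 i2, hm, ← integral_const_mul]
      apply integral_mono (i1.sub i2) (i3.const_mul _)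
      intro p
      have := hf p.2 p.1
      rw [norm_sub_rev] at this
      show f p.2 - f p.1 ≤ Λ * ‖p.1 - p.2‖
      linarith
    have h2 : m ^ 2 ≤ ∫ p, ‖p.1 - p.2‖ ^ 2 ∂π := by
      have h3 : 0 ≤ ∫ p : E d × E d, (‖p.1 - p.2‖ - m) ^ 2 ∂π :=
        integral_nonneg (fun p => sq_nonneg _)
      have e3 : ∫ p : E d × E d, (‖p.1 - p.2‖ - m) ^ 2 ∂π =
          (∫ p, ‖p.1 - p.2‖ ^ 2 ∂π) - 2 * m * m + m ^ 2 := by
        have e4 : ∀ p : E d × E d, (‖p.1 - p.2‖ - m) ^ 2 =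
            ‖p.1 - p.2‖ ^ 2 - 2 * m * ‖p.1 - p.2‖ + m ^ 2 := fun p => by ring
        simp only [e4]
        have i5 : Integrable (fun p : E d × E d => ‖p.1 - p.2‖ ^ 2 - 2 * m * ‖p.1 - p.2‖) π :=
          i4.sub (i3.const_mul (2 * m))
        rw [integral_add i5 (integrable_const _),
          integral_sub i4 (i3.const_mul _), integral_const_mul, ← hm]
        simp
      rw [e3] at h3
      nlinarith
    have h3 : 0 ≤ D / Λ := by positivity
    have h4 : D / Λ ≤ m := by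
      rw [div_le_iff₀ hΛ]
      linarith
    rw [← ofReal_integral_eq_lintegral_ofReal i4 (ae_of_all _ (fun p => sq_nonneg _))]
    apply ENNReal.ofReal_le_ofReal
    exact (pow_le_pow_left₀ h3 h4 2).trans h2
  have h1 := le_sInf key
  have hne := wass_inf_ne_top (μ := μ) (ν := ν) hYm hμ hν hR
  have h2 := ENNReal.toReal_mono hne h1
  rw [ENNReal.toReal_ofReal (sq_nonneg _)] at h2
  have h3 : D / Λ ≤ W2 μ ν := Real.le_sqrt_of_sq_le h2
  rw [div_le_iff₀ hΛ] at h3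
  linarith

lemma unif_prob {K : Set (E d)} (hK0 : volume K ≠ 0) (hKt : volume K ≠ ⊤) :
    IsProbabilityMeasure (unif K) := by
  constructor
  rw [unif, Measure.smul_apply, Measure.restrict_apply MeasurableSet.univ, univ_inter, smul_eq_mul,
    ENNReal.inv_mul_cancel hK0 hKt]

lemma ae_unif_iff {K : Set (E d)} (hK0 : volume K ≠ 0) (hKt : volume K ≠ ⊤) {p : E d → Prop} :
    (∀ᵐ x ∂(unif K), p x) ↔ ∀ᵐ x ∂(volume.restrict K), p x := by
  rw [unif]
  exact Measure.ae_ennreal_smul_measure_iff (ENNReal.inv_ne_zero.mpr hKt)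

lemma ae_map_mem {K : Set (E d)} (hK0 : volume K ≠ 0) (hKt : volume K ≠ ⊤) {μ : Measure (E d)}
    {T : E d → E d} (hT : IsOptimalMap K μ T) {Y : Set (E d)} (hYm : MeasurableSet Y)
    (hμ : μ Yᶜ = 0) : ∀ᵐ x ∂(volume.restrict K), T x ∈ Y := by
  rw [← ae_unif_iff hK0 hKt, ae_iff]
  have : unif K (T ⁻¹' Yᶜ) = 0 := by
    rw [← Measure.map_apply hT.1 hYm.compl, hT.2.1]
    exact hμ
  exact this

lemma integral_unif_eq {K : Set (E d)} {V : ℝ} (hV : V = volume.real K) (g : E d → ℝ) :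
    ∫ x, g x ∂(unif K) = V⁻¹ * ∫ x in K, g x := by
  rw [unif, integral_smul_measure, smul_eq_mul, ENNReal.toReal_inv, hV, measureReal_def]

lemma cost_ne_top {K : Set (E d)} (hK0 : volume K ≠ 0) (hKt : volume K ≠ ⊤) (hKm : MeasurableSet K)
    {T : E d → E d} {Rk R : ℝ} (hRk : ∀ x ∈ K, ‖x‖ ≤ Rk)
    (hT : ∀ᵐ x ∂(volume.restrict K), ‖T x‖ ≤ R) : cost K T ≠ ⊤ := by
  have := unif_prob hK0 hKt
  have h : ∀ᵐ x ∂(unif K), ENNReal.ofReal (‖x - T x‖ ^ 2) ≤ ENNReal.ofReal ((Rk + R) ^ 2) := by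
    rw [ae_unif_iff hK0 hKt]
    filter_upwards [hT, ae_restrict_mem hKm] with x hx hxK
    apply ENNReal.ofReal_le_ofReal
    have h1 := hRk x hxK
    exact pow_le_pow_left₀ (norm_nonneg _) ((norm_sub_le _ _).trans (by linarith)) 2
  apply ne_top_of_le_ne_top (ENNReal.ofReal_ne_top (r := (Rk + R) ^ 2))
  calc cost K T ≤ ∫⁻ _, ENNReal.ofReal ((Rk + R) ^ 2) ∂(unif K) := lintegral_mono_ae h
    _ = _ := by simp

/-- The two excess integrals add up to the difference of the integrals of `f`. -/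
theorem excess_sum {K : Set (E d)} (hKc : IsCompact K) (hK0 : volume K ≠ 0)
    {μ ν : Measure (E d)} {T S : E d → E d} (hT : IsOptimalMap K μ T) (hS : IsOptimalMap K ν S)
    {φ φ' : E d → ℝ} {R Rk : ℝ} (hR : 0 ≤ R) (hRk0 : 0 ≤ Rk) (hRk : ∀ x ∈ K, ‖x‖ ≤ Rk)
    (hφ : Continuous φ) (hφ' : Continuous φ')
    (hgood : ∀ᵐ x ∂(volume.restrict K), (∀ y, φ x + inner ℝ (y - x) (T x) ≤ φ y) ∧ ‖T x‖ ≤ R ∧
      (∀ y, φ' x + inner ℝ (y - x) (S x) ≤ φ' y) ∧ ‖S x‖ ≤ R) {V : ℝ}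
    (hV : V = volume.real K) (hV0 : 0 < V) :
    (∫ x in K, (φ x + conjK K φ (S x) - inner ℝ x (S x))) +
      (∫ x in K, (φ' x + conjK K φ' (T x) - inner ℝ x (T x))) =
      V * (∫ y, (conjK K φ y - conjK K φ' y) ∂ν - ∫ y, (conjK K φ y - conjK K φ' y) ∂μ) := by
  have hKm : MeasurableSet K := hKc.measurableSet
  have hKf : volume K ≠ ⊤ := hKc.measure_lt_top.ne
  have hne : K.Nonempty := by
    by_contra h
    rw [not_nonempty_iff_eq_empty] at h
    exact hK0 (by rw [h, measure_empty])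
  have hψ := conj_continuous hKc hne hφ hRk0 hRk
  have hψ' := conj_continuous hKc hne hφ' hRk0 hRk
  set f : E d → ℝ := fun y => conjK K φ y - conjK K φ' y with hf
  have hfc : Continuous f := hψ.sub hψ'
  obtain ⟨Bf, hBf⟩ := (isCompact_closedBall (0 : E d) R).exists_bound_of_continuousOn hfc.continuousOn
  have hTm := hT.1
  have hSm := hS.1
  -- integrability of the two excess functions
  have hbound : ∀ (φ₁ : E d → ℝ) (U : E d → E d), Continuous φ₁ → Measurable U →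
      (∀ᵐ x ∂(volume.restrict K), ‖U x‖ ≤ R) →
      IntegrableOn (fun x => φ₁ x + conjK K φ₁ (U x) - inner ℝ x (U x)) K volume := by
    intro φ₁ U h1 h2 h3
    have hψ₁ := conj_continuous hKc hne h1 hRk0 hRk
    have hcont : ContinuousOn (fun p : E d × E d => φ₁ p.1 + conjK K φ₁ p.2 - inner ℝ p.1 p.2)
        (K ×ˢ closedBall (0 : E d) R) := by
      apply Continuous.continuousOn
      fun_prop
    obtain ⟨B, hB⟩ := (hKc.prod (isCompact_closedBall 0 R)).exists_bound_of_continuousOn hcont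
    have hm : Measurable (fun x => φ₁ x + conjK K φ₁ (U x) - inner ℝ x (U x)) := by
      apply Measurable.sub
      · exact h1.measurable.add (hψ₁.measurable.comp h2)
      · exact measurable_id.inner h2
    apply Measure.integrableOn_of_bounded hKf hm.aestronglyMeasurable (M := B)
    filter_upwards [h3, ae_restrict_mem hKm] with x hx hxK
    apply hB (x, U x)
    simp only [mem_prod, mem_closedBall, dist_zero_right]
    exact ⟨hxK, hx⟩
  have hi1 := hbound φ S hφ hSm (by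
    filter_upwards [hgood] with x hx using hx.2.2.2)
  have hi2 := hbound φ' T hφ' hTm (by
    filter_upwards [hgood] with x hx using hx.2.1)
  have hfS : IntegrableOn (fun x => f (S x)) K volume := by
    apply Measure.integrableOn_of_bounded hKf (hfc.measurable.comp hSm).aestronglyMeasurable
      (M := Bf)
    filter_upwards [hgood] with x hx
    exact hBf _ (by simpa using hx.2.2.2)
  have hfT : IntegrableOn (fun x => f (T x)) K volume := by
    apply Measure.integrableOn_of_bounded hKf (hfc.measurable.comp hTm).aestronglyMeasurable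
      (M := Bf)
    filter_upwards [hgood] with x hx
    exact hBf _ (by simpa using hx.2.1)
  have e1 : ∫ y, f y ∂ν = V⁻¹ * ∫ x in K, f (S x) := by
    rw [← hS.2.1, integral_map hSm.aemeasurable hfc.aestronglyMeasurable,
      integral_unif_eq hV (fun x => f (S x))]
  have e2 : ∫ y, f y ∂μ = V⁻¹ * ∫ x in K, f (T x) := by
    rw [← hT.2.1, integral_map hTm.aemeasurable hfc.aestronglyMeasurable,
      integral_unif_eq hV (fun x => f (T x))]
  have e3 : V * (∫ y, f y ∂ν - ∫ y, f y ∂μ) = (∫ x in K, f (S x)) - ∫ x in K, f (T x) := by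
    rw [e1, e2]
    field_simp
  rw [e3, ← integral_add hi1 hi2, ← integral_sub hfS hfT]
  apply integral_congr_ae
  filter_upwards [hgood, ae_restrict_mem hKm] with x hx hxK
  obtain ⟨h1, -, h2, -⟩ := hx
  have c1 := conj_eq hKc hφ hxK h1
  have c2 := conj_eq hKc hφ' hxK h2
  simp only [hf]
  rw [c1, c2]
  ring

/-- The core stability estimate, for any quantity `W` dominating the Lipschitz test integrals. -/
theorem stability_core (hd : 1 ≤ d) (K : Set (E d)) (hKc : IsCompact K) (hKconv : Convex ℝ K)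
    (hKint : (interior K).Nonempty) (Y : Set (E d)) (hY : IsCompact Y) :
    ∃ C : ℝ, ∀ μ ν : Measure (E d), IsProbabilityMeasure μ → IsProbabilityMeasure ν → μ Yᶜ = 0 →
      ν Yᶜ = 0 → ∀ T S : E d → E d, IsOptimalMap K μ T → IsOptimalMap K ν S →
      ∀ W : ℝ, 0 ≤ W → (∀ (f : E d → ℝ) (Λ : ℝ), 0 < Λ → (∀ y z, f y ≤ f z + Λ * ‖y - z‖) →
        ∫ y, f y ∂ν - ∫ y, f y ∂μ ≤ Λ * W) →
      L2dist K T S ≤ C * W ^ ((1 : ℝ) / 4) := by
  have hd0 : (0 : ℝ) < d := by exact_mod_cast hd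
  obtain ⟨c, hc⟩ := hKint
  obtain ⟨a, ha, hball⟩ : ∃ a > 0, closedBall c a ⊆ K := by
    rcases Metric.nhds_basis_closedBall.mem_iff.mp (mem_interior_iff_mem_nhds.mp hc) with ⟨a, ha, h⟩
    exact ⟨a, ha, h⟩
  have hYm : MeasurableSet Y := hY.measurableSet
  have hKm : MeasurableSet K := hKc.measurableSet
  have hKt : volume K ≠ ⊤ := hKc.measure_lt_top.ne
  have hK0 : volume K ≠ 0 := by
    have hpos : 0 < volume (closedBall c a) := measure_closedBall_pos volume c ha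
    exact (hpos.trans_le (measure_mono hball)).ne'
  have hne : K.Nonempty := ⟨c, hball (mem_closedBall_self ha.le)⟩
  obtain ⟨R0, hR0⟩ := hY.isBounded.exists_norm_le
  obtain ⟨Rk0, hRk0⟩ := hKc.isBounded.exists_norm_le
  obtain ⟨R, hRdef⟩ : ∃ R, R = max R0 1 := ⟨_, rfl⟩
  obtain ⟨Rk, hRkdef⟩ : ∃ Rk, Rk = max Rk0 1 := ⟨_, rfl⟩
  have hR1 : 1 ≤ R := by rw [hRdef]; exact le_max_right _ _
  have hRk1 : 1 ≤ Rk := by rw [hRkdef]; exact le_max_right _ _
  have hR0' : 0 < R := by linarith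
  have hRk0' : 0 < Rk := by linarith
  have hRY : ∀ y ∈ Y, ‖y‖ ≤ R := fun y hy => (hR0 y hy).trans (by rw [hRdef]; exact le_max_left _ _)
  have hRK : ∀ y ∈ K, ‖y‖ ≤ Rk := fun y hy => (hRk0 y hy).trans (by rw [hRkdef]; exact le_max_left _ _)
  obtain ⟨V, hV⟩ : ∃ V, V = volume.real K := ⟨_, rfl⟩
  have hV0 : 0 < V := by
    rw [hV, measureReal_def]
    exact ENNReal.toReal_pos hK0 hKt
  obtain ⟨s0, hs0⟩ : ∃ s0, s0 = a / (2 * R * ((d : ℝ) + 1)) := ⟨_, rfl⟩
  have hs00 : 0 < s0 := by rw [hs0]; positivity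
  obtain ⟨M, hM⟩ : ∃ M, M = (8 * (d : ℝ) ^ 3 + 8 * d) * R ^ 3 * V / a := ⟨_, rfl⟩
  have hM0 : 0 < M := by rw [hM]; positivity
  obtain ⟨B, hB⟩ : ∃ B, B = 4 * R ^ 2 * V := ⟨_, rfl⟩
  have hB0 : 0 < B := by rw [hB]; positivity
  obtain ⟨C0, hC0⟩ : ∃ C0, C0 = 2 / min (s0 / B) (1 / (2 * M)) := ⟨_, rfl⟩
  have hC00 : 0 < C0 := by
    rw [hC0]
    have : 0 < min (s0 / B) (1 / (2 * M)) := lt_min (by positivity) (by positivity)
    positivity
  obtain ⟨Λ, hΛ⟩ : ∃ Λ, Λ = 2 * Rk := ⟨_, rfl⟩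
  have hΛ0 : 0 < Λ := by rw [hΛ]; positivity
  obtain ⟨C', hC'⟩ : ∃ C', C' = (V⁻¹) ^ 2 * (C0 * (V * Λ)) := ⟨_, rfl⟩
  have hC'0 : 0 < C' := by rw [hC']; positivity
  refine ⟨C' ^ ((1 : ℝ) / 4), ?_⟩
  intro μ ν hμp hνp hμY hνY T S hT hS W hW0 hWf
  -- almost everywhere facts
  have hTY := ae_map_mem hK0 hKt hT hYm hμY
  have hSY := ae_map_mem hK0 hKt hS hYm hνY
  have hTR : ∀ᵐ x ∂(volume.restrict K), ‖T x‖ ≤ R := by
    filter_upwards [hTY] with x hx using hRY _ hx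
  have hSR : ∀ᵐ x ∂(volume.restrict K), ‖S x‖ ≤ R := by
    filter_upwards [hSY] with x hx using hRY _ hx
  have hgT := ae_goodPt hKm hKconv hT.1 hTR
  have hgS := ae_goodPt hKm hKconv hS.1 hSR
  have hneBot : NeBot (ae (volume.restrict K)) := by
    rw [ae_neBot]
    intro h
    rw [Measure.restrict_eq_zero] at h
    exact hK0 h
  obtain ⟨x1, hx1⟩ := hgT.exists
  obtain ⟨x2, hx2⟩ := hgS.exists
  obtain ⟨φ, hφl, hφc, hφs⟩ := exists_potential hKm hK0 hKt hT (cost_ne_top hK0 hKt hKm hRK hTR)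
    hR0'.le hx1
  obtain ⟨φ', hφ'l, hφ'c, hφ's⟩ := exists_potential hKm hK0 hKt hS (cost_ne_top hK0 hKt hKm hRK hSR)
    hR0'.le hx2
  have hφC : Continuous φ := lip_continuous hR0'.le hφl
  have hφ'C : Continuous φ' := lip_continuous hR0'.le hφ'l
  have hψC := conj_continuous hKc hne hφC hRk0'.le hRK
  have hψ'C := conj_continuous hKc hne hφ'C hRk0'.le hRK
  have hallg : ∀ᵐ x ∂(volume.restrict K), (∀ y, φ x + inner ℝ (y - x) (T x) ≤ φ y) ∧ ‖T x‖ ≤ R ∧
      (∀ y, φ' x + inner ℝ (y - x) (S x) ≤ φ' y) ∧ ‖S x‖ ≤ R := by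
    filter_upwards [hgT, hgS] with x h1 h2
    exact ⟨hφs x h1, h1.2.1, hφ's x h2, h2.2.1⟩
  have hleconj : ∀ x ∈ K, ∀ z, inner ℝ x z - φ x ≤ conjK K φ z :=
    fun x hx z => le_conj hKc hφC hx
  have hleconj' : ∀ x ∈ K, ∀ z, inner ℝ x z - φ' x ≤ conjK K φ' z :=
    fun x hx z => le_conj hKc hφ'C hx
  -- the two integrals
  obtain ⟨I, hI⟩ : ∃ I, I = ∫ x in K, ‖T x - S x‖ ^ 2 := ⟨_, rfl⟩
  obtain ⟨J, hJ⟩ : ∃ J, J = ∫ x in K, (φ x + conjK K φ (S x) - inner ℝ x (S x)) := ⟨_, rfl⟩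
  obtain ⟨J', hJ'⟩ : ∃ J', J' = ∫ x in K, (φ' x + conjK K φ' (T x) - inner ℝ x (T x)) := ⟨_, rfl⟩
  have hJ0 : 0 ≤ J := by
    rw [hJ]
    apply integral_nonneg_of_ae
    filter_upwards [ae_restrict_mem hKm] with x hx
    have := hleconj x hx (S x)
    simp only [Pi.zero_apply]
    linarith
  have hJ'0 : 0 ≤ J' := by
    rw [hJ']
    apply integral_nonneg_of_ae
    filter_upwards [ae_restrict_mem hKm] with x hx
    have := hleconj' x hx (T x)
    simp only [Pi.zero_apply]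
    linarith
  have hI0 : 0 ≤ I := by
    rw [hI]
    exact integral_nonneg (fun x => sq_nonneg _)
  have hIB : I ≤ B := by
    rw [hI, hB, hV]
    have := norm_setIntegral_le_of_norm_le_const_ae (μ := volume) (s := K)
      (f := fun x => ‖T x - S x‖ ^ 2) (C := 4 * R ^ 2) hKc.measure_lt_top (by
        filter_upwards [hTR, hSR] with x h1 h2
        have h3 : ‖T x - S x‖ ≤ 2 * R := (norm_sub_le _ _).trans (by linarith)
        rw [Real.norm_eq_abs, abs_of_nonneg (sq_nonneg _)]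
        nlinarith [norm_nonneg (T x - S x)])
    exact (le_abs_self _).trans this
  -- the key inequality
  have hkey : ∀ s, 0 < s → s ≤ s0 → s * I ≤ J + M * s ^ 2 := by
    intro s hs hss0
    have h1 : 2 * R * s / a * ((d : ℝ) + 1) ≤ 1 := by
      have h2 : s * (2 * R * ((d : ℝ) + 1)) ≤ a := by
        rw [hs0, le_div_iff₀ (by positivity)] at hss0
        exact hss0
      have e : 2 * R * s / a * ((d : ℝ) + 1) = s * (2 * R * ((d : ℝ) + 1)) / a := by ring
      rw [e, div_le_one ha]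
      exact h2
    have h2 := key_ineq hKc hKconv ha hball hd hR0' hφl hφc hleconj hψC hT.1 hS.1 (by
      filter_upwards [hallg] with x hx using ⟨hx.1, hx.2.1, hx.2.2.2⟩) hs h1
    rw [hI, hJ, hM, hV]
    exact h2
  have hsq : I ^ 2 ≤ C0 * J := by
    rw [hC0]
    exact kappa_trick hI0 hIB hB0 hs00 hM0 hJ0 hkey
  -- the comparison with the distance
  have hsum := excess_sum hKc hK0 hT hS hR0'.le hRk0'.le hRK hφC hφ'C hallg hV hV0
  rw [← hJ, ← hJ'] at hsum
  have hW : ∫ y, (conjK K φ y - conjK K φ' y) ∂ν - ∫ y, (conjK K φ y - conjK K φ' y) ∂μ ≤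
      Λ * W := by
    apply hWf _ _ hΛ0
    intro y z
    have h1 := conj_lip hKc hne hφC hRK y z
    have h2 := conj_lip hKc hne hφ'C hRK z y
    rw [norm_sub_rev z y] at h2
    rw [hΛ]
    nlinarith
  have hJle : J ≤ V * (Λ * W) := by
    have := mul_le_mul_of_nonneg_left hW hV0.le
    linarith
  -- the quantity in the distance
  have hU := unif_prob hK0 hKt
  obtain ⟨H, hH⟩ : ∃ H, H = (∫⁻ x, ENNReal.ofReal (‖T x - S x‖ ^ 2) ∂(unif K)).toReal := ⟨_, rfl⟩
  have hHI : H = V⁻¹ * I := by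
    have hqm : Measurable (fun x => ‖T x - S x‖ ^ 2) := ((hT.1.sub hS.1).norm).pow_const 2
    rw [hH, ← integral_eq_lintegral_of_nonneg_ae (ae_of_all _ (fun x => sq_nonneg _))
      hqm.aestronglyMeasurable, integral_unif_eq hV, hI]
  have hH0 : 0 ≤ H := by
    rw [hHI]
    positivity
  have hH2 : H ^ 2 ≤ C' * W := by
    rw [hHI, hC', mul_pow]
    have h1 : C0 * J ≤ C0 * (V * (Λ * W)) := mul_le_mul_of_nonneg_left hJle hC00.le
    have h2 : (V⁻¹) ^ 2 * I ^ 2 ≤ (V⁻¹) ^ 2 * (C0 * (V * (Λ * W))) :=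
      mul_le_mul_of_nonneg_left (hsq.trans h1) (by positivity)
    refine h2.trans (le_of_eq ?_)
    ring
  -- conclusion
  have hL : L2dist K T S = Real.sqrt H := by
    rw [L2dist, hH]
  rw [hL, ← Real.mul_rpow hC'0.le hW0, Real.sqrt_eq_rpow]
  have e : H ^ ((1 : ℝ) / 2) = (H ^ 2) ^ ((1 : ℝ) / 4) := by
    rw [← Real.rpow_natCast H 2, ← Real.rpow_mul hH0]
    norm_num
  rw [e]
  exact Real.rpow_le_rpow (by positivity) hH2 (by norm_num)

/-- The exponent `1/4` is admissible in every dimension. -/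
theorem admissible_quarter (hd : 1 ≤ d) : Admissible d (1 / 4) := by
  intro K hKc hKconv hKint Y hY
  obtain ⟨C, hC⟩ := stability_core hd K hKc hKconv hKint Y hY
  refine ⟨C, ?_⟩
  intro μ ν hμp hνp hμY hνY T S hT hS
  exact hC μ ν hμp hνp hμY hνY T S hT hS (W2 μ ν) (Real.sqrt_nonneg _)
    (fun f Λ hΛ hf => W_bound hY hμY hνY hΛ hf)

end Vale.Agent.P074
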