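import Vale.Agent.Lib.P074.Stab
import Vale.Agent.Lib.P074.Quarter

open MeasureTheory Set Filter Topology Metric
open scoped ENNReal

namespace Vale.Agent.P074

set_option linter.unusedSectionVars false

variable {d : ℕ}

/-- The pointwise interpolation inequality along a direction. -/
lemma gn_pt {r R φx φy ψx ψy tx ty σx σy κ : ℝ} (hr : 0 < r) (hR : 0 ≤ R)
    (h1 : φx + r * tx ≤ φy) (h2 : φy - r * ty ≤ φx) (h3 : ψx + r * σx ≤ ψy) (h4 : ψy - r * σy ≤ ψx)
    (btx : |tx| ≤ R) (bty : |ty| ≤ R) (bσx : |σx| ≤ R) (bσy : |σy| ≤ R) :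
    (tx - σx) ^ 2 ≤ (4 / r ^ 2) * ((φy - ψy - κ) ^ 2 + (φx - ψx - κ) ^ 2) +
      8 * R * ((ty - tx) + (σy - σx)) := by
  obtain ⟨Dd, hDd⟩ : ∃ Dd, Dd = ((φy - ψy - κ) - (φx - ψx - κ)) / r := ⟨_, rfl⟩
  have eD : r * Dd = (φy - φx) - (ψy - ψx) := by
    rw [hDd]
    field_simp
    ring
  have up : Dd ≤ ty - σx := by
    have : r * Dd ≤ r * (ty - σx) := by
      rw [eD]
      nlinarith
    exact le_of_mul_le_mul_left this hr
  have lo : tx - σy ≤ Dd := by
    have : r * (tx - σy) ≤ r * Dd := by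
      rw [eD]
      nlinarith
    exact le_of_mul_le_mul_left this hr
  have mt : tx ≤ ty := by
    have : r * tx ≤ r * ty := by linarith
    exact le_of_mul_le_mul_left this hr
  have mσ : σx ≤ σy := by
    have : r * σx ≤ r * σy := by linarith
    exact le_of_mul_le_mul_left this hr
  obtain ⟨ω, hω⟩ : ∃ ω, ω = (ty - tx) + (σy - σx) := ⟨_, rfl⟩
  have ω0 : 0 ≤ ω := by rw [hω]; linarith
  have ωb : ω ≤ 4 * R := by
    rw [hω]
    have := abs_le.mp btx
    have := abs_le.mp bty
    have := abs_le.mp bσx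
    have := abs_le.mp bσy
    linarith
  have hdiff : |tx - σx - Dd| ≤ ω := by
    rw [abs_le, hω]
    constructor <;> linarith
  have h5 : (tx - σx - Dd) ^ 2 ≤ ω ^ 2 := by
    have := abs_le.mp hdiff
    exact sq_le_sq' this.1 this.2
  have h6 : ω ^ 2 ≤ 4 * R * ω := by nlinarith
  have h7 : (tx - σx) ^ 2 ≤ 2 * Dd ^ 2 + 2 * (tx - σx - Dd) ^ 2 := by
    nlinarith [sq_nonneg (Dd - (tx - σx - Dd))]
  have h8 : Dd ^ 2 ≤ (2 / r ^ 2) * ((φy - ψy - κ) ^ 2 + (φx - ψx - κ) ^ 2) := by
    rw [hDd, div_pow, div_mul_eq_mul_div, div_le_div_iff_of_pos_right (by positivity)]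
    nlinarith [sq_nonneg ((φy - ψy - κ) + (φx - ψx - κ))]
  have e : (4 / r ^ 2) * ((φy - ψy - κ) ^ 2 + (φx - ψx - κ) ^ 2) =
      2 * ((2 / r ^ 2) * ((φy - ψy - κ) ^ 2 + (φx - ψx - κ) ^ 2)) := by ring
  rw [e, ← hω]
  nlinarith

/-- Change of variables for a shift. -/
lemma shift_int (A : Set (E d)) (w : E d) (g : E d → ℝ) :
    ∫ x in A, g (x + w) = ∫ y in {y | y - w ∈ A}, g y := by
  have hfm : MeasurePreserving (fun x : E d => x + w) volume volume :=
    measurePreserving_add_right volume w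
  have hfe : MeasurableEmbedding (fun x : E d => x + w) :=
    (MeasurableEquiv.addRight w).measurableEmbedding
  have := hfm.setIntegral_preimage_emb hfe g {y | y - w ∈ A}
  rw [← this]
  congr 2
  ext x
  simp

lemma shift_meas {A : Set (E d)} (hA : MeasurableSet A) (w : E d) :
    MeasurableSet {y : E d | y - w ∈ A} :=
  (measurable_id.sub_const w) hA

/-- Shifting a bounded function changes its integral by a boundary term. -/
lemma shift_bound {K A : Set (E d)} (mK : MeasurableSet K) (mA : MeasurableSet A) (hAK : A ⊆ K)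
    (fK : volume K ≠ ⊤) {w : E d} (hsh : ∀ x ∈ A, x + w ∈ K) {g : E d → ℝ} (mg : Measurable g)
    {R : ℝ} (hg : ∀ᵐ x ∂(volume.restrict K), |g x| ≤ R) :
    ∫ x in A, g (x + w) ≤ (∫ x in A, g x) + 2 * R * volume.real (K \ A) := by
  set h : E d → ℝ := fun x => g x + R with hh
  have mh : Measurable h := mg.add_const R
  have ih : IntegrableOn h K volume := by
    apply Measure.integrableOn_of_bounded fK mh.aestronglyMeasurable (M := 2 * R)
    filter_upwards [hg] with x hx
    have := abs_le.mp hx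
    rw [Real.norm_eq_abs, abs_le]
    simp only [hh]
    constructor <;> linarith
  have h0 : 0 ≤ᵐ[volume.restrict K] h := by
    filter_upwards [hg] with x hx
    have := abs_le.mp hx
    simp only [hh, Pi.zero_apply]
    linarith
  have mA' := shift_meas mA w
  have hA' : {y : E d | y - w ∈ A} ⊆ K := by
    intro y hy
    have := hsh _ hy
    simpa using this
  have s1 : ∫ y in {y | y - w ∈ A}, h y ≤ ∫ y in K, h y :=
    setIntegral_mono_set ih h0 hA'.eventuallyLE
  have s2 := integral_inter_add_sdiff mA ih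
  rw [inter_eq_right.mpr hAK] at s2
  have fdiff : volume (K \ A) < ⊤ := (measure_mono sdiff_subset).trans_lt (lt_top_iff_ne_top.mpr fK)
  have s3 : ∫ x in K \ A, h x ≤ 2 * R * volume.real (K \ A) := by
    have := norm_setIntegral_le_of_norm_le_const_ae (μ := volume) (s := K \ A) (f := h)
      (C := 2 * R) fdiff (by
        apply ae_restrict_of_ae_restrict_of_subset (sdiff_subset (s := K) (t := A))
        filter_upwards [hg] with x hx
        have := abs_le.mp hx
        rw [Real.norm_eq_abs, abs_le]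
        simp only [hh]
        constructor <;> linarith)
    exact (le_abs_self _).trans this
  have fA : volume A ≠ ⊤ := ne_top_of_le_ne_top fK (measure_mono hAK)
  have fA' : volume {y : E d | y - w ∈ A} ≠ ⊤ := ne_top_of_le_ne_top fK (measure_mono hA')
  have e1 : ∫ x in A, h (x + w) = (∫ x in A, g (x + w)) + volume.real A * R := by
    have i0 : IntegrableOn (fun x => g (x + w)) A volume := by
      have hfm : MeasurePreserving (fun x : E d => x + w) volume volume :=
        measurePreserving_add_right volume w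
      apply Measure.integrableOn_of_bounded fA (mg.comp (measurable_id.add_const w)).aestronglyMeasurable
        (M := R)
      have hg' : ∀ᵐ x : E d, x ∈ K → |g x| ≤ R := (ae_restrict_iff' mK).mp hg
      have hg'' := hfm.quasiMeasurePreserving.ae hg'
      filter_upwards [ae_restrict_of_ae hg'', ae_restrict_mem mA] with x hx hxA
      rw [Real.norm_eq_abs]
      exact hx (hsh x hxA)
    simp only [hh]
    rw [integral_add i0 (integrableOn_const fA), int_const_real]
  have e2 : ∫ x in A, h x = (∫ x in A, g x) + volume.real A * R := by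
    have i0 : IntegrableOn g A volume := by
      have : IntegrableOn h A volume := ih.mono_set hAK
      have i1 : IntegrableOn (fun _ : E d => R) A volume := integrableOn_const fA
      have : IntegrableOn (fun x => h x - R) A volume := this.sub i1
      simpa [hh] using this
    simp only [hh]
    rw [integral_add i0 (integrableOn_const fA), int_const_real]
  have e3 := shift_int A w h
  linarith

lemma sq_sub_norm_le {u v R : ℝ} (h1 : |u| ≤ R) (h2 : |v| ≤ R) : ‖(u - v) ^ 2‖ ≤ (2 * R) ^ 2 := by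
  have a1 := abs_le.mp h1
  have a2 := abs_le.mp h2
  rw [Real.norm_eq_abs, abs_of_nonneg (sq_nonneg _)]
  exact sq_le_sq' (by linarith [a1.2, a2.1]) (by linarith [a1.1, a2.2])

/-- The interpolation inequality in one direction. -/
lemma gn_dir {K A : Set (E d)} (hK : IsCompact K) (mK : MeasurableSet K) (mA : MeasurableSet A)
    (hAK : A ⊆ K) (fK : volume K ≠ ⊤) {e : E d} (he : ‖e‖ ≤ 1) {r R : ℝ} (hr : 0 < r) (hR : 0 ≤ R)
    (hsh : ∀ x ∈ A, x + r • e ∈ K) {φ ψ : E d → ℝ} (hφ : Continuous φ) (hψ : Continuous ψ)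
    {T S : E d → E d} (mT : Measurable T) (mS : Measurable S)
    (hT : ∀ᵐ x ∂(volume.restrict K), (∀ y, φ x + inner ℝ (y - x) (T x) ≤ φ y) ∧ ‖T x‖ ≤ R)
    (hS : ∀ᵐ x ∂(volume.restrict K), (∀ y, ψ x + inner ℝ (y - x) (S x) ≤ ψ y) ∧ ‖S x‖ ≤ R)
    (κ : ℝ) :
    ∫ x in K, (inner ℝ (T x) e - inner ℝ (S x) e) ^ 2 ≤
      (8 / r ^ 2) * (∫ x in K, (φ x - ψ x - κ) ^ 2) + 36 * R ^ 2 * volume.real (K \ A) := by
  set w : E d := r • e with hw
  set t : E d → ℝ := fun x => inner ℝ (T x) e with ht
  set σ : E d → ℝ := fun x => inner ℝ (S x) e with hσ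
  have mt : Measurable t := mT.inner measurable_const
  have mσ : Measurable σ := mS.inner measurable_const
  have bd : ∀ z : E d, ‖z‖ ≤ R → |inner ℝ z e| ≤ R := fun z hz =>
    (abs_real_inner_le_norm z e).trans (by nlinarith [norm_nonneg z])
  have bt : ∀ᵐ x ∂(volume.restrict K), |t x| ≤ R := by
    filter_upwards [hT] with x hx using bd _ hx.2
  have bσ : ∀ᵐ x ∂(volume.restrict K), |σ x| ≤ R := by
    filter_upwards [hS] with x hx using bd _ hx.2
  have ζc : Continuous (fun x => (φ x - ψ x - κ) ^ 2) := by fun_prop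
  have fA : volume A ≠ ⊤ := ne_top_of_le_ne_top fK (measure_mono hAK)
  have ifK : IntegrableOn (fun x => (t x - σ x) ^ 2) K volume := by
    apply Measure.integrableOn_of_bounded fK
      (((mt.sub mσ).pow_const 2).aestronglyMeasurable) (M := (2 * R) ^ 2)
    filter_upwards [bt, bσ] with x h1 h2
    exact sq_sub_norm_le h1 h2
  -- decomposition
  have split := integral_inter_add_sdiff mA ifK
  rw [inter_eq_right.mpr hAK] at split
  have fdiff : volume (K \ A) < ⊤ := (measure_mono sdiff_subset).trans_lt (lt_top_iff_ne_top.mpr fK)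
  have rest : ∫ x in K \ A, (t x - σ x) ^ 2 ≤ 4 * R ^ 2 * volume.real (K \ A) := by
    have := norm_setIntegral_le_of_norm_le_const_ae (μ := volume) (s := K \ A)
      (f := fun x => (t x - σ x) ^ 2) (C := 4 * R ^ 2) fdiff (by
        apply ae_restrict_of_ae_restrict_of_subset (sdiff_subset (s := K) (t := A))
        filter_upwards [bt, bσ] with x h1 h2
        have a1 := abs_le.mp h1
        have a2 := abs_le.mp h2
        rw [Real.norm_eq_abs, abs_of_nonneg (sq_nonneg _)]
        have := sq_le_sq' (show -(2 * R) ≤ t x - σ x by linarith [a1.2, a2.1])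
          (show t x - σ x ≤ 2 * R by linarith [a1.1, a2.2])
        nlinarith)
    exact (le_abs_self _).trans this
  -- the pointwise bound on `A`
  have hfm : MeasurePreserving (fun x : E d => x + w) volume volume :=
    measurePreserving_add_right volume w
  have hT' : ∀ᵐ x : E d, x ∈ K → (∀ y, φ x + inner ℝ (y - x) (T x) ≤ φ y) ∧ ‖T x‖ ≤ R :=
    (ae_restrict_iff' mK).mp hT
  have hS' : ∀ᵐ x : E d, x ∈ K → (∀ y, ψ x + inner ℝ (y - x) (S x) ≤ ψ y) ∧ ‖S x‖ ≤ R :=
    (ae_restrict_iff' mK).mp hS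
  have hpt : ∀ᵐ x ∂(volume.restrict A), (t x - σ x) ^ 2 ≤
      (4 / r ^ 2) * ((φ (x + w) - ψ (x + w) - κ) ^ 2 + (φ x - ψ x - κ) ^ 2) +
        8 * R * ((t (x + w) - t x) + (σ (x + w) - σ x)) := by
    filter_upwards [ae_restrict_of_ae hT', ae_restrict_of_ae hS',
      ae_restrict_of_ae (hfm.quasiMeasurePreserving.ae hT'),
      ae_restrict_of_ae (hfm.quasiMeasurePreserving.ae hS'), ae_restrict_mem mA]
      with x a1 a2 a3 a4 hxA
    obtain ⟨s1, n1⟩ := a1 (hAK hxA)
    obtain ⟨s2, n2⟩ := a2 (hAK hxA)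
    obtain ⟨s3, n3⟩ := a3 (hsh x hxA)
    obtain ⟨s4, n4⟩ := a4 (hsh x hxA)
    have e1 : x + w - x = r • e := by
      rw [hw]
      abel
    have e2 : x - (x + w) = (-r) • e := by
      rw [hw, neg_smul]
      abel
    have b1 := s1 (x + w)
    have b2 := s3 x
    have b3 := s2 (x + w)
    have b4 := s4 x
    rw [e1, inner_smul_left, real_inner_comm] at b1 b3
    rw [e2, inner_smul_left, real_inner_comm] at b2 b4
    simp only [conj_trivial] at b1 b2 b3 b4
    apply gn_pt hr hR (φx := φ x) (φy := φ (x + w)) (ψx := ψ x) (ψy := ψ (x + w))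
      (tx := t x) (ty := t (x + w)) (σx := σ x) (σy := σ (x + w)) (κ := κ)
    · exact b1
    · simp only [ht]
      linarith
    · exact b3
    · simp only [hσ]
      linarith
    · exact bd _ n1
    · exact bd _ n3
    · exact bd _ n2
    · exact bd _ n4
  -- integrating
  have iA1 : IntegrableOn (fun x => (φ (x + w) - ψ (x + w) - κ) ^ 2) A volume := by
    have hc : Continuous (fun x => (φ (x + w) - ψ (x + w) - κ) ^ 2) :=
      ζc.comp (continuous_id.add (continuous_const (y := w)))
    exact (int_of_cont hK hc).mono_set hAK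
  have iA2 : IntegrableOn (fun x => (φ x - ψ x - κ) ^ 2) A volume :=
    (int_of_cont hK ζc).mono_set hAK
  have bnd : ∀ {g : E d → ℝ}, Measurable g → (∀ᵐ x ∂(volume.restrict K), |g x| ≤ R) →
      IntegrableOn g A volume ∧ IntegrableOn (fun x => g (x + w)) A volume := by
    intro g mg hg
    constructor
    · apply Measure.integrableOn_of_bounded fA mg.aestronglyMeasurable (M := R)
      have := ae_restrict_of_ae_restrict_of_subset hAK hg
      filter_upwards [this] with x hx
      rwa [Real.norm_eq_abs]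
    · apply Measure.integrableOn_of_bounded fA
        (mg.comp (measurable_id.add_const w)).aestronglyMeasurable (M := R)
      have hg' : ∀ᵐ x : E d, x ∈ K → |g x| ≤ R := (ae_restrict_iff' mK).mp hg
      have hg'' := hfm.quasiMeasurePreserving.ae hg'
      filter_upwards [ae_restrict_of_ae hg'', ae_restrict_mem mA] with x hx hxA
      rw [Real.norm_eq_abs]
      exact hx (hsh x hxA)
  obtain ⟨it, it'⟩ := bnd mt bt
  obtain ⟨iσ, iσ'⟩ := bnd mσ bσ
  have iR1 : IntegrableOn (fun x => (4 / r ^ 2) *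
      ((φ (x + w) - ψ (x + w) - κ) ^ 2 + (φ x - ψ x - κ) ^ 2)) A volume :=
    (iA1.add iA2).const_mul _
  have iR2a : IntegrableOn (fun x => t (x + w) - t x) A volume := it'.sub it
  have iR2b : IntegrableOn (fun x => σ (x + w) - σ x) A volume := iσ'.sub iσ
  have iR2c : IntegrableOn (fun x => (t (x + w) - t x) + (σ (x + w) - σ x)) A volume :=
    iR2a.add iR2b
  have iR2 : IntegrableOn (fun x => 8 * R * ((t (x + w) - t x) + (σ (x + w) - σ x))) A volume :=
    iR2c.const_mul _
  have hmono : ∫ x in A, (t x - σ x) ^ 2 ≤ ∫ x in A, ((4 / r ^ 2) *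
      ((φ (x + w) - ψ (x + w) - κ) ^ 2 + (φ x - ψ x - κ) ^ 2) +
        8 * R * ((t (x + w) - t x) + (σ (x + w) - σ x))) :=
    integral_mono_ae (ifK.mono_set hAK) (iR1.add iR2) hpt
  rw [integral_add iR1 iR2, integral_const_mul, integral_const_mul, integral_add iA1 iA2,
    integral_add iR2a iR2b, integral_sub it' it, integral_sub iσ' iσ] at hmono
  -- the terms
  have j1 : ∫ x in A, (φ (x + w) - ψ (x + w) - κ) ^ 2 ≤ ∫ x in K, (φ x - ψ x - κ) ^ 2 := by
    have e := shift_int A w (fun x => (φ x - ψ x - κ) ^ 2)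
    rw [e]
    apply setIntegral_mono_set (int_of_cont hK ζc)
    · exact ae_of_all _ (fun x => sq_nonneg _)
    · apply HasSubset.Subset.eventuallyLE
      intro y hy
      have := hsh _ hy
      simpa using this
  have j2 : ∫ x in A, (φ x - ψ x - κ) ^ 2 ≤ ∫ x in K, (φ x - ψ x - κ) ^ 2 :=
    setIntegral_mono_set (int_of_cont hK ζc) (ae_of_all _ (fun x => sq_nonneg _))
      hAK.eventuallyLE
  have j3 := shift_bound mK mA hAK fK hsh mt bt
  have j4 := shift_bound mK mA hAK fK hsh mσ bσ
  have hV : 0 ≤ volume.real (K \ A) := measureReal_nonneg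
  have hr2 : 0 ≤ 4 / r ^ 2 := by positivity
  have k1 := mul_le_mul_of_nonneg_left (add_le_add j1 j2) hr2
  have k2 : 8 * R * ((∫ x in A, t (x + w)) - (∫ x in A, t x) +
      ((∫ x in A, σ (x + w)) - ∫ x in A, σ x)) ≤
      8 * R * (2 * R * volume.real (K \ A) + 2 * R * volume.real (K \ A)) :=
    mul_le_mul_of_nonneg_left (by linarith) (by positivity)
  rw [← split]
  have e8 : (8 / r ^ 2) * (∫ x in K, (φ x - ψ x - κ) ^ 2) = (4 / r ^ 2) *
      ((∫ x in K, (φ x - ψ x - κ) ^ 2) + ∫ x in K, (φ x - ψ x - κ) ^ 2) := by ring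
  rw [e8]
  have e9 : 36 * R ^ 2 * volume.real (K \ A) =
      8 * R * (2 * R * volume.real (K \ A) + 2 * R * volume.real (K \ A)) +
        4 * R ^ 2 * volume.real (K \ A) := by ring
  rw [e9]
  linarith

/-- The interpolation inequality: the maps are controlled by the potentials. -/
theorem gn_main {K : Set (E d)} (hK : IsCompact K) (hconv : Convex ℝ K) {c : E d} {a : ℝ}
    (ha : 0 < a) (hball : closedBall c a ⊆ K) {r R : ℝ} (hr : 0 < r) (hra : r / a ≤ 1) (hR : 0 ≤ R)
    {φ ψ : E d → ℝ} (hφ : Continuous φ) (hψ : Continuous ψ)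
    {T S : E d → E d} (mT : Measurable T) (mS : Measurable S)
    (hT : ∀ᵐ x ∂(volume.restrict K), (∀ y, φ x + inner ℝ (y - x) (T x) ≤ φ y) ∧ ‖T x‖ ≤ R)
    (hS : ∀ᵐ x ∂(volume.restrict K), (∀ y, ψ x + inner ℝ (y - x) (S x) ≤ ψ y) ∧ ‖S x‖ ≤ R)
    (κ : ℝ) :
    ∫ x in K, ‖T x - S x‖ ^ 2 ≤
      d * ((8 / r ^ 2) * (∫ x in K, (φ x - ψ x - κ) ^ 2) +
        36 * R ^ 2 * (volume.real K * (d * (r / a)))) := by
  have mK : MeasurableSet K := hK.measurableSet
  have fK : volume K ≠ ⊤ := hK.measure_lt_top.ne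
  have hcK : c ∈ K := hball (mem_closedBall_self ha.le)
  set ε : ℝ := r / a with hε
  have hε0 : 0 < ε := by positivity
  set A : Set (E d) := shrink K c ε with hA
  have hAc : IsCompact A := shrink_compact hK c ε
  have mA : MeasurableSet A := hAc.measurableSet
  have hAK : A ⊆ K := shrink_subset hconv hcK hε0.le hra
  have hs0 : shrink K c 0 = K := by
    ext x
    simp [shrink]
  have hvol : volume.real (K \ A) ≤ volume.real K * (d * ε) := by
    rw [measureReal_sdiff hAK mA fK]
    have h1 := shrink_volume_diff (K := K) fK c le_rfl hε0.le hra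
    rw [hs0] at h1
    simpa using h1
  have hsh : ∀ i : Fin d, ∀ x ∈ A, x + r • (ee i : E d) ∈ K := by
    intro i x hx
    have hw : ‖r • (ee i : E d)‖ ≤ (ε - 0) * a := by
      rw [norm_smul, norm_ee, mul_one, Real.norm_eq_abs, abs_of_pos hr, sub_zero, hε]
      field_simp
      exact le_refl _
    have := shrink_add hconv hball hε0 hra hx hw
    rwa [hs0] at this
  have hdir := fun i => gn_dir hK mK mA hAK fK (e := (ee i : E d)) (norm_ee i).le hr hR (hsh i)
    hφ hψ mT mS hT hS κ
  have hpt : ∀ x, ‖T x - S x‖ ^ 2 =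
      ∑ i : Fin d, (inner ℝ (T x) (ee i : E d) - inner ℝ (S x) (ee i : E d)) ^ 2 := by
    intro x
    rw [EuclideanSpace.norm_sq_eq]
    apply Finset.sum_congr rfl
    intro i _
    rw [← inner_sub_left]
    simp [ee, EuclideanSpace.inner_single_right]
  simp only [hpt]
  have hbd : ∀ i : Fin d, IntegrableOn
      (fun x => (inner ℝ (T x) (ee i : E d) - inner ℝ (S x) (ee i : E d)) ^ 2) K volume := by
    intro i
    apply Measure.integrableOn_of_bounded fK
      (((mT.inner measurable_const).sub (mS.inner measurable_const)).pow_const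
        2).aestronglyMeasurable (M := (2 * R) ^ 2)
    filter_upwards [hT, hS] with x h1 h2
    have b1 : |inner ℝ (T x) (ee i : E d)| ≤ R :=
      (abs_real_inner_le_norm _ _).trans (by rw [norm_ee, mul_one]; exact h1.2)
    have b2 : |inner ℝ (S x) (ee i : E d)| ≤ R :=
      (abs_real_inner_le_norm _ _).trans (by rw [norm_ee, mul_one]; exact h2.2)
    exact sq_sub_norm_le b1 b2
  rw [integral_finsetSum _ (fun i _ => hbd i)]
  calc ∑ i : Fin d, ∫ x in K, (inner ℝ (T x) (ee i : E d) - inner ℝ (S x) (ee i : E d)) ^ 2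
      ≤ ∑ _i : Fin d, ((8 / r ^ 2) * (∫ x in K, (φ x - ψ x - κ) ^ 2) +
          36 * R ^ 2 * (volume.real K * (d * ε))) := by
        apply Finset.sum_le_sum
        intro i _
        refine (hdir i).trans ?_
        gcongr
    _ = _ := by
        simp only [Finset.sum_const, Finset.card_univ, Fintype.card_fin, nsmul_eq_mul]

end Vale.Agent.P074
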