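import Vale.Agent.Lib.P074.Conj

open MeasureTheory Set Filter Topology Metric

namespace Vale.Agent.P074

set_option linter.unusedSectionVars false

variable {d : ℕ}

lemma sdiffSum_continuous {φ : E d → ℝ} (hφ : Continuous φ) (ρ : ℝ) :
    Continuous (sdiffSum φ ρ) := by
  unfold sdiffSum
  fun_prop

/-- Integrated coordinate second differences on a shrunken copy of `K`. -/
lemma int_sdiffSum {K : Set (E d)} (hKc : IsCompact K) (hKconv : Convex ℝ K) {c : E d} {a : ℝ}
    (ha : 0 < a) (hball : closedBall c a ⊆ K) {φ : E d → ℝ} {R : ℝ} (hR : 0 ≤ R)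
    (hφ : ∀ x y, φ x ≤ φ y + R * ‖x - y‖) {ε ρ : ℝ} (hε : 0 ≤ ε) (hρ : 0 < ρ)
    (hle : ε + ρ / a ≤ 1) :
    ∫ x in shrink K c ε, sdiffSum φ ρ x ≤
      d * (2 * R * ρ * (volume.real K * (d * (ρ / a)))) := by
  have hφc : Continuous φ := lip_continuous hR hφ
  have hAc : IsCompact (shrink K c ε) := shrink_compact hKc c ε
  have hAm : MeasurableSet (shrink K c ε) := hAc.measurableSet
  have hAf : volume (shrink K c ε) ≠ ⊤ := hAc.measure_lt_top.ne
  have hLc : IsCompact (shrink K c (ε + ρ / a)) := shrink_compact hKc c _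
  have hq : 0 < ρ / a := by positivity
  have hint : ∀ i : Fin d, IntegrableOn
      (fun x => φ (x + ρ • (ee i : E d)) + φ (x - ρ • (ee i : E d)) - 2 * φ x)
      (shrink K c ε) volume := by
    intro i
    apply ContinuousOn.integrableOn_compact hAc
    apply Continuous.continuousOn
    fun_prop
  unfold sdiffSum
  rw [integral_finsetSum _ (fun i _ => hint i)]
  have hb : ∀ i : Fin d,
      ∫ x in shrink K c ε, (φ (x + ρ • (ee i : E d)) + φ (x - ρ • (ee i : E d)) - 2 * φ x) ≤
        2 * R * ρ * (volume.real K * (d * (ρ / a))) := by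
    intro i
    have hne : ε < ε + ρ / a := by linarith
    have hw : ‖ρ • (ee i : E d)‖ = ρ := by
      rw [norm_smul, norm_ee, mul_one, Real.norm_eq_abs, abs_of_pos hρ]
    have h1 := int_second_diff (A := shrink K c ε) (L := shrink K c (ε + ρ / a))
      (w := ρ • (ee i : E d)) hAm hAf hLc.measurableSet
      (by
        intro x hx
        have := shrink_add hKconv hball hne hle (w := 0) hx (by
          simp only [norm_zero]
          have : ε + ρ / a - ε = ρ / a := by ring
          rw [this]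
          positivity)
        simpa using this)
      (by
        intro x hx
        apply shrink_add hKconv hball hne hle hx
        rw [hw]
        have : ε + ρ / a - ε = ρ / a := by ring
        rw [this]
        field_simp
        exact le_refl _)
      hR hφ
    rw [hw] at h1
    refine h1.trans ?_
    apply mul_le_mul_of_nonneg_left _ (by positivity)
    have h2 := shrink_volume_diff (K := K) hKc.measure_lt_top.ne c hε hne.le hle
    have : ε + ρ / a - ε = ρ / a := by ring
    rw [this] at h2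
    exact h2
  calc ∑ i : Fin d, ∫ x in shrink K c ε,
        (φ (x + ρ • (ee i : E d)) + φ (x - ρ • (ee i : E d)) - 2 * φ x)
      ≤ ∑ _i : Fin d, 2 * R * ρ * (volume.real K * (d * (ρ / a))) :=
        Finset.sum_le_sum (fun i _ => hb i)
    _ = _ := by
        simp only [Finset.sum_const, Finset.card_univ, Fintype.card_fin, nsmul_eq_mul]

/-- The main lower bound: for small `s`, `s I ≤ J + M s²`. -/
theorem key_ineq {K : Set (E d)} (hKc : IsCompact K) (hKconv : Convex ℝ K) {c : E d} {a : ℝ}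
    (ha : 0 < a) (hball : closedBall c a ⊆ K) (hd : 1 ≤ d)
    {φ ψ : E d → ℝ} {R : ℝ} (hR : 0 < R) (hφ : ∀ x y, φ x ≤ φ y + R * ‖x - y‖)
    (hconv : ∀ x y t, 0 ≤ t → t ≤ 1 → φ ((1 - t) • x + t • y) ≤ (1 - t) * φ x + t * φ y)
    (hψ : ∀ x ∈ K, ∀ z, inner ℝ x z - φ x ≤ ψ z) (hψc : Continuous ψ)
    {T S : E d → E d} (hT : Measurable T) (hS : Measurable S)
    (hgood : ∀ᵐ x ∂(volume.restrict K),
      (∀ y, φ x + inner ℝ (y - x) (T x) ≤ φ y) ∧ ‖T x‖ ≤ R ∧ ‖S x‖ ≤ R)
    {s : ℝ} (hs : 0 < s) (hs1 : 2 * R * s / a * ((d : ℝ) + 1) ≤ 1) :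
    s * ∫ x in K, ‖T x - S x‖ ^ 2 ≤
      (∫ x in K, (φ x + ψ (S x) - inner ℝ x (S x))) +
        ((8 * (d : ℝ) ^ 3 + 8 * d) * R ^ 3 * volume.real K / a) * s ^ 2 := by
  have hd0 : (0 : ℝ) < d := by exact_mod_cast hd
  have hφc : Continuous φ := lip_continuous hR.le hφ
  have hcK : c ∈ K := hball (mem_closedBall_self ha.le)
  have hKm : MeasurableSet K := hKc.measurableSet
  have hKf : volume K ≠ ⊤ := hKc.measure_lt_top.ne
  set ε : ℝ := 2 * R * s / a with hε
  have hε0 : 0 < ε := by positivity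
  set τ : ℝ := 2 * R * s with hτ
  have hτ0 : 0 < τ := by positivity
  set ρ : ℝ := (d : ℝ) * τ with hρ
  have hρ0 : 0 < ρ := by positivity
  have hρa : ρ / a = d * ε := by
    rw [hρ, hε, hτ]
    ring
  have hle : ε + ρ / a ≤ 1 := by
    rw [hρa]
    have : ε + d * ε = ε * ((d : ℝ) + 1) := by ring
    rw [this]
    exact hs1
  have hε1 : ε ≤ 1 := by nlinarith [mul_pos hd0 hε0]
  set A : Set (E d) := shrink K c ε with hA
  have hAc : IsCompact A := shrink_compact hKc c ε
  have hAm : MeasurableSet A := hAc.measurableSet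
  have hAK : A ⊆ K := shrink_subset hKconv hcK hε0.le hε1
  have hgoodA : ∀ᵐ x ∂(volume.restrict A),
      (∀ y, φ x + inner ℝ (y - x) (T x) ≤ φ y) ∧ ‖T x‖ ≤ R ∧ ‖S x‖ ≤ R :=
    ae_restrict_of_ae_restrict_of_subset hAK hgood
  -- integrability
  have hqm : Measurable (fun x => ‖T x - S x‖ ^ 2) := ((hT.sub hS).norm).pow_const 2
  have hqb : ∀ x, ‖T x‖ ≤ R → ‖S x‖ ≤ R → ‖‖T x - S x‖ ^ 2‖ ≤ 4 * R ^ 2 := by
    intro x h1 h2
    have h3 : ‖T x - S x‖ ≤ 2 * R := (norm_sub_le _ _).trans (by linarith)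
    rw [Real.norm_eq_abs, abs_of_nonneg (by positivity)]
    nlinarith [norm_nonneg (T x - S x)]
  have hqi : IntegrableOn (fun x => ‖T x - S x‖ ^ 2) K volume := by
    apply Measure.integrableOn_of_bounded hKf hqm.aestronglyMeasurable (M := 4 * R ^ 2)
    filter_upwards [hgood] with x hx
    exact hqb x hx.2.1 hx.2.2
  have hGm : Measurable (fun x => φ x + ψ (S x) - inner ℝ x (S x)) := by
    apply Measurable.sub
    · exact hφc.measurable.add (hψc.measurable.comp hS)
    · exact measurable_id.inner hS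
  have hGi : IntegrableOn (fun x => φ x + ψ (S x) - inner ℝ x (S x)) K volume := by
    have hcont : ContinuousOn (fun p : E d × E d => φ p.1 + ψ p.2 - inner ℝ p.1 p.2)
        (K ×ˢ closedBall (0 : E d) R) := by
      apply Continuous.continuousOn
      fun_prop
    obtain ⟨B, hB⟩ := (hKc.prod (isCompact_closedBall 0 R)).exists_bound_of_continuousOn hcont
    apply Measure.integrableOn_of_bounded hKf hGm.aestronglyMeasurable (M := B)
    filter_upwards [hgood, ae_restrict_mem hKm] with x hx hxK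
    apply hB (x, S x)
    simp only [mem_prod, mem_closedBall, dist_zero_right]
    exact ⟨hxK, hx.2.2⟩
  have hG0 : 0 ≤ᵐ[volume.restrict K] (fun x => φ x + ψ (S x) - inner ℝ x (S x)) := by
    filter_upwards [ae_restrict_mem hKm] with x hxK
    have := hψ x hxK (S x)
    simp only [Pi.zero_apply]
    linarith
  have hsi : IntegrableOn (sdiffSum φ ρ) A volume :=
    ContinuousOn.integrableOn_compact hAc (sdiffSum_continuous hφc ρ).continuousOn
  -- pointwise
  have hpt : ∀ᵐ x ∂(volume.restrict A), s * ‖T x - S x‖ ^ 2 ≤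
      (φ x + ψ (S x) - inner ℝ x (S x)) + (1 / (d : ℝ)) * sdiffSum φ ρ x := by
    filter_upwards [hgoodA, ae_restrict_mem hAm] with x hx hxA
    obtain ⟨hsub, hTx, hSx⟩ := hx
    set z : E d := s • (S x - T x) with hz
    have hh : ‖S x - T x‖ ≤ 2 * R := (norm_sub_le _ _).trans (by linarith)
    have hzn : ‖z‖ ≤ τ := by
      rw [hz, norm_smul, Real.norm_eq_abs, abs_of_pos hs, hτ]
      nlinarith
    have hx' : x + z ∈ shrink K c 0 := by
      apply shrink_add hKconv hball hε0 hε1 hxA
      rw [sub_zero, hε]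
      have : 2 * R * s / a * a = τ := by
        rw [hτ]
        field_simp
      rw [this]
      exact hzn
    have hxK' : x + z ∈ K := shrink_subset hKconv hcK le_rfl zero_le_one hx'
    have h1 := hψ (x + z) hxK' (S x)
    have h2 := excess_le hconv hd hsub hτ0 hzn
    have h3 : inner ℝ z (S x) - inner ℝ z (T x) = s * ‖T x - S x‖ ^ 2 := by
      rw [← inner_sub_right, hz, inner_smul_left, real_inner_self_eq_norm_sq, norm_sub_rev]
      simp
    rw [inner_add_left] at h1
    linarith
  -- integrate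
  have hleft : s * ∫ x in A, ‖T x - S x‖ ^ 2 ≤
      (∫ x in A, (φ x + ψ (S x) - inner ℝ x (S x))) +
        (1 / (d : ℝ)) * ∫ x in A, sdiffSum φ ρ x := by
    rw [← integral_const_mul, ← integral_const_mul, ← integral_add (hGi.mono_set hAK)
      (hsi.const_mul _)]
    apply integral_mono_ae ((hqi.mono_set hAK).const_mul _)
      ((hGi.mono_set hAK).add (hsi.const_mul _))
    exact hpt
  have hsd := int_sdiffSum hKc hKconv ha hball hR.le hφ hε0.le hρ0 hle
  have hGmono : ∫ x in A, (φ x + ψ (S x) - inner ℝ x (S x)) ≤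
      ∫ x in K, (φ x + ψ (S x) - inner ℝ x (S x)) :=
    setIntegral_mono_set hGi hG0 hAK.eventuallyLE
  have hsplit := integral_inter_add_sdiff hAm hqi
  have hKA : K ∩ A = A := inter_eq_right.mpr hAK
  rw [hKA] at hsplit
  have hrest : ∫ x in K \ A, ‖T x - S x‖ ^ 2 ≤ 4 * R ^ 2 * volume.real (K \ A) := by
    have := norm_setIntegral_le_of_norm_le_const_ae (μ := volume) (s := K \ A)
      (f := fun x => ‖T x - S x‖ ^ 2) (C := 4 * R ^ 2)
      ((measure_mono sdiff_subset).trans_lt hKc.measure_lt_top) (by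
        apply ae_restrict_of_ae_restrict_of_subset (sdiff_subset (s := K) (t := A))
        filter_upwards [hgood] with x hx
        exact hqb x hx.2.1 hx.2.2)
    exact (le_abs_self _).trans this
  have hvol : volume.real (K \ A) ≤ volume.real K * (d * ε) := by
    rw [measureReal_sdiff hAK hAm hKf]
    have h1 := shrink_volume_diff (K := K) hKf c le_rfl hε0.le hε1
    have h2 : shrink K c 0 = K := by
      ext x
      simp [shrink]
    rw [h2] at h1
    simpa using h1
  -- algebra
  have hV : 0 ≤ volume.real K := measureReal_nonneg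
  have h5 : (1 / (d : ℝ)) * ∫ x in A, sdiffSum φ ρ x ≤
      (1 / (d : ℝ)) * (d * (2 * R * ρ * (volume.real K * (d * (ρ / a))))) :=
    mul_le_mul_of_nonneg_left hsd (by positivity)
  have h6 : (1 / (d : ℝ)) * (d * (2 * R * ρ * (volume.real K * (d * (ρ / a))))) =
      (8 * (d : ℝ) ^ 3) * R ^ 3 * volume.real K / a * s ^ 2 := by
    rw [hρ, hτ]
    field_simp
    ring
  have h7 : s * ∫ x in K \ A, ‖T x - S x‖ ^ 2 ≤
      (8 * (d : ℝ)) * R ^ 3 * volume.real K / a * s ^ 2 := by
    have h8 : ∫ x in K \ A, ‖T x - S x‖ ^ 2 ≤ 4 * R ^ 2 * (volume.real K * (d * ε)) :=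
      hrest.trans (mul_le_mul_of_nonneg_left hvol (by positivity))
    have h9 := mul_le_mul_of_nonneg_left h8 hs.le
    refine h9.trans (le_of_eq ?_)
    rw [hε]
    field_simp
    ring
  rw [← hsplit, mul_add]
  have e : ((8 * (d : ℝ) ^ 3 + 8 * d) * R ^ 3 * volume.real K / a) * s ^ 2 =
      (8 * (d : ℝ) ^ 3) * R ^ 3 * volume.real K / a * s ^ 2 +
        (8 * (d : ℝ)) * R ^ 3 * volume.real K / a * s ^ 2 := by ring
  rw [e]
  linarith

/-- Optimizing in the parameter. -/
lemma kappa_trick {I J M s0 B : ℝ} (hI0 : 0 ≤ I) (hIB : I ≤ B) (hB : 0 < B) (hs0 : 0 < s0)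
    (hM : 0 < M) (hJ : 0 ≤ J) (h : ∀ s, 0 < s → s ≤ s0 → s * I ≤ J + M * s ^ 2) :
    I ^ 2 ≤ (2 / min (s0 / B) (1 / (2 * M))) * J := by
  set κ : ℝ := min (s0 / B) (1 / (2 * M)) with hκ
  have hκ0 : 0 < κ := lt_min (by positivity) (by positivity)
  rcases hI0.eq_or_lt with hI | hI
  · rw [← hI]
    have : 0 ≤ (2 / κ) * J := by positivity
    simpa using this
  have hk1 : κ ≤ s0 / B := min_le_left _ _
  have hk2 : κ ≤ 1 / (2 * M) := min_le_right _ _
  have hs : κ * I ≤ s0 := by
    calc κ * I ≤ (s0 / B) * B := mul_le_mul hk1 hIB hI.le (by positivity)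
      _ = s0 := by field_simp
  have h1 := h (κ * I) (by positivity) hs
  have h2 : M * κ ≤ 1 / 2 := by
    have := mul_le_mul_of_nonneg_left hk2 hM.le
    have e : M * (1 / (2 * M)) = 1 / 2 := by field_simp
    rwa [e] at this
  have h3 : M * (κ * I) ^ 2 ≤ (1 / 2) * (κ * I ^ 2) := by
    have : M * (κ * I) ^ 2 = (M * κ) * (κ * I ^ 2) := by ring
    rw [this]
    exact mul_le_mul_of_nonneg_right h2 (by positivity)
  have h4 : κ * I ^ 2 ≤ 2 * J := by
    have : κ * I * I = κ * I ^ 2 := by ring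
    rw [this] at h1
    linarith
  rw [div_mul_eq_mul_div, le_div_iff₀ hκ0]
  linarith

end Vale.Agent.P074
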