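import Vale.Agent.Lib.P074.Defs
open MeasureTheory Set
namespace Vale.Agent.P074

/-- the cube -/
def cube (d : ℕ) : Set (E d) := {x | ∀ i, x i ∈ Icc (0:ℝ) 1}

lemma cube_preimage (d : ℕ) : (WithLp.toLp 2 : (Fin d → ℝ) → E d) ⁻¹' cube d = Set.pi univ (fun _ => Icc (0:ℝ) 1) := by
  ext x; simp only [cube, mem_preimage, Set.mem_ofPred_eq, Set.mem_pi, mem_univ, true_implies]

lemma cube_eq_image (d : ℕ) : cube d = (WithLp.toLp 2 : (Fin d → ℝ) → E d) '' (Set.pi univ (fun _ => Icc (0:ℝ) 1)) := by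
  ext x
  constructor
  · intro hx
    refine ⟨x.ofLp, ?_, by simp⟩
    intro i _
    exact hx i
  · rintro ⟨y, hy, rfl⟩ i
    exact hy i (mem_univ i)

lemma cube_compact (d : ℕ) : IsCompact (cube d) := by
  rw [cube_eq_image]
  exact (isCompact_univ_pi (fun _ => isCompact_Icc)).image (PiLp.continuous_toLp 2 _)

lemma cube_convex (d : ℕ) : Convex ℝ (cube d) := by
  intro x hx y hy a b ha hb hab i
  have := (convex_Icc (0:ℝ) 1) (hx i) (hy i) ha hb hab
  simpa using this

lemma cube_interior (d : ℕ) : (interior (cube d)).Nonempty := by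
  let U : Set (E d) := (WithLp.toLp 2 : (Fin d → ℝ) → E d) '' (Set.pi univ (fun _ => Ioo (0:ℝ) 1))
  have : U = (WithLp.ofLp : E d → (Fin d → ℝ)) ⁻¹' (Set.pi univ (fun _ => Ioo (0:ℝ) 1)) := by
    ext x
    constructor
    · rintro ⟨y, hy, rfl⟩
      simpa using hy
    · intro hx
      exact ⟨x.ofLp, hx, by simp⟩
  have hU : IsOpen U := by
    rw [this]
    exact (isOpen_set_pi finite_univ (fun _ _ => isOpen_Ioo)).preimage (PiLp.continuous_ofLp 2 _)
  have hsub : U ⊆ cube d := by
    rintro _ ⟨y, hy, rfl⟩ i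
    exact Ioo_subset_Icc_self (hy i (mem_univ i))
  refine Set.Nonempty.mono (interior_maximal hsub hU) ⟨WithLp.toLp 2 (fun _ => (1/2:ℝ)), _, ?_, rfl⟩
  intro i _
  constructor <;> norm_num

/-- uniform law on the unit interval -/
noncomputable def U01 : Measure ℝ := volume.restrict (Icc (0:ℝ) 1)

instance : IsProbabilityMeasure U01 := ⟨by simp [U01]⟩

lemma cube_measurable (d : ℕ) : MeasurableSet (cube d) := (cube_compact d).isClosed.measurableSet

lemma volume_cube (d : ℕ) : volume (cube d) = 1 := by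
  have h := (PiLp.volume_preserving_toLp (Fin d)).measure_preimage (cube_measurable d).nullMeasurableSet
  rw [← h, cube_preimage]
  rw [volume_pi_pi]
  simp

lemma unif_cube (d : ℕ) : unif (cube d) = (Measure.pi (fun _ : Fin d => U01)).map (WithLp.toLp 2) := by
  have h := ((PiLp.volume_preserving_toLp (Fin d)).restrict_preimage (cube_measurable d)).map_eq
  rw [cube_preimage] at h
  have h2 : (volume : Measure (Fin d → ℝ)).restrict (Set.pi univ (fun _ => Icc (0:ℝ) 1)) = Measure.pi (fun _ : Fin d => U01) := by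
    rw [volume_pi, Measure.restrict_pi_pi]
    rfl
  rw [h2] at h
  rw [h, unif, volume_cube]
  simp


lemma measurable_coord {d : ℕ} (i : Fin d) : Measurable (fun x : E d => x i) :=
  (EuclideanSpace.proj i : E d →L[ℝ] ℝ).continuous.measurable

lemma joint_law {d : ℕ} {i j : Fin d} (hij : i ≠ j) :
    (unif (cube d)).map (fun x => (x i, x j)) = U01.prod U01 := by
  have hm : Measurable (fun x : E d => (x i, x j)) :=
    (measurable_coord i).prodMk (measurable_coord j)
  symm
  apply Measure.prod_eq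
  intro s t hs ht
  rw [Measure.map_apply hm (hs.prod ht), unif_cube, Measure.map_apply (PiLp.continuous_toLp 2 _).measurable
    (hm (hs.prod ht))]
  have : (WithLp.toLp 2 : (Fin d → ℝ) → E d) ⁻¹' ((fun x : E d => (x i, x j)) ⁻¹' s ×ˢ t) =
      Set.pi univ (fun k => if k = i then s else if k = j then t else univ) := by
    ext x
    simp only [mem_preimage, mem_prod, Set.mem_pi, mem_univ, true_implies]
    constructor
    · rintro ⟨h1, h2⟩ k
      by_cases h : k = i
      · subst h; simpa using h1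
      · by_cases h' : k = j
        · subst h'; simpa [h] using h2
        · simp [h, h']
    · intro h
      refine ⟨by simpa using h i, by simpa [hij.symm] using h j⟩
  rw [this, Measure.pi_pi, Finset.prod_eq_mul i j hij]
  · simp [hij.symm]
  · intro k _ hk
    simp [hk.1, hk.2]
  · simp
  · simp

lemma U01_Ioc {a b : ℝ} (ha : 0 ≤ a) (hb : b ≤ 1) : U01 (Ioc a b) = ENNReal.ofReal (b - a) := by
  rw [U01, Measure.restrict_apply measurableSet_Ioc]
  have : Ioc a b ∩ Icc (0:ℝ) 1 = Ioc a b := by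
    apply inter_eq_left.mpr
    intro x hx
    exact ⟨by linarith [hx.1], by linarith [hx.2]⟩
  rw [this, Real.volume_Ioc]

lemma U01_Icc {a b : ℝ} (ha : 0 ≤ a) (hb : b ≤ 1) : U01 (Icc a b) = ENNReal.ofReal (b - a) := by
  rw [U01, Measure.restrict_apply measurableSet_Icc]
  have : Icc a b ∩ Icc (0:ℝ) 1 = Icc a b := by
    apply inter_eq_left.mpr
    intro x hx
    exact ⟨by linarith [hx.1], by linarith [hx.2]⟩
  rw [this, Real.volume_Icc]

lemma U01_Ioi {t : ℝ} (h0 : 0 ≤ t) : U01 (Ioi t) = ENNReal.ofReal (1 - t) := by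
  rw [U01, Measure.restrict_apply measurableSet_Ioi]
  have : Ioi t ∩ Icc (0:ℝ) 1 = Ioc t 1 := by
    ext x
    simp only [mem_inter_iff, mem_Ioi, mem_Icc, mem_Ioc]
    constructor
    · rintro ⟨a, _, b⟩; exact ⟨a, b⟩
    · rintro ⟨a, b⟩; exact ⟨a, by linarith, b⟩
  rw [this, Real.volume_Ioc]

lemma mass_halfplane {m δ : ℝ} (hδ : 0 ≤ δ) (h1 : δ / 2 ≤ m) (h2 : m + δ / 2 ≤ 1) :
    (U01.prod U01) {p : ℝ × ℝ | 1 - m < p.1 + δ * (p.2 - 1 / 2)} = ENNReal.ofReal m := by
  have hmeas : MeasurableSet {p : ℝ × ℝ | 1 - m < p.1 + δ * (p.2 - 1 / 2)} :=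
    measurableSet_lt measurable_const (by fun_prop)
  rw [Measure.prod_apply_symm hmeas]
  have hsec : ∀ b ∈ Icc (0:ℝ) 1, U01 ((fun x : ℝ => (x, b)) ⁻¹' {p : ℝ × ℝ | 1 - m < p.1 + δ * (p.2 - 1 / 2)})
      = ENNReal.ofReal (m + δ * (b - 1 / 2)) := by
    intro b hb
    have hs : (fun x : ℝ => (x, b)) ⁻¹' {p : ℝ × ℝ | 1 - m < p.1 + δ * (p.2 - 1 / 2)} =
        Ioi (1 - m - δ * (b - 1 / 2)) := by
      ext x
      simp only [mem_preimage, Set.mem_ofPred_eq, mem_Ioi]
      constructor <;> intro h <;> linarith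
    have hb1 : δ * (b - 1 / 2) ≤ δ / 2 := by nlinarith [hb.2]
    have hb2 : - (δ / 2) ≤ δ * (b - 1 / 2) := by nlinarith [hb.1]
    rw [hs, U01_Ioi (by linarith)]
    congr 1
    ring
  have hnn : ∀ b ∈ Icc (0:ℝ) 1, 0 ≤ m + δ * (b - 1 / 2) := by
    intro b hb
    have hb2 : - (δ / 2) ≤ δ * (b - 1 / 2) := by nlinarith [hb.1]
    linarith
  have hcont : Continuous (fun b : ℝ => m + δ * (b - 1 / 2)) := by fun_prop
  have hstep : ∫⁻ y, U01 ((fun x : ℝ => (x, y)) ⁻¹' {p : ℝ × ℝ | 1 - m < p.1 + δ * (p.2 - 1 / 2)}) ∂U01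
      = ∫⁻ y in Icc (0:ℝ) 1, ENNReal.ofReal (m + δ * (y - 1 / 2)) :=
    setLIntegral_congr_fun measurableSet_Icc hsec
  rw [hstep, ← ofReal_integral_eq_lintegral_ofReal
      (hcont.continuousOn.integrableOn_Icc)
      ((ae_restrict_iff' measurableSet_Icc).mpr (Filter.Eventually.of_forall hnn))]
  congr 1
  rw [integral_Icc_eq_integral_Ioc, ← intervalIntegral.integral_of_le zero_le_one]
  have hI : ∫ b in (0:ℝ)..1, (m + δ * (b - 1 / 2)) = m := by
    rw [intervalIntegral.integral_add (Continuous.intervalIntegrable (by fun_prop) _ _)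
        (Continuous.intervalIntegrable (by fun_prop) _ _),
      intervalIntegral.integral_const_mul,
      intervalIntegral.integral_sub (Continuous.intervalIntegrable (by fun_prop) _ _)
        (Continuous.intervalIntegrable (by fun_prop) _ _)]
    simp [integral_id]
  exact hI


open scoped Classical in
/-- Law of a two-valued map. -/
lemma map_two_valued {d : ℕ} (ρ : Measure (E d)) {L : Set (E d)} (hL : MeasurableSet L) (a b : E d)
    {A : Set (E d)} (hA : MeasurableSet A) :
    (ρ.map (fun x => if x ∈ L then a else b)) A =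
      (if a ∈ A then ρ L else 0) + (if b ∈ A then ρ Lᶜ else 0) := by
  have hm : Measurable (fun x => if x ∈ L then a else b) :=
    Measurable.ite hL measurable_const measurable_const
  rw [Measure.map_apply hm hA]
  by_cases ha : a ∈ A <;> by_cases hb : b ∈ A
  · have : (fun x => if x ∈ L then a else b) ⁻¹' A = univ := by
      ext x; by_cases hx : x ∈ L <;> simp [hx, ha, hb]
    rw [this, if_pos ha, if_pos hb, measure_add_measure_compl hL]
  · have : (fun x => if x ∈ L then a else b) ⁻¹' A = L := by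
      ext x; by_cases hx : x ∈ L <;> simp [hx, ha, hb]
    rw [this, if_pos ha, if_neg hb, add_zero]
  · have : (fun x => if x ∈ L then a else b) ⁻¹' A = Lᶜ := by
      ext x; by_cases hx : x ∈ L <;> simp [hx, ha, hb]
    rw [this, if_neg ha, if_pos hb, zero_add]
  · have : (fun x => if x ∈ L then a else b) ⁻¹' A = ∅ := by
      ext x; by_cases hx : x ∈ L <;> simp [hx, ha, hb]
    rw [this, if_neg ha, if_neg hb, measure_empty, add_zero]

open scoped Classical in
/-- The half-space cut is optimal among maps with the same law (two-point target). -/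
lemma halfspace_optimal {d : ℕ} (ρ : Measure (E d)) [IsProbabilityMeasure ρ] {y0 y1 : E d}
    (hne : y1 ≠ y0) (s : ℝ) {L : Set (E d)} (hLdef : L = {x : E d | s < inner ℝ x (y1 - y0)})
    {S : E d → E d} (hS : Measurable S)
    (hmap : ρ.map S = ρ.map (fun x => if x ∈ L then y1 else y0)) :
    ∫⁻ x, ENNReal.ofReal (‖x - (if x ∈ L then y1 else y0)‖ ^ 2) ∂ρ ≤
      ∫⁻ x, ENNReal.ofReal (‖x - S x‖ ^ 2) ∂ρ := by
  have hL : MeasurableSet L := by
    rw [hLdef]
    apply measurableSet_lt measurable_const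
    exact (Continuous.inner continuous_id continuous_const).measurable
  have hLmem : ∀ x, x ∈ L ↔ s < inner ℝ x (y1 - y0) := by
    intro x
    rw [hLdef, Set.mem_ofPred_eq]
  set T : E d → E d := fun x => if x ∈ L then y1 else y0 with hTdef
  have hT : Measurable T := Measurable.ite hL measurable_const measurable_const
  set G : ℝ := 2 * s - ‖y1‖ ^ 2 + ‖y0‖ ^ 2 with hG
  set g : E d → ℝ := fun y => if y = y1 then |G| + G else |G| with hg
  have hgnn : ∀ y, 0 ≤ g y := by
    intro y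
    simp only [hg]
    split_ifs
    · linarith [neg_abs_le G]
    · exact abs_nonneg G
  have hgm : Measurable g := Measurable.ite (measurableSet_singleton y1) measurable_const measurable_const
  have hgE : Measurable (fun y => ENNReal.ofReal (g y)) := ENNReal.measurable_ofReal.comp hgm
  have hSmem : ∀ᵐ x ∂ρ, S x = y0 ∨ S x = y1 := by
    have hAm : MeasurableSet ({y0, y1} : Set (E d))ᶜ :=
      (Set.toFinite ({y0, y1} : Set (E d))).measurableSet.compl
    have h0 : ρ.map S ({y0, y1} : Set (E d))ᶜ = 0 := by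
      rw [hmap, Measure.map_apply hT hAm]
      have : T ⁻¹' ({y0, y1} : Set (E d))ᶜ = ∅ := by
        ext x
        by_cases hx : x ∈ L <;> simp [hTdef, hx]
      rw [this, measure_empty]
    rw [Measure.map_apply hS hAm] at h0
    have := measure_eq_zero_iff_ae_notMem.mp h0
    filter_upwards [this] with x hx
    simp only [mem_preimage, mem_compl_iff, mem_insert_iff, mem_singleton_iff, not_not] at hx
    exact hx
  have hpt : ∀ᵐ x ∂ρ, ENNReal.ofReal (‖x - T x‖ ^ 2) + ENNReal.ofReal (g (T x)) ≤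
      ENNReal.ofReal (‖x - S x‖ ^ 2) + ENNReal.ofReal (g (S x)) := by
    filter_upwards [hSmem] with x hx
    rw [← ENNReal.ofReal_add (by positivity) (hgnn _), ← ENNReal.ofReal_add (by positivity) (hgnn _)]
    apply ENNReal.ofReal_le_ofReal
    have e1 : ‖x - y1‖ ^ 2 = ‖x‖ ^ 2 - 2 * inner ℝ x y1 + ‖y1‖ ^ 2 := norm_sub_sq_real x y1
    have e0 : ‖x - y0‖ ^ 2 = ‖x‖ ^ 2 - 2 * inner ℝ x y0 + ‖y0‖ ^ 2 := norm_sub_sq_real x y0
    have ei : inner ℝ x (y1 - y0) = inner ℝ x y1 - inner ℝ x y0 := inner_sub_right x y1 y0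
    have g1 : g y1 = |G| + G := by simp [hg]
    have g0 : g y0 = |G| := by simp [hg, hne.symm]
    by_cases hxL : x ∈ L
    · have hTx : T x = y1 := by simp [hTdef, hxL]
      have hxL' : s < inner ℝ x (y1 - y0) := (hLmem x).mp hxL
      rcases hx with hx | hx
      · rw [hTx, hx, g1, g0, e1, e0]
        rw [ei] at hxL'
        rw [hG]
        linarith
      · rw [hTx, hx]
    · have hTx : T x = y0 := by simp [hTdef, hxL]
      have hxL' : ¬ s < inner ℝ x (y1 - y0) := fun h => hxL ((hLmem x).mpr h)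
      rw [not_lt, ei] at hxL'
      rcases hx with hx | hx
      · rw [hTx, hx]
      · rw [hTx, hx, g1, g0, e1, e0]
        rw [hG]
        linarith
  have hint := lintegral_mono_ae hpt
  have hTc : Measurable (fun x => ENNReal.ofReal (g (T x))) := hgE.comp hT
  have hSc : Measurable (fun x => ENNReal.ofReal (g (S x))) := hgE.comp hS
  rw [lintegral_add_right _ hTc, lintegral_add_right _ hSc] at hint
  have hsame : ∫⁻ x, ENNReal.ofReal (g (S x)) ∂ρ = ∫⁻ x, ENNReal.ofReal (g (T x)) ∂ρ := by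
    rw [← lintegral_map hgE hS, hmap, lintegral_map hgE hT]
  have hfin : ∫⁻ x, ENNReal.ofReal (g (T x)) ∂ρ ≠ ⊤ := by
    have hb : ∀ x, ENNReal.ofReal (g (T x)) ≤ ENNReal.ofReal (2 * |G|) := by
      intro x
      apply ENNReal.ofReal_le_ofReal
      simp only [hg]
      split_ifs
      · linarith [le_abs_self G]
      · linarith [abs_nonneg G]
    have := lintegral_mono (μ := ρ) hb
    rw [lintegral_const, measure_univ, mul_one] at this
    exact ne_top_of_le_ne_top ENNReal.ofReal_ne_top this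
  rw [hsame] at hint
  exact (ENNReal.add_le_add_iff_right hfin).mp hint


instance {d : ℕ} : IsProbabilityMeasure (unif (cube d)) := by
  rw [unif_cube]
  exact Measure.isProbabilityMeasure_map (PiLp.continuous_toLp 2 _).measurable.aemeasurable

lemma inner_single' {d : ℕ} (x : E d) (i : Fin d) :
    inner ℝ x (EuclideanSpace.single i (1:ℝ)) = x i := by
  simp [EuclideanSpace.inner_single_right]

open scoped Classical in
/-- The family of examples. -/
lemma family {d : ℕ} {i j : Fin d} (hij : i ≠ j) {s : ℝ} (hs0 : 0 < s) (hs1 : s ≤ 1 / 2) :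
    ∃ μ ν : Measure (E d), ∃ T S : E d → E d,
      IsProbabilityMeasure μ ∧ IsProbabilityMeasure ν ∧
      μ (Metric.closedBall 0 2)ᶜ = 0 ∧ ν (Metric.closedBall 0 2)ᶜ = 0 ∧
      IsOptimalMap (cube d) μ T ∧ IsOptimalMap (cube d) ν S ∧
      s / 3 ≤ L2dist (cube d) T S ∧ W2 μ ν ≤ 2 * s ^ 3 := by
  obtain ⟨ρ, hρ⟩ : ∃ ρ, ρ = unif (cube d) := ⟨_, rfl⟩
  have : IsProbabilityMeasure ρ := by rw [hρ]; infer_instance
  obtain ⟨m, hm⟩ : ∃ m : ℝ, m = s ^ 2 := ⟨_, rfl⟩
  obtain ⟨δ, hδ⟩ : ∃ δ : ℝ, δ = 2 * m := ⟨_, rfl⟩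
  have hm0 : 0 < m := by rw [hm]; positivity
  have hmq : m ≤ 1 / 4 := by rw [hm]; nlinarith
  have hδ0 : 0 < δ := by rw [hδ]; positivity
  obtain ⟨ei, hei⟩ : ∃ e : E d, e = EuclideanSpace.single i (1:ℝ) := ⟨_, rfl⟩
  obtain ⟨ej, hej⟩ : ∃ e : E d, e = EuclideanSpace.single j (1:ℝ) := ⟨_, rfl⟩
  have hiei : ∀ x : E d, inner ℝ x ei = x i := fun x => by rw [hei]; exact inner_single' x i
  have hiej : ∀ x : E d, inner ℝ x ej = x j := fun x => by rw [hej]; exact inner_single' x j
  have hnei : ‖ei‖ = 1 := by simp [hei]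
  have hnej : ‖ej‖ = 1 := by simp [hej]
  have heii : ei i = 1 := by simp [hei]
  have heij : ei j = 0 := by simp [hei, hij.symm]
  have hy1ne : ei ≠ (0 : E d) := by
    intro h
    rw [h, norm_zero] at hnei
    norm_num at hnei
  have hnδ : ‖δ • ej‖ = δ := by rw [norm_smul, hnej, mul_one, Real.norm_of_nonneg hδ0.le]
  obtain ⟨y2, hy2⟩ : ∃ y : E d, y = ei + δ • ej := ⟨_, rfl⟩
  have hny2 : ‖y2‖ ≤ 1 + δ := by
    rw [hy2]
    calc ‖ei + δ • ej‖ ≤ ‖ei‖ + ‖δ • ej‖ := norm_add_le _ _
      _ = 1 + δ := by rw [hnei, hnδ]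
  have hδq : δ ≤ 1 / 2 := by rw [hδ]; linarith
  have hy2ne : y2 ≠ (0 : E d) := by
    intro h
    have h3 : inner ℝ (ei : E d) y2 = 0 := by rw [h, inner_zero_right]
    rw [hy2, inner_add_right, inner_smul_right, hiej, hiei, heii, heij] at h3
    norm_num at h3
  -- the two half-spaces
  obtain ⟨L, hL⟩ : ∃ L : Set (E d), L = {x : E d | (1 - m) < inner ℝ x (ei - 0)} := ⟨_, rfl⟩
  obtain ⟨L', hL'⟩ : ∃ L : Set (E d), L = {x : E d | (1 - m + δ / 2) < inner ℝ x (y2 - 0)} := ⟨_, rfl⟩
  have hLm : MeasurableSet L := by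
    rw [hL]
    apply measurableSet_lt measurable_const
    exact (Continuous.inner continuous_id continuous_const).measurable
  have hLm' : MeasurableSet L' := by
    rw [hL']
    apply measurableSet_lt measurable_const
    exact (Continuous.inner continuous_id continuous_const).measurable
  have hLc : ∀ x, x ∈ L ↔ 1 - m < x i := by
    intro x
    rw [hL, Set.mem_ofPred_eq, sub_zero, hiei]
  have hLc' : ∀ x, x ∈ L' ↔ 1 - m + δ / 2 < x i + δ * x j := by
    intro x
    rw [hL', Set.mem_ofPred_eq, sub_zero, hy2, inner_add_right, inner_smul_right, hiei, hiej]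
  -- the joint law
  have hpm : Measurable (fun x : E d => (x i, x j)) :=
    (measurable_coord i).prodMk (measurable_coord j)
  have hlaw : ρ.map (fun x : E d => (x i, x j)) = U01.prod U01 := by
    rw [hρ]; exact joint_law (d := d) hij
  have hρL : ρ L = ENNReal.ofReal m := by
    have h := mass_halfplane (m := m) (δ := 0) le_rfl (by linarith) (by linarith)
    rw [← hlaw, Measure.map_apply hpm (measurableSet_lt measurable_const (by fun_prop))] at h
    rw [← h]
    congr 1
    ext x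
    rw [hLc]
    simp
  have hρL' : ρ L' = ENNReal.ofReal m := by
    have h := mass_halfplane (m := m) (δ := δ) hδ0.le (by rw [hδ]; linarith) (by rw [hδ]; linarith)
    rw [← hlaw, Measure.map_apply hpm (measurableSet_lt measurable_const (by fun_prop))] at h
    rw [← h]
    congr 1
    ext x
    rw [hLc']
    simp only [mem_preimage, Set.mem_ofPred_eq]
    constructor <;> intro h' <;> linarith
  have hρLc : ρ Lᶜ = ρ L'ᶜ := by
    rw [prob_compl_eq_one_sub hLm, prob_compl_eq_one_sub hLm', hρL, hρL']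
  -- the maps
  obtain ⟨T, hT⟩ : ∃ T : E d → E d, T = fun x => if x ∈ L then ei else 0 := ⟨_, rfl⟩
  obtain ⟨T', hT'⟩ : ∃ T : E d → E d, T = fun x => if x ∈ L' then y2 else 0 := ⟨_, rfl⟩
  obtain ⟨T2, hT2⟩ : ∃ T : E d → E d, T = fun x => if x ∈ L then y2 else 0 := ⟨_, rfl⟩
  have hTm : Measurable T := by
    rw [hT]; exact Measurable.ite hLm measurable_const measurable_const
  have hTm' : Measurable T' := by
    rw [hT']; exact Measurable.ite hLm' measurable_const measurable_const
  have hTm2 : Measurable T2 := by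
    rw [hT2]; exact Measurable.ite hLm measurable_const measurable_const
  have hT_ball : ∀ x, T x ∈ Metric.closedBall (0 : E d) 2 := by
    intro x
    rw [mem_closedBall_zero_iff]
    simp only [hT]
    split_ifs
    · rw [hnei]; norm_num
    · simp
  have hT'_ball : ∀ x, T' x ∈ Metric.closedBall (0 : E d) 2 := by
    intro x
    rw [mem_closedBall_zero_iff]
    simp only [hT']
    split_ifs
    · linarith
    · simp
  have hball : MeasurableSet (Metric.closedBall (0 : E d) 2)ᶜ :=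
    Metric.isClosed_closedBall.measurableSet.compl
  refine ⟨ρ.map T, ρ.map T', T, T', Measure.isProbabilityMeasure_map hTm.aemeasurable,
    Measure.isProbabilityMeasure_map hTm'.aemeasurable, ?_, ?_, ?_, ?_, ?_, ?_⟩
  · rw [Measure.map_apply hTm hball]
    have : T ⁻¹' (Metric.closedBall (0 : E d) 2)ᶜ = ∅ := by
      ext x
      simpa using hT_ball x
    rw [this, measure_empty]
  · rw [Measure.map_apply hTm' hball]
    have : T' ⁻¹' (Metric.closedBall (0 : E d) 2)ᶜ = ∅ := by
      ext x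
      simpa using hT'_ball x
    rw [this, measure_empty]
  · refine ⟨hTm, by rw [hρ], fun S hS hmap => ?_⟩
    rw [← hρ] at hmap
    have hmap' : ρ.map S = ρ.map (fun x => if x ∈ L then ei else 0) := by
      rw [hmap, hT]
    have := halfspace_optimal ρ hy1ne (1 - m) hL hS hmap'
    simp only [cost]
    rw [← hρ, hT]
    exact this
  · refine ⟨hTm', by rw [hρ], fun S hS hmap => ?_⟩
    rw [← hρ] at hmap
    have hmap' : ρ.map S = ρ.map (fun x => if x ∈ L' then y2 else 0) := by
      rw [hmap, hT']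
    have := halfspace_optimal ρ hy2ne (1 - m + δ / 2) hL' hS hmap'
    simp only [cost]
    rw [← hρ, hT']
    exact this
  · -- lower bound
    rw [L2dist, ← hρ]
    apply Real.le_sqrt_of_sq_le
    -- finiteness
    have hbdd : ∀ x, ENNReal.ofReal (‖T x - T' x‖ ^ 2) ≤ ENNReal.ofReal 16 := by
      intro x
      apply ENNReal.ofReal_le_ofReal
      have h1 := mem_closedBall_zero_iff.mp (hT_ball x)
      have h2 := mem_closedBall_zero_iff.mp (hT'_ball x)
      have h3 : ‖T x - T' x‖ ≤ 4 := by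
        calc ‖T x - T' x‖ ≤ ‖T x‖ + ‖T' x‖ := norm_sub_le _ _
          _ ≤ 4 := by linarith
      have h4 := norm_nonneg (T x - T' x)
      nlinarith
    have hfin : ∫⁻ x, ENNReal.ofReal (‖T x - T' x‖ ^ 2) ∂ρ ≠ ⊤ := by
      have := lintegral_mono (μ := ρ) hbdd
      rw [lintegral_const, measure_univ, mul_one] at this
      exact ne_top_of_le_ne_top ENNReal.ofReal_ne_top this
    rw [← ENNReal.ofReal_le_iff_le_toReal hfin]
    -- the rectangle
    have hrect : MeasurableSet (Ioc (1 - m) (1 - m + δ / 4) ×ˢ Icc (0:ℝ) (1 / 4)) :=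
      measurableSet_Ioc.prod measurableSet_Icc
    have hprect : ρ ((fun x : E d => (x i, x j)) ⁻¹' (Ioc (1 - m) (1 - m + δ / 4) ×ˢ Icc (0:ℝ) (1 / 4)))
        = ENNReal.ofReal (δ / 4) * ENNReal.ofReal (1 / 4) := by
      rw [← Measure.map_apply hpm hrect, hlaw, Measure.prod_prod,
        U01_Ioc (by linarith) (by rw [hδ]; linarith), U01_Icc le_rfl (by norm_num)]
      congr 2
      · ring
      · norm_num
    have hsub : ∀ x ∈ (fun x : E d => (x i, x j)) ⁻¹' (Ioc (1 - m) (1 - m + δ / 4) ×ˢ Icc (0:ℝ) (1 / 4)),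
        ENNReal.ofReal (‖T x - T' x‖ ^ 2) = 1 := by
      rintro x ⟨⟨h1, h2⟩, ⟨h3, h4⟩⟩
      have h1' : 1 - m < x i := h1
      have h2' : x i ≤ 1 - m + δ / 4 := h2
      have h3' : 0 ≤ x j := h3
      have h4' : x j ≤ 1 / 4 := h4
      have hxL : x ∈ L := (hLc x).mpr h1'
      have hxL' : x ∉ L' := by
        rw [hLc' x]
        have : δ * x j ≤ δ * (1 / 4) := mul_le_mul_of_nonneg_left h4' hδ0.le
        linarith
      have hTx : T x = ei := by rw [hT]; simp [hxL]
      have hTx' : T' x = 0 := by rw [hT']; simp [hxL']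
      rw [hTx, hTx', sub_zero, hnei]
      norm_num
    have hmeasR : MeasurableSet ((fun x : E d => (x i, x j)) ⁻¹' (Ioc (1 - m) (1 - m + δ / 4) ×ˢ Icc (0:ℝ) (1 / 4))) :=
      hpm hrect
    calc ENNReal.ofReal ((s / 3) ^ 2) ≤ ENNReal.ofReal (δ / 4) * ENNReal.ofReal (1 / 4) := by
          rw [← ENNReal.ofReal_mul (by positivity)]
          apply ENNReal.ofReal_le_ofReal
          rw [hδ, hm]
          nlinarith
      _ = ∫⁻ x in ((fun x : E d => (x i, x j)) ⁻¹' (Ioc (1 - m) (1 - m + δ / 4) ×ˢ Icc (0:ℝ) (1 / 4))), 1 ∂ρ := by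
          rw [setLIntegral_one, hprect]
      _ = ∫⁻ x in ((fun x : E d => (x i, x j)) ⁻¹' (Ioc (1 - m) (1 - m + δ / 4) ×ˢ Icc (0:ℝ) (1 / 4))),
            ENNReal.ofReal (‖T x - T' x‖ ^ 2) ∂ρ := by
          apply setLIntegral_congr_fun hmeasR
          intro x hx
          exact (hsub x hx).symm
      _ ≤ ∫⁻ x, ENNReal.ofReal (‖T x - T' x‖ ^ 2) ∂ρ := setLIntegral_le_lintegral _ _
  · -- upper bound
    rw [W2]
    have hF : Measurable (fun x => (T x, T2 x)) := hTm.prodMk hTm2
    have hcoup : IsCoupling (ρ.map T) (ρ.map T') (ρ.map (fun x => (T x, T2 x))) := by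
      constructor
      · rw [Measure.map_map measurable_fst hF]
        rfl
      · rw [Measure.map_map measurable_snd hF]
        have : Prod.snd ∘ (fun x => (T x, T2 x)) = T2 := rfl
        rw [this]
        ext A hA
        rw [hT2, hT', map_two_valued ρ hLm y2 0 hA, map_two_valued ρ hLm' y2 0 hA, hρL, hρL', hρLc]
    have hval : ∫⁻ p, ENNReal.ofReal (‖p.1 - p.2‖ ^ 2) ∂(ρ.map (fun x => (T x, T2 x)))
        = ENNReal.ofReal (δ ^ 2) * ENNReal.ofReal m := by
      rw [lintegral_map (by fun_prop) hF, ← hρL, ← lintegral_indicator_const hLm]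
      apply lintegral_congr
      intro x
      by_cases hx : x ∈ L
      · have h1 : T x = ei := by rw [hT]; simp [hx]
        have h2 : T2 x = y2 := by rw [hT2]; simp [hx]
        simp only [h1, h2, hx, indicator_of_mem]
        rw [hy2]
        have : ei - (ei + δ • ej) = - (δ • ej) := by abel
        rw [this, norm_neg, hnδ]
      · have h1 : T x = 0 := by rw [hT]; simp [hx]
        have h2 : T2 x = 0 := by rw [hT2]; simp [hx]
        simp [h1, h2, hx]
    apply Real.sqrt_le_iff.mpr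
    refine ⟨by positivity, ?_⟩
    apply ENNReal.toReal_le_of_le_ofReal (by positivity)
    have hmem : ∫⁻ p, ENNReal.ofReal (‖p.1 - p.2‖ ^ 2) ∂(ρ.map (fun x => (T x, T2 x))) ∈
        {c : ENNReal | ∃ π : Measure (E d × E d), IsCoupling (ρ.map T) (ρ.map T') π ∧
          c = ∫⁻ p, ENNReal.ofReal (‖p.1 - p.2‖ ^ 2) ∂π} := by
      rw [Set.mem_ofPred_eq]
      exact ⟨_, hcoup, rfl⟩
    refine (sInf_le hmem).trans ?_
    rw [hval, ← ENNReal.ofReal_mul (by positivity)]
    apply ENNReal.ofReal_le_ofReal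
    rw [hδ, hm]
    apply le_of_eq
    ring

/-- Main theorem: no exponent above `1/3` is admissible. -/
theorem not_admissible {d : ℕ} (hd : 2 ≤ d) {α : ℝ} (hα : 1 / 3 < α) : ¬ Admissible d α := by
  intro h
  obtain ⟨C, hC⟩ := h (cube d) (cube_compact d) (cube_convex d) (cube_interior d)
    (Metric.closedBall 0 2) (isCompact_closedBall 0 2)
  have hi : (0:ℕ) < d := by omega
  have hj : (1:ℕ) < d := by omega
  have hij : (⟨0, hi⟩ : Fin d) ≠ ⟨1, hj⟩ := by
    intro h
    simpa using congrArg Fin.val h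
  have key : ∀ s : ℝ, 0 < s → s ≤ 1 / 2 → s / 3 ≤ C * (2 * s ^ 3) ^ α := by
    intro s hs0 hs1
    obtain ⟨μ, ν, T, S, h1, h2, h3, h4, h5, h6, h7, h8⟩ := family hij hs0 hs1
    have h9 := hC μ ν h1 h2 h3 h4 T S h5 h6
    have hW0 : 0 ≤ W2 μ ν := Real.sqrt_nonneg _
    have hpos : 0 < C * W2 μ ν ^ α := by
      have : 0 < s / 3 := by positivity
      linarith
    have hCpos : 0 < C := by
      by_contra hC0
      have hC0' : C ≤ 0 := not_lt.mp hC0
      have : C * W2 μ ν ^ α ≤ 0 := mul_nonpos_of_nonpos_of_nonneg hC0' (Real.rpow_nonneg hW0 _)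
      linarith
    have hmono : W2 μ ν ^ α ≤ (2 * s ^ 3) ^ α :=
      Real.rpow_le_rpow hW0 h8 (by linarith)
    calc s / 3 ≤ L2dist (cube d) T S := h7
      _ ≤ C * W2 μ ν ^ α := h9
      _ ≤ C * (2 * s ^ 3) ^ α := mul_le_mul_of_nonneg_left hmono hCpos.le
  -- the numerical contradiction
  have hγ : 0 < 3 * α - 1 := by linarith
  have hCabs : ∀ s : ℝ, 0 < s → s ≤ 1 / 2 → 1 / 3 ≤ |C| * 2 ^ α * s ^ (3 * α - 1) := by
    intro s hs0 hs1
    have h := key s hs0 hs1
    have e1 : (2 * s ^ 3) ^ α = 2 ^ α * s ^ (3 * α) := by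
      rw [Real.mul_rpow (by norm_num) (by positivity), ← Real.rpow_natCast s 3,
        ← Real.rpow_mul hs0.le]
      norm_num
    have e2 : s ^ (3 * α) = s * s ^ (3 * α - 1) := by
      rw [Real.rpow_sub hs0, Real.rpow_one]
      field_simp
    rw [e1, e2] at h
    have h3 : s * (1 / 3) ≤ s * (|C| * 2 ^ α * s ^ (3 * α - 1)) := by
      have hC' : C ≤ |C| := le_abs_self C
      have hnn : 0 ≤ 2 ^ α * (s * s ^ (3 * α - 1)) := by positivity
      have := mul_le_mul_of_nonneg_right hC' hnn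
      calc s * (1 / 3) = s / 3 := by ring
        _ ≤ C * (2 ^ α * (s * s ^ (3 * α - 1))) := h
        _ ≤ |C| * (2 ^ α * (s * s ^ (3 * α - 1))) := this
        _ = s * (|C| * 2 ^ α * s ^ (3 * α - 1)) := by ring
    exact le_of_mul_le_mul_left h3 hs0
  have hlim : Filter.Tendsto (fun s : ℝ => |C| * 2 ^ α * s ^ (3 * α - 1)) (nhds 0) (nhds 0) := by
    have hc : ContinuousAt (fun s : ℝ => s ^ (3 * α - 1)) 0 :=
      Real.continuousAt_rpow_const 0 _ (Or.inr hγ.le)
    have := hc.tendsto.const_mul (|C| * 2 ^ α)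
    simpa [Real.zero_rpow hγ.ne'] using this
  have hev : ∀ᶠ s in nhdsWithin (0:ℝ) (Ioi 0), |C| * 2 ^ α * s ^ (3 * α - 1) < 1 / 3 ∧ s < 1 / 2 ∧ 0 < s := by
    have h1 : ∀ᶠ s in nhds (0:ℝ), |C| * 2 ^ α * s ^ (3 * α - 1) < 1 / 3 :=
      hlim.eventually (gt_mem_nhds (by norm_num))
    have h2 : ∀ᶠ s in nhds (0:ℝ), s < 1 / 2 := gt_mem_nhds (by norm_num)
    have h3 : ∀ᶠ s in nhdsWithin (0:ℝ) (Ioi 0), 0 < s := self_mem_nhdsWithin
    filter_upwards [nhdsWithin_le_nhds h1, nhdsWithin_le_nhds h2, h3] with s a b c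
    exact ⟨a, b, c⟩
  obtain ⟨s, hs1, hs2, hs3⟩ := hev.exists
  have := hCabs s hs3 hs2.le
  linarith

end Vale.Agent.P074
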