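import Vale.Agent.Lib.P074.Defs

open MeasureTheory Set Filter Topology
open scoped ENNReal

namespace Vale.Agent.P074

/-- One-dimensional Brunn-Minkowski, midpoint form, for nonempty compact sets. -/
lemma bm_one_compact {S₁ S₂ S₃ : Set ℝ} (h₁ : IsCompact S₁) (h₂ : IsCompact S₂)
    (n₁ : S₁.Nonempty) (n₂ : S₂.Nonempty)
    (H : ∀ s ∈ S₁, ∀ s' ∈ S₂, (s + s') / 2 ∈ S₃) :
    volume S₁ + volume S₂ ≤ 2 * volume S₃ := by
  obtain ⟨a, ha, haM⟩ := h₁.exists_isGreatest n₁
  obtain ⟨b, hb, hbM⟩ := h₂.exists_isLeast n₂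
  set T₁ : Set ℝ := (fun u : ℝ => 2 * u) ⁻¹' ((fun v : ℝ => v + (-b)) ⁻¹' S₁) with hT₁
  set T₂ : Set ℝ := (fun u : ℝ => 2 * u) ⁻¹' ((fun v : ℝ => v + (-a)) ⁻¹' S₂) with hT₂
  have v₁ : volume T₁ = ENNReal.ofReal |(2:ℝ)⁻¹| * volume S₁ := by
    rw [hT₁, Real.volume_preimage_mul_left (by norm_num), measure_preimage_add_right]
  have v₂ : volume T₂ = ENNReal.ofReal |(2:ℝ)⁻¹| * volume S₂ := by
    rw [hT₂, Real.volume_preimage_mul_left (by norm_num), measure_preimage_add_right]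
  have hT₂m : MeasurableSet T₂ := by
    have : MeasurableSet S₂ := h₂.measurableSet
    exact (measurable_const_mul (2:ℝ)) ((measurable_add_const (-a)) this)
  have s₁ : T₁ ⊆ S₃ := by
    intro u hu
    have hu' : 2 * u + (-b) ∈ S₁ := hu
    have := H _ hu' b hb
    have e : (2 * u + -b + b) / 2 = u := by ring
    rwa [e] at this
  have s₂ : T₂ ⊆ S₃ := by
    intro u hu
    have hu' : 2 * u + (-a) ∈ S₂ := hu
    have := H a ha _ hu'
    have e : (a + (2 * u + -a)) / 2 = u := by ring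
    rwa [e] at this
  have hinter : T₁ ∩ T₂ ⊆ {(a + b) / 2} := by
    rintro u ⟨hu1, hu2⟩
    have hu1' : 2 * u + (-b) ∈ S₁ := hu1
    have hu2' : 2 * u + (-a) ∈ S₂ := hu2
    have h3 := haM hu1'
    have h4 := hbM hu2'
    simp only [mem_singleton_iff]
    linarith
  have hnull : volume (T₁ ∩ T₂) = 0 :=
    measure_mono_null hinter (by simp)
  have hadd := measure_union_add_inter (μ := volume) T₁ hT₂m
  rw [hnull, add_zero] at hadd
  have hle : volume T₁ + volume T₂ ≤ volume S₃ := by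
    rw [← hadd]
    exact measure_mono (union_subset s₁ s₂)
  rw [v₁, v₂, ← mul_add] at hle
  have e2 : (2 : ℝ≥0∞) * ENNReal.ofReal |(2:ℝ)⁻¹| = 1 := by
    rw [abs_of_pos (by norm_num : (0:ℝ) < 2⁻¹), ENNReal.ofReal_inv_of_pos (by norm_num)]
    simp
    exact ENNReal.mul_inv_cancel (by norm_num) (by norm_num)
  calc volume S₁ + volume S₂ = 2 * (ENNReal.ofReal |(2:ℝ)⁻¹| * (volume S₁ + volume S₂)) := by
        rw [← mul_assoc, e2, one_mul]
    _ ≤ 2 * volume S₃ := by gcongr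

lemma vol_eq_iSup_compact {S : Set ℝ} (m : MeasurableSet S) :
    volume S = ⨆ K : {K : Set ℝ // K ⊆ S ∧ IsCompact K}, volume K.1 := by
  rw [m.measure_eq_iSup_isCompact]
  apply le_antisymm
  · refine iSup_le fun K => iSup_le fun h1 => iSup_le fun h2 => ?_
    exact le_iSup (fun K : {K : Set ℝ // K ⊆ S ∧ IsCompact K} => volume K.1) ⟨K, h1, h2⟩
  · exact iSup_le fun K => le_iSup_of_le K.1 (le_iSup_of_le K.2.1 (le_iSup_of_le K.2.2 le_rfl))

/-- One-dimensional Brunn-Minkowski, midpoint form, for nonempty measurable sets. -/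
lemma bm_one {S₁ S₂ S₃ : Set ℝ} (m₁ : MeasurableSet S₁) (m₂ : MeasurableSet S₂)
    (n₁ : S₁.Nonempty) (n₂ : S₂.Nonempty)
    (H : ∀ s ∈ S₁, ∀ s' ∈ S₂, (s + s') / 2 ∈ S₃) :
    volume S₁ + volume S₂ ≤ 2 * volume S₃ := by
  obtain ⟨p, hp⟩ := n₁
  obtain ⟨q, hq⟩ := n₂
  have key : ∀ (K₁ K₂ : Set ℝ), K₁ ⊆ S₁ → IsCompact K₁ → K₂ ⊆ S₂ → IsCompact K₂ →
      volume K₁ + volume K₂ ≤ 2 * volume S₃ := by
    intro K₁ K₂ h1 h2 h3 h4
    have := bm_one_compact (S₁ := insert p K₁) (S₂ := insert q K₂) (S₃ := S₃)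
      (h2.insert p) (h4.insert q) (insert_nonempty _ _) (insert_nonempty _ _)
      (fun s hs s' hs' => H s (insert_subset hp h1 hs) s' (insert_subset hq h3 hs'))
    refine le_trans ?_ this
    gcongr <;> exact subset_insert _ _
  rw [vol_eq_iSup_compact m₁, vol_eq_iSup_compact m₂]
  have : Nonempty {K : Set ℝ // K ⊆ S₁ ∧ IsCompact K} := ⟨⟨∅, empty_subset _, isCompact_empty⟩⟩
  have : Nonempty {K : Set ℝ // K ⊆ S₂ ∧ IsCompact K} := ⟨⟨∅, empty_subset _, isCompact_empty⟩⟩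
  exact ENNReal.iSup_add_iSup_le (fun K₁ K₂ => key _ _ K₁.2.1 K₁.2.2 K₂.2.1 K₂.2.2)

/-- Normalized one-dimensional inequality, by the layer cake formula. -/
lemma pl_one_normalized {f₁ f₂ f₃ : ℝ → ℝ} (m₁ : Measurable f₁) (m₂ : Measurable f₂)
    (m₃ : Measurable f₃) (p₁ : ∀ s, 0 ≤ f₁ s) (p₂ : ∀ s, 0 ≤ f₂ s) (p₃ : ∀ s, 0 ≤ f₃ s)
    (b₁ : ∀ s, f₁ s ≤ 1) (b₂ : ∀ s, f₂ s ≤ 1)
    (n₁ : ∀ r < 1, ∃ s, r < f₁ s) (n₂ : ∀ r < 1, ∃ s, r < f₂ s)
    (H : ∀ s s', f₁ s * f₂ s' ≤ f₃ ((s + s') / 2) ^ 2) :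
    (∫⁻ s, ENNReal.ofReal (f₁ s)) + (∫⁻ s, ENNReal.ofReal (f₂ s)) ≤
      2 * ∫⁻ s, ENNReal.ofReal (f₃ s) := by
  rw [lintegral_eq_lintegral_meas_lt volume (ae_of_all _ p₁) m₁.aemeasurable,
    lintegral_eq_lintegral_meas_lt volume (ae_of_all _ p₂) m₂.aemeasurable,
    lintegral_eq_lintegral_meas_lt volume (ae_of_all _ p₃) m₃.aemeasurable]
  have hA₁ : Measurable (fun t : ℝ => volume {a | t < f₁ a}) :=
    (Antitone.measurable (fun t t' h => measure_mono (fun a (ha : t' < f₁ a) => lt_of_le_of_lt h ha)))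
  rw [← lintegral_add_left hA₁, ← lintegral_const_mul']
  · apply setLIntegral_mono' measurableSet_Ioi
    intro t ht0
    have ht0' : 0 < t := ht0
    by_cases ht : t < 1
    · refine bm_one (measurableSet_lt measurable_const m₁)
        (measurableSet_lt measurable_const m₂) (n₁ t ht) (n₂ t ht) ?_
      intro s hs s' hs'
      have hs1 : t < f₁ s := hs
      have hs2 : t < f₂ s' := hs'
      have h1 := H s s'
      have h2 : t * t < f₁ s * f₂ s' := by nlinarith
      have h3 : t ^ 2 < f₃ ((s + s') / 2) ^ 2 := by nlinarith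
      exact lt_of_pow_lt_pow_left₀ 2 (p₃ _) h3
    · have e1 : {a | t < f₁ a} = ∅ := by
        ext a
        simp only [mem_ofPred_eq, mem_empty_iff_false, iff_false, not_lt]
        linarith [b₁ a]
      have e2 : {a | t < f₂ a} = ∅ := by
        ext a
        simp only [mem_ofPred_eq, mem_empty_iff_false, iff_false, not_lt]
        linarith [b₂ a]
      simp [e1, e2]
  · simp

/-- One-dimensional inequality for bounded real functions. -/
lemma pl_one_real {F G H : ℝ → ℝ} (mF : Measurable F) (mG : Measurable G) (mH : Measurable H)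
    (pF : ∀ s, 0 ≤ F s) (pG : ∀ s, 0 ≤ G s) (pH : ∀ s, 0 ≤ H s)
    (bF : BddAbove (range F)) (bG : BddAbove (range G))
    (hyp : ∀ s s', F s * G s' ≤ H ((s + s') / 2) ^ 2) :
    (∫⁻ s, ENNReal.ofReal (F s)) * (∫⁻ s, ENNReal.ofReal (G s)) ≤
      (∫⁻ s, ENNReal.ofReal (H s)) ^ 2 := by
  set p : ℝ := ⨆ s, F s with hp
  set q : ℝ := ⨆ s, G s with hq
  have hFp : ∀ s, F s ≤ p := fun s => le_ciSup bF s
  have hGq : ∀ s, G s ≤ q := fun s => le_ciSup bG s
  rcases (show 0 ≤ p from (pF 0).trans (hFp 0)).eq_or_lt with hp0 | hp0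
  · have : ∀ s, ENNReal.ofReal (F s) = 0 := fun s => by
      rw [ENNReal.ofReal_eq_zero]
      linarith [hFp s]
    simp [this]
  rcases (show 0 ≤ q from (pG 0).trans (hGq 0)).eq_or_lt with hq0 | hq0
  · have : ∀ s, ENNReal.ofReal (G s) = 0 := fun s => by
      rw [ENNReal.ofReal_eq_zero]
      linarith [hGq s]
    simp [this]
  set σ : ℝ := Real.sqrt (p * q) with hσ
  have hσ0 : 0 < σ := Real.sqrt_pos.mpr (mul_pos hp0 hq0)
  have hσ2 : σ ^ 2 = p * q := Real.sq_sqrt (mul_pos hp0 hq0).le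
  have norm := pl_one_normalized (f₁ := fun s => F s / p) (f₂ := fun s => G s / q)
    (f₃ := fun s => min (H s / σ) 1)
    (mF.div_const p) (mG.div_const q) ((mH.div_const σ).min measurable_const)
    (fun s => div_nonneg (pF s) hp0.le) (fun s => div_nonneg (pG s) hq0.le)
    (fun s => le_min (div_nonneg (pH s) hσ0.le) zero_le_one)
    (fun s => (div_le_one hp0).mpr (hFp s)) (fun s => (div_le_one hq0).mpr (hGq s))
    (by
      intro r hr
      by_contra hcon
      simp only [not_exists, not_lt] at hcon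
      have h1 : p ≤ r * p := ciSup_le (fun s => by
        have := hcon s
        rwa [div_le_iff₀ hp0] at this)
      nlinarith)
    (by
      intro r hr
      by_contra hcon
      simp only [not_exists, not_lt] at hcon
      have h1 : q ≤ r * q := ciSup_le (fun s => by
        have := hcon s
        rwa [div_le_iff₀ hq0] at this)
      nlinarith)
    (by
      intro s s'
      have h1 : F s * G s' / (p * q) ≤ (H ((s + s') / 2) / σ) ^ 2 := by
        rw [div_pow, hσ2]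
        exact div_le_div_of_nonneg_right (hyp s s') (mul_pos hp0 hq0).le
      have e : F s / p * (G s' / q) = F s * G s' / (p * q) := by
        field_simp
      have h2 : F s / p * (G s' / q) ≤ 1 := by
        have a1 := (div_le_one hp0).mpr (hFp s)
        have a2 := (div_le_one hq0).mpr (hGq s')
        have a3 := div_nonneg (pG s') hq0.le
        have a4 := div_nonneg (pF s) hp0.le
        nlinarith
      have h3 : 0 ≤ H ((s + s') / 2) / σ := div_nonneg (pH _) hσ0.le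
      rcases le_total (H ((s + s') / 2) / σ) 1 with h4 | h4
      · rw [min_eq_left h4, e]
        exact h1
      · rw [min_eq_right h4]
        simpa using h2)
  -- scaling the integrals
  set I₁ := ∫⁻ s, ENNReal.ofReal (F s) with hI₁
  set I₂ := ∫⁻ s, ENNReal.ofReal (G s) with hI₂
  set I₃ := ∫⁻ s, ENNReal.ofReal (H s) with hI₃
  have e₁ : ∫⁻ s, ENNReal.ofReal (F s / p) = I₁ * ENNReal.ofReal p⁻¹ := by
    rw [hI₁, ← lintegral_mul_const _ (mF.ennreal_ofReal)]
    refine lintegral_congr (fun s => ?_)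
    rw [div_eq_mul_inv, ENNReal.ofReal_mul (pF s)]
  have e₂ : ∫⁻ s, ENNReal.ofReal (G s / q) = I₂ * ENNReal.ofReal q⁻¹ := by
    rw [hI₂, ← lintegral_mul_const _ (mG.ennreal_ofReal)]
    refine lintegral_congr (fun s => ?_)
    rw [div_eq_mul_inv, ENNReal.ofReal_mul (pG s)]
  have e₃ : ∫⁻ s, ENNReal.ofReal (min (H s / σ) 1) ≤ I₃ * ENNReal.ofReal σ⁻¹ := by
    rw [hI₃, ← lintegral_mul_const _ (mH.ennreal_ofReal)]
    refine lintegral_mono (fun s => ?_)
    rw [← ENNReal.ofReal_mul (pH s), ← div_eq_mul_inv]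
    exact ENNReal.ofReal_le_ofReal (min_le_left _ _)
  rw [e₁, e₂] at norm
  have norm2 := norm.trans (mul_le_mul_right e₃ _)
  by_cases hI₃t : I₃ = ⊤
  · rw [hI₃t]
    simp
  have hp' : ENNReal.ofReal p⁻¹ ≠ 0 := by
    rw [Ne, ENNReal.ofReal_eq_zero, not_le]
    positivity
  have hq' : ENNReal.ofReal q⁻¹ ≠ 0 := by
    rw [Ne, ENNReal.ofReal_eq_zero, not_le]
    positivity
  have hfinR : 2 * (I₃ * ENNReal.ofReal σ⁻¹) ≠ ⊤ :=
    ENNReal.mul_ne_top (by norm_num) (ENNReal.mul_ne_top hI₃t ENNReal.ofReal_ne_top)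
  have hI₁t : I₁ ≠ ⊤ := by
    intro h
    apply hfinR
    apply top_le_iff.mp
    refine le_trans ?_ norm2
    rw [h, ENNReal.top_mul hp']
    simp
  have hI₂t : I₂ ≠ ⊤ := by
    intro h
    apply hfinR
    apply top_le_iff.mp
    refine le_trans ?_ norm2
    rw [h, ENNReal.top_mul hq']
    simp
  -- convert to real numbers
  obtain ⟨i₁, hi₁⟩ : ∃ i₁ : ℝ, i₁ = I₁.toReal := ⟨_, rfl⟩
  obtain ⟨i₂, hi₂⟩ : ∃ i₂ : ℝ, i₂ = I₂.toReal := ⟨_, rfl⟩
  obtain ⟨i₃, hi₃⟩ : ∃ i₃ : ℝ, i₃ = I₃.toReal := ⟨_, rfl⟩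
  have hi₁0 : 0 ≤ i₁ := by rw [hi₁]; exact ENNReal.toReal_nonneg
  have hi₂0 : 0 ≤ i₂ := by rw [hi₂]; exact ENNReal.toReal_nonneg
  have hi₃0 : 0 ≤ i₃ := by rw [hi₃]; exact ENNReal.toReal_nonneg
  have E₁ : I₁ = ENNReal.ofReal i₁ := by rw [hi₁, ENNReal.ofReal_toReal hI₁t]
  have E₂ : I₂ = ENNReal.ofReal i₂ := by rw [hi₂, ENNReal.ofReal_toReal hI₂t]
  have E₃ : I₃ = ENNReal.ofReal i₃ := by rw [hi₃, ENNReal.ofReal_toReal hI₃t]
  rw [E₁, E₂, E₃] at norm2 ⊢
  have htwo : (2 : ℝ≥0∞) = ENNReal.ofReal 2 := by simp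
  rw [htwo, ← ENNReal.ofReal_mul hi₁0, ← ENNReal.ofReal_mul hi₂0, ← ENNReal.ofReal_mul hi₃0,
    ← ENNReal.ofReal_add (by positivity) (by positivity),
    ← ENNReal.ofReal_mul (by norm_num)] at norm2
  have hreal := (ENNReal.ofReal_le_ofReal_iff (by positivity)).mp norm2
  rw [← ENNReal.ofReal_mul hi₁0, ← ENNReal.ofReal_pow hi₃0]
  apply ENNReal.ofReal_le_ofReal
  -- algebra
  have ha : 0 ≤ i₁ * p⁻¹ := by positivity
  have hb : 0 ≤ i₂ * q⁻¹ := by positivity
  have h4 : (i₁ * p⁻¹) * (i₂ * q⁻¹) ≤ (i₃ * σ⁻¹) ^ 2 := by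
    nlinarith [sq_nonneg (i₁ * p⁻¹ - i₂ * q⁻¹)]
  have e5 : (i₃ * σ⁻¹) ^ 2 = i₃ ^ 2 * (p * q)⁻¹ := by
    rw [mul_pow, inv_pow, hσ2]
  rw [e5] at h4
  have e6 : (i₁ * p⁻¹) * (i₂ * q⁻¹) = (i₁ * i₂) * (p * q)⁻¹ := by
    field_simp
  rw [e6] at h4
  have hpq : 0 < (p * q)⁻¹ := by positivity
  exact le_of_mul_le_mul_right h4 hpq

/-- The one-dimensional inequality for extended nonnegative functions. -/
lemma pl_one {F G H : ℝ → ℝ≥0∞} (mF : Measurable F) (mG : Measurable G) (mH : Measurable H)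
    (hyp : ∀ s s', F s * G s' ≤ H ((s + s') / 2) ^ 2) :
    (∫⁻ s, F s) * (∫⁻ s, G s) ≤ (∫⁻ s, H s) ^ 2 := by
  -- truncations
  have key : ∀ n n' : ℕ, (∫⁻ s, min (F s) n) * (∫⁻ s, min (G s) n') ≤ (∫⁻ s, H s) ^ 2 := by
    intro n n'
    set M : ℕ := max n n' with hM
    have hFt : ∀ s, min (F s) n ≠ ⊤ := fun s =>
      ne_top_of_le_ne_top (ENNReal.natCast_ne_top n) (min_le_right _ _)
    have hGt : ∀ s, min (G s) n' ≠ ⊤ := fun s =>
      ne_top_of_le_ne_top (ENNReal.natCast_ne_top n') (min_le_right _ _)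
    have hHt : ∀ s, min (H s) M ≠ ⊤ := fun s =>
      ne_top_of_le_ne_top (ENNReal.natCast_ne_top M) (min_le_right _ _)
    have mF' : Measurable (fun s => min (F s) (n : ℝ≥0∞)) := mF.min measurable_const
    have mG' : Measurable (fun s => min (G s) (n' : ℝ≥0∞)) := mG.min measurable_const
    have mH' : Measurable (fun s => min (H s) (M : ℝ≥0∞)) := mH.min measurable_const
    have := pl_one_real (F := fun s => (min (F s) n).toReal) (G := fun s => (min (G s) n').toReal)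
      (H := fun s => (min (H s) M).toReal) mF'.ennreal_toReal mG'.ennreal_toReal mH'.ennreal_toReal
      (fun s => ENNReal.toReal_nonneg) (fun s => ENNReal.toReal_nonneg)
      (fun s => ENNReal.toReal_nonneg)
      ⟨n, by
        rintro _ ⟨s, rfl⟩
        have := ENNReal.toReal_mono (ENNReal.natCast_ne_top n) (min_le_right (F s) (n : ℝ≥0∞))
        simpa using this⟩
      ⟨n', by
        rintro _ ⟨s, rfl⟩
        have := ENNReal.toReal_mono (ENNReal.natCast_ne_top n') (min_le_right (G s) (n' : ℝ≥0∞))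
        simpa using this⟩
      (by
        intro s s'
        rw [← ENNReal.toReal_mul, ← ENNReal.toReal_pow]
        apply ENNReal.toReal_mono (ENNReal.pow_ne_top (hHt _))
        -- the key comparison
        have h2 : min (F s) (n : ℝ≥0∞) * min (G s') (n' : ℝ≥0∞) ≤ (M : ℝ≥0∞) ^ 2 := by
          rw [sq]
          refine mul_le_mul' ((min_le_right _ _).trans ?_) ((min_le_right _ _).trans ?_)
          · exact_mod_cast le_max_left n n'
          · exact_mod_cast le_max_right n n'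
        have h1' : min (F s) (n : ℝ≥0∞) * min (G s') (n' : ℝ≥0∞) ≤ F s * G s' :=
          mul_le_mul' (min_le_left _ _) (min_le_left _ _)
        rcases le_total (H ((s + s') / 2)) (M : ℝ≥0∞) with h4 | h4
        · rw [min_eq_left h4]
          exact h1'.trans (hyp s s')
        · rw [min_eq_right h4]
          exact h2)
    have e : ∀ (f : ℝ → ℝ≥0∞), (∀ s, f s ≠ ⊤) → ∫⁻ s, ENNReal.ofReal (f s).toReal = ∫⁻ s, f s :=
      fun f hf => lintegral_congr (fun s => ENNReal.ofReal_toReal (hf s))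
    rw [e _ hFt, e _ hGt, e _ hHt] at this
    refine this.trans ?_
    gcongr with s
    exact min_le_left _ _
  -- monotone limits
  have lim : ∀ f : ℝ → ℝ≥0∞, Measurable f → ∫⁻ s, f s = ⨆ n : ℕ, ∫⁻ s, min (f s) n := by
    intro f hf
    rw [← lintegral_iSup (fun n => hf.min measurable_const)
      (fun a b hab s => min_le_min_left _ (by exact_mod_cast hab))]
    refine lintegral_congr (fun s => ?_)
    apply le_antisymm
    · rcases eq_or_ne (f s) ⊤ with h | h
      · rw [h]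
        simp only [le_top, min_eq_right]
        exact ENNReal.iSup_natCast.symm.le
      · obtain ⟨n, hn⟩ := ENNReal.exists_nat_gt h
        exact le_iSup_of_le n (le_min le_rfl hn.le)
    · exact iSup_le (fun n => min_le_left _ _)
  rw [lim F mF, lim G mG]
  rw [ENNReal.iSup_mul]
  refine iSup_le fun i => ?_
  rw [ENNReal.mul_iSup]
  exact iSup_le fun j => key i j

/-- The Prekopa-Leindler inequality on `Fin n → ℝ`, midpoint form. -/
theorem pl_pi : ∀ (n : ℕ) (f g h : (Fin n → ℝ) → ℝ≥0∞), Measurable f → Measurable g →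
    Measurable h → (∀ x y, f x * g y ≤ h (fun i => (x i + y i) / 2) ^ 2) →
    (∫⁻ x, f x) * (∫⁻ x, g x) ≤ (∫⁻ x, h x) ^ 2 := by
  intro n
  induction n with
  | zero =>
    intro f g h _ _ _ H
    have e : ∀ u : (Fin 0 → ℝ) → ℝ≥0∞, ∫⁻ x, u x = u default := by
      intro u
      rw [Measure.volume_pi_eq_dirac default, lintegral_dirac]
    rw [e f, e g, e h]
    have := H default default
    have e' : (fun i => ((default : Fin 0 → ℝ) i + (default : Fin 0 → ℝ) i) / 2) = default :=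
      Subsingleton.elim _ _
    rw [e'] at this
    exact this
  | succ n ih =>
    intro f g h mf mg mh H
    set e := MeasurableEquiv.piFinSuccAbove (fun _ : Fin (n + 1) => ℝ) 0 with he
    have hpres : MeasurePreserving e.symm (volume.prod volume) volume :=
      (volume_preserving_piFinSuccAbove (fun _ : Fin (n + 1) => ℝ) 0).symm
    have fub : ∀ u : (Fin (n + 1) → ℝ) → ℝ≥0∞, Measurable u →
        ∫⁻ x, u x = ∫⁻ s : ℝ, ∫⁻ x' : Fin n → ℝ, u (e.symm (s, x')) := by
      intro u mu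
      rw [← hpres.lintegral_comp mu]
      exact lintegral_prod _ (mu.comp e.symm.measurable).aemeasurable
    rw [fub f mf, fub g mg, fub h mh]
    have mp : ∀ u : (Fin (n + 1) → ℝ) → ℝ≥0∞, Measurable u →
        Measurable (fun s : ℝ => ∫⁻ x' : Fin n → ℝ, u (e.symm (s, x'))) := by
      intro u mu
      exact (mu.comp e.symm.measurable).lintegral_prod_right'
    apply pl_one (mp f mf) (mp g mg) (mp h mh)
    intro s s'
    have msec : ∀ (u : (Fin (n + 1) → ℝ) → ℝ≥0∞) (t : ℝ), Measurable u →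
        Measurable (fun x' : Fin n → ℝ => u (e.symm (t, x'))) := by
      intro u t mu
      exact (mu.comp e.symm.measurable).comp (measurable_const.prodMk measurable_id)
    apply ih _ _ _ (msec f s mf) (msec g s' mg) (msec h _ mh)
    intro x y
    have := H (e.symm (s, x)) (e.symm (s', y))
    convert this using 3
    funext i
    refine Fin.cases ?_ (fun j => ?_) i
    · simp [he, MeasurableEquiv.piFinSuccAbove]
    · simp [he, MeasurableEquiv.piFinSuccAbove]

/-- The Prekopa-Leindler inequality on Euclidean space, midpoint form. -/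
theorem pl_euclid {d : ℕ} {f g h : E d → ℝ≥0∞} (mf : Measurable f) (mg : Measurable g)
    (mh : Measurable h) (H : ∀ x y, f x * g y ≤ h ((1 / 2 : ℝ) • (x + y)) ^ 2) :
    (∫⁻ x, f x) * (∫⁻ x, g x) ≤ (∫⁻ x, h x) ^ 2 := by
  have hpres := PiLp.volume_preserving_toLp (Fin d)
  have e : ∀ u : E d → ℝ≥0∞, Measurable u →
      ∫⁻ x, u x = ∫⁻ v : Fin d → ℝ, u (WithLp.toLp 2 v) := by
    intro u mu
    exact (hpres.lintegral_comp mu).symm
  rw [e f mf, e g mg, e h mh]
  apply pl_pi d _ _ _ (mf.comp hpres.measurable) (mg.comp hpres.measurable)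
    (mh.comp hpres.measurable)
  intro x y
  have := H (WithLp.toLp 2 x) (WithLp.toLp 2 y)
  have e2 : WithLp.toLp 2 (fun i => (x i + y i) / 2) =
      (1 / 2 : ℝ) • (WithLp.toLp 2 x + WithLp.toLp 2 y : E d) := by
    ext i
    simp
    ring
  show f (WithLp.toLp 2 x) * g (WithLp.toLp 2 y) ≤ h (WithLp.toLp 2 (fun i => (x i + y i) / 2)) ^ 2
  rw [e2]
  exact this

end Vale.Agent.P074
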