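import Vale.Agent.Lib.P074.Bary

open MeasureTheory Set Filter Topology Metric
open scoped ENNReal

namespace Vale.Agent.P074

set_option linter.unusedSectionVars false

/-- A grid in `(0, 1)` avoiding a finite set. -/
lemma exists_grid {B : Set ℝ} (hB : B.Finite) (N : ℕ) (hN : 0 < N) :
    ∃ η : ℝ, 0 < η ∧ η < 1 ∧ ∀ i : ℕ, (((i : ℝ) + η) / N) ∉ B := by
  have hN' : (0 : ℝ) < N := by exact_mod_cast hN
  -- only finitely many values of `η` are bad, and those come with a fixed index range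
  have hbad : (⋃ b ∈ B, (fun i : ℤ => (N : ℝ) * b - i) '' {i : ℤ | 0 ≤ (N : ℝ) * b - i ∧
      (N : ℝ) * b - i ≤ 1}).Finite := by
    apply hB.biUnion
    intro b _
    apply Set.Finite.image
    apply Set.Finite.subset (Set.finite_Icc (⌈(N : ℝ) * b⌉ - 1) ⌊(N : ℝ) * b⌋)
    intro i hi
    have h1 : (0:ℝ) ≤ (N : ℝ) * b - i := hi.1
    have h2 : (N : ℝ) * b - i ≤ 1 := hi.2
    constructor
    · have : (⌈(N : ℝ) * b⌉ : ℝ) < (N : ℝ) * b + 1 := Int.ceil_lt_add_one _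
      have h3 : ((⌈(N : ℝ) * b⌉ - 1 : ℤ) : ℝ) < (i : ℝ) + 1 := by
        push_cast
        linarith
      have h4 : (⌈(N : ℝ) * b⌉ - 1 : ℤ) < i + 1 := by exact_mod_cast h3
      omega
    · apply Int.le_floor.mpr
      linarith
  obtain ⟨η, hη, hηb⟩ := (Set.Ioo_infinite (zero_lt_one (α := ℝ))).exists_notMem_finite hbad
  refine ⟨η, hη.1, hη.2, ?_⟩
  intro i hi
  apply hηb
  have e : (N : ℝ) * (((i : ℝ) + η) / N) - ((i : ℤ) : ℝ) = η := by
    push_cast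
    field_simp
    ring
  simp only [mem_iUnion]
  refine ⟨_, hi, (i : ℤ), ⟨?_, ?_⟩, e⟩
  · rw [e]
    exact hη.1.le
  · rw [e]
    exact hη.2.le

/-- The abstract path estimate for two families of convex functions. -/
theorem path_bound {f g : ℝ → ℝ} {B : Set ℝ} (hB : B.Finite) {L Pb : ℝ} (hL : 0 ≤ L) (hPb : 0 ≤ Pb)
    (hfL : ∀ t ∈ Icc (0:ℝ) 1, ∀ t' ∈ Icc (0:ℝ) 1, f t ≤ f t' + L * |t - t'|)
    (hgL : ∀ t ∈ Icc (0:ℝ) 1, ∀ t' ∈ Icc (0:ℝ) 1, g t ≤ g t' + L * |t - t'|)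
    (H : ∀ τ ∈ Ioo (0:ℝ) 1, τ ∉ B → ∃ P Q : ℝ,
      (∀ t ∈ Icc (0:ℝ) 1, f τ + (t - τ) * P ≤ f t) ∧
      (∀ t ∈ Icc (0:ℝ) 1, g τ + (t - τ) * Q ≤ g t) ∧ P - Q ≤ Pb) :
    f 1 - f 0 - (g 1 - g 0) ≤ Pb := by
  -- it suffices to prove the estimate up to `6 L / N`
  have key : ∀ N : ℕ, 0 < N → f 1 - f 0 - (g 1 - g 0) ≤ Pb + 6 * L / N := by
    intro N hN
    have hN' : (0 : ℝ) < N := by exact_mod_cast hN
    have hN1 : (1 : ℝ) ≤ N := by exact_mod_cast hN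
    obtain ⟨η, hη0, hη1, hgrid⟩ := exists_grid hB N hN
    -- grid points
    set τ : ℕ → ℝ := fun i => ((i : ℝ) + η) / N with hτ
    have hτmem : ∀ i, i < N → τ i ∈ Ioo (0:ℝ) 1 := by
      intro i hi
      have hi' : (i : ℝ) + 1 ≤ N := by exact_mod_cast hi
      constructor
      · exact div_pos (by positivity) hN'
      · rw [div_lt_one hN']
        linarith
    have hsel : ∀ i : ℕ, ∃ P Q : ℝ, i < N →
        (∀ t ∈ Icc (0:ℝ) 1, f (τ i) + (t - τ i) * P ≤ f t) ∧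
        (∀ t ∈ Icc (0:ℝ) 1, g (τ i) + (t - τ i) * Q ≤ g t) ∧ P - Q ≤ Pb := by
      intro i
      by_cases hi : i < N
      · obtain ⟨P, Q, h⟩ := H (τ i) (hτmem i hi) (hgrid i)
        exact ⟨P, Q, fun _ => h⟩
      · exact ⟨0, 0, fun h => absurd h hi⟩
    choose P Q hPQ using hsel
    have hicc : ∀ i, i < N → τ i ∈ Icc (0:ℝ) 1 := fun i hi =>
      ⟨(hτmem i hi).1.le, (hτmem i hi).2.le⟩
    have hstep : ∀ i, i + 1 < N → τ (i + 1) - τ i = 1 / N := by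
      intro i _
      simp only [hτ]
      push_cast
      field_simp
      ring
    -- telescoping
    have htel : ∀ n, n < N → (f (τ n) - g (τ n)) - (f (τ 0) - g (τ 0)) ≤
        (n / N) * Pb + (1 / N) * (Q n - Q 0) := by
      intro n
      induction n with
      | zero =>
        intro _
        simp
      | succ n ih =>
        intro hn
        have h0 := ih (by omega)
        obtain ⟨h1, _, h3⟩ := hPQ (n + 1) hn
        obtain ⟨_, h5, _⟩ := hPQ n (by omega)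
        have h6 := h1 (τ n) (hicc n (by omega))
        have h7 := h5 (τ (n + 1)) (hicc (n + 1) hn)
        have h8 := hstep n hn
        have e1 : τ n - τ (n + 1) = -(1 / N) := by linarith
        rw [e1] at h6
        rw [h8] at h7
        have h9 : (1 / (N : ℝ)) * (P (n + 1) - Q (n + 1)) ≤ (1 / N) * Pb :=
          mul_le_mul_of_nonneg_left h3 (by positivity)
        have e2 : (((n + 1 : ℕ) : ℝ) / N) * Pb = (n / N) * Pb + (1 / N) * Pb := by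
          push_cast
          ring
        rw [e2]
        nlinarith
    -- bounds
    have hN0 : N - 1 < N := by omega
    have htel' := htel (N - 1) hN0
    have hQ : ∀ i, i < N → |Q i| ≤ L := by
      intro i hi
      obtain ⟨_, h5, _⟩ := hPQ i hi
      obtain ⟨h01, h02⟩ := hτmem i hi
      have h1 := h5 1 ⟨zero_le_one, le_rfl⟩
      have h0 := h5 0 ⟨le_rfl, zero_le_one⟩
      have l1 := hgL 1 ⟨zero_le_one, le_rfl⟩ (τ i) (hicc i hi)
      have l0 := hgL 0 ⟨le_rfl, zero_le_one⟩ (τ i) (hicc i hi)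
      rw [abs_of_nonneg (by linarith [h02] : (0:ℝ) ≤ 1 - τ i)] at l1
      rw [abs_sub_comm, abs_of_nonneg (by linarith [h01] : (0:ℝ) ≤ τ i - 0)] at l0
      rw [abs_le]
      constructor
      · have : τ i * (-L) ≤ τ i * Q i := by nlinarith
        exact le_of_mul_le_mul_left this h01
      · have : (1 - τ i) * Q i ≤ (1 - τ i) * L := by nlinarith
        exact le_of_mul_le_mul_left this (by linarith)
    have hQb : Q (N - 1) - Q 0 ≤ 2 * L := by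
      have a := abs_le.mp (hQ _ hN0)
      have b := abs_le.mp (hQ 0 hN)
      linarith [a.2, b.1]
    have hτ0 : τ 0 ≤ 1 / N := by
      simp only [hτ]
      push_cast
      rw [zero_add]
      exact div_le_div_of_nonneg_right hη1.le hN'.le
    have hτ1 : 1 - τ (N - 1) ≤ 1 / N := by
      simp only [hτ]
      have e : (((N - 1 : ℕ) : ℝ)) = (N : ℝ) - 1 := by
        rw [Nat.cast_sub hN]
        simp
      rw [e]
      have e2 : 1 - ((N : ℝ) - 1 + η) / N = (1 - η) / N := by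
        field_simp
        ring
      rw [e2]
      apply div_le_div_of_nonneg_right _ hN'.le
      linarith
    have i0 := hicc 0 hN
    have i1 := hicc (N - 1) hN0
    have z0 : (0:ℝ) ∈ Icc (0:ℝ) 1 := ⟨le_rfl, zero_le_one⟩
    have z1 : (1:ℝ) ∈ Icc (0:ℝ) 1 := ⟨zero_le_one, le_rfl⟩
    have a1 := hfL 1 z1 _ i1
    have a2 := hgL _ i1 1 z1
    have a3 := hfL _ i0 0 z0
    have a4 := hgL 0 z0 _ i0
    have e1 : |1 - τ (N - 1)| = 1 - τ (N - 1) := abs_of_nonneg (by linarith [i1.2])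
    have e2 : |τ (N - 1) - 1| = 1 - τ (N - 1) := by rw [abs_sub_comm, e1]
    have e3 : |τ 0 - 0| = τ 0 := by rw [sub_zero, abs_of_nonneg i0.1]
    have e4 : |0 - τ 0| = τ 0 := by rw [abs_sub_comm, e3]
    rw [e1] at a1
    rw [e2] at a2
    rw [e3] at a3
    rw [e4] at a4
    have b1 : L * (1 - τ (N - 1)) ≤ L * (1 / N) := mul_le_mul_of_nonneg_left hτ1 hL
    have b2 : L * τ 0 ≤ L * (1 / N) := mul_le_mul_of_nonneg_left hτ0 hL
    have b3 : (((N - 1 : ℕ) : ℝ) / N) * Pb ≤ Pb := by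
      have : ((N - 1 : ℕ) : ℝ) / N ≤ 1 := by
        rw [div_le_one hN']
        exact_mod_cast Nat.sub_le N 1
      nlinarith
    have b4 : (1 / (N : ℝ)) * (Q (N - 1) - Q 0) ≤ (1 / N) * (2 * L) :=
      mul_le_mul_of_nonneg_left hQb (by positivity)
    have e5 : 6 * L / N = 6 * (L * (1 / N)) := by ring
    have e6 : (1 / (N : ℝ)) * (2 * L) = 2 * (L * (1 / N)) := by ring
    rw [e5]
    rw [e6] at b4
    linarith
  apply le_of_forall_pos_le_add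
  intro ε hε
  obtain ⟨N, hN⟩ := exists_nat_gt (6 * L / ε)
  have hN0 : (0 : ℝ) < N := lt_of_le_of_lt (by positivity) hN
  have hNn : 0 < N := by exact_mod_cast hN0
  have := key N hNn
  have h2 : 6 * L / N ≤ ε := by
    rw [div_le_iff₀ hN0]
    rw [div_lt_iff₀ hε] at hN
    linarith
  linarith

variable {d : ℕ} {ι : Type} [Fintype ι] [Nonempty ι]

/-- The straight path of sites. -/
def Yt (Y₀ Y₁ : ι → E d) (t : ℝ) (k : ι) : E d := Y₀ k + t • (Y₁ k - Y₀ k)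

lemma Yt_zero (Y₀ Y₁ : ι → E d) : Yt Y₀ Y₁ 0 = Y₀ := by
  funext k
  simp [Yt]

lemma Yt_one (Y₀ Y₁ : ι → E d) : Yt Y₀ Y₁ 1 = Y₁ := by
  funext k
  simp [Yt]

lemma Yt_norm {Y₀ Y₁ : ι → E d} {R : ℝ} (h₀ : ∀ k, ‖Y₀ k‖ ≤ R) (h₁ : ∀ k, ‖Y₁ k‖ ≤ R) {t : ℝ}
    (ht : t ∈ Icc (0:ℝ) 1) (k : ι) : ‖Yt Y₀ Y₁ t k‖ ≤ R := by
  have e : Yt Y₀ Y₁ t k = (1 - t) • Y₀ k + t • Y₁ k := by
    simp only [Yt, smul_sub, sub_smul, one_smul]
    abel
  rw [e]
  calc ‖(1 - t) • Y₀ k + t • Y₁ k‖ ≤ ‖(1 - t) • Y₀ k‖ + ‖t • Y₁ k‖ := norm_add_le _ _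
    _ = (1 - t) * ‖Y₀ k‖ + t * ‖Y₁ k‖ := by
        rw [norm_smul, norm_smul, Real.norm_eq_abs, Real.norm_eq_abs, abs_of_nonneg ht.1,
          abs_of_nonneg (by linarith [ht.2])]
    _ ≤ (1 - t) * R + t * R := by
        have a := mul_le_mul_of_nonneg_left (h₀ k) (by linarith [ht.2] : 0 ≤ 1 - t)
        have b := mul_le_mul_of_nonneg_left (h₁ k) ht.1
        linarith
    _ = R := by ring

/-- The set of times with a coincidence of sites is finite. -/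
lemma bad_times_finite {Y₀ Y₁ : ι → E d} (hinj : Function.Injective (fun k => (Y₀ k, Y₁ k))) :
    {t : ℝ | ¬ Function.Injective (Yt Y₀ Y₁ t)}.Finite := by
  classical
  have hsub : {t : ℝ | ¬ Function.Injective (Yt Y₀ Y₁ t)} ⊆
      ⋃ k : ι, ⋃ l : ι, ⋃ (_ : k ≠ l), {t : ℝ | Yt Y₀ Y₁ t k = Yt Y₀ Y₁ t l} := by
    intro t ht
    simp only [Function.Injective, not_forall, mem_ofPred_eq] at ht
    obtain ⟨k, l, heq, hne⟩ := ht
    simp only [mem_iUnion]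
    exact ⟨k, l, hne, heq⟩
  refine Set.Finite.subset ?_ hsub
  refine Set.finite_iUnion (fun k => Set.finite_iUnion (fun l => Set.finite_iUnion (fun hkl => ?_)))
  apply Set.Subsingleton.finite
  intro t ht t' ht'
  by_contra hne
  have h1 : Yt Y₀ Y₁ t k = Yt Y₀ Y₁ t l := ht
  have h2 : Yt Y₀ Y₁ t' k = Yt Y₀ Y₁ t' l := ht'
  simp only [Yt] at h1 h2
  have h3 : (t - t') • ((Y₁ k - Y₀ k) - (Y₁ l - Y₀ l)) = 0 := by
    have : (t - t') • ((Y₁ k - Y₀ k) - (Y₁ l - Y₀ l)) =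
        ((Y₀ k + t • (Y₁ k - Y₀ k)) - (Y₀ l + t • (Y₁ l - Y₀ l))) -
          ((Y₀ k + t' • (Y₁ k - Y₀ k)) - (Y₀ l + t' • (Y₁ l - Y₀ l))) := by
      simp only [smul_sub, sub_smul]
      abel
    rw [this, h1, h2]
    simp
  have h4 : (Y₁ k - Y₀ k) - (Y₁ l - Y₀ l) = 0 := by
    rcases smul_eq_zero.mp h3 with h | h
    · exact absurd (sub_eq_zero.mp h) hne
    · exact h
  have h5 : t • ((Y₁ k - Y₀ k) - (Y₁ l - Y₀ l)) = 0 := by rw [h4, smul_zero]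
  have h6 : Y₀ k = Y₀ l := by
    have : Y₀ k - Y₀ l = (Y₀ k + t • (Y₁ k - Y₀ k)) - (Y₀ l + t • (Y₁ l - Y₀ l)) -
        t • ((Y₁ k - Y₀ k) - (Y₁ l - Y₀ l)) := by
      simp only [smul_sub]
      abel
    rw [h1, h5] at this
    simpa [sub_eq_zero] using this
  have h7 : Y₁ k = Y₁ l := by
    have : Y₁ k - Y₁ l = ((Y₁ k - Y₀ k) - (Y₁ l - Y₀ l)) + (Y₀ k - Y₀ l) := by abel
    rw [h4, h6] at this
    simpa [sub_eq_zero] using this
  exact hkl (hinj (Prod.ext h6 h7))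

section mixed

variable {K : Set (E d)} {m : ι → ℝ} {Y₀ Y₁ : ι → E d}

/-- The subgradient inequality of the value along the path. -/
lemma subgrad_val {a : E d → ℝ} (hK : IsCompact K) (hKm : MeasurableSet K) (ha : Continuous a)
    (ha0 : ∀ x ∈ K, 0 ≤ a x) {τ t : ℝ} (hinj : Function.Injective (Yt Y₀ Y₁ τ))
    {c c' : ι → ℝ} (hc : IsMin K a (Yt Y₀ Y₁ τ) m c) (hc' : IsMin K a (Yt Y₀ Y₁ t) m c')
    (hopt : IsOpt K a (Yt Y₀ Y₁ τ) m c) :
    val K a (Yt Y₀ Y₁ τ) m + (t - τ) *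
        ∑ k, ∫ x in K ∩ scell (Yt Y₀ Y₁ τ) c k, inner ℝ x (Y₁ k - Y₀ k) * a x ≤
      val K a (Yt Y₀ Y₁ t) m := by
  rw [val_of_min hc, val_of_min hc', kant_eq_of_opt hK hKm ha hinj hopt, Finset.mul_sum,
    ← Finset.sum_add_distrib]
  refine le_trans (le_of_eq ?_) (kant_ge_of_opt hK hKm ha ha0 hinj hopt (Yt Y₀ Y₁ t) c')
  apply Finset.sum_congr rfl
  intro k _
  have i1 : IntegrableOn (fun x => inner ℝ x (Yt Y₀ Y₁ τ k) * a x) (K ∩ scell (Yt Y₀ Y₁ τ) c k)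
      volume := (int_of_cont hK (by fun_prop)).mono_set inter_subset_left
  have i2 : IntegrableOn (fun x => inner ℝ x (Y₁ k - Y₀ k) * a x) (K ∩ scell (Yt Y₀ Y₁ τ) c k)
      volume := (int_of_cont hK (by fun_prop)).mono_set inter_subset_left
  rw [← integral_const_mul, ← integral_add i1 (i2.const_mul _)]
  congr 1
  funext x
  have e : Yt Y₀ Y₁ t k = Yt Y₀ Y₁ τ k + (t - τ) • (Y₁ k - Y₀ k) := by
    simp only [Yt, sub_smul]
    abel
  rw [e, inner_add_right, inner_smul_right]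
  ring

/-- The mixed second difference of the value along the path. -/
theorem mixed_bound (hK : IsCompact K) (hKm : MeasurableSet K) (hconv : Convex ℝ K)
    {o : E d} {D : ℝ} (hD : 0 < D) (hball : K ⊆ closedBall o D) {Rk Ry mmin : ℝ}
    (hRk0 : 0 ≤ Rk) (hRk : ∀ x ∈ K, ‖x‖ ≤ Rk) (hRy0 : 0 ≤ Ry) (hY₀ : ∀ k, ‖Y₀ k‖ ≤ Ry)
    (hY₁ : ∀ k, ‖Y₁ k‖ ≤ Ry) (hmmin : 0 < mmin) (hmm : ∀ k, mmin ≤ m k)
    (hsum : ∑ k, m k = volume.real K)
    (hinj : Function.Injective (fun k => (Y₀ k, Y₁ k)))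
    {ξ : E d → ℝ} (hξc : Continuous ξ) (hξ : ∀ x ∈ K, |ξ x| ≤ 1 / 2) (hξ0 : ∫ x in K, ξ x = 0)
    {l : ℝ} (hl : 0 < l) :
    val K (fun _ => 1) Y₁ m - val K (fun _ => 1) Y₀ m -
        (val K (fun x => 1 + ξ x) Y₁ m - val K (fun x => 1 + ξ x) Y₀ m) ≤
      (l / 2) * ∑ k, m k * ‖Y₁ k - Y₀ k‖ ^ 2 + (196608 * D ^ 2 / (2 * l)) * ∫ x in K, ξ x ^ 2 := by
  have hm0 : ∀ k, 0 ≤ m k := fun k => hmmin.le.trans (hmm k)
  have hm1 : ∀ k, 0 < m k := fun k => hmmin.trans_le (hmm k)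
  have c1 : Continuous (fun _ : E d => (1 : ℝ)) := continuous_const
  have ca : Continuous (fun x : E d => 1 + ξ x) := continuous_const.add hξc
  have p1 : ∀ x ∈ K, (0 : ℝ) ≤ (fun _ : E d => (1 : ℝ)) x := fun _ _ => zero_le_one
  have pa : ∀ x ∈ K, (0 : ℝ) ≤ (fun x : E d => 1 + ξ x) x := by
    intro x hx
    have := abs_le.mp (hξ x hx)
    show 0 ≤ 1 + ξ x
    linarith [this.1]
  have I1 : ∫ x in K, (fun _ : E d => (1 : ℝ)) x = volume.real K := by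
    simp only []
    rw [int_const_real, mul_one]
  have Ia : ∫ x in K, (fun x : E d => 1 + ξ x) x = volume.real K := by
    have f1 : IntegrableOn (fun _ : E d => (1 : ℝ)) K volume := int_of_cont hK continuous_const
    simp only []
    rw [integral_add f1 (int_of_cont hK hξc), hξ0, int_const_real]
    ring
  have hs1 : ∑ k, m k = ∫ x in K, (fun _ : E d => (1 : ℝ)) x := by rw [I1, hsum]
  have hsa : ∑ k, m k = ∫ x in K, (fun x : E d => 1 + ξ x) x := by rw [Ia, hsum]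
  have ex1 : ∀ t ∈ Icc (0:ℝ) 1, ∃ c, IsMin K (fun _ => 1) (Yt Y₀ Y₁ t) m c := fun t ht =>
    let ⟨c, _, h⟩ := exists_min hK hKm c1 p1 hm0 hs1 hRk0 hRk (Yt_norm hY₀ hY₁ ht) hRy0 hmmin hmm
    ⟨c, h⟩
  have exa : ∀ t ∈ Icc (0:ℝ) 1, ∃ c, IsMin K (fun x => 1 + ξ x) (Yt Y₀ Y₁ t) m c := fun t ht =>
    let ⟨c, _, h⟩ := exists_min hK hKm ca pa hm0 hsa hRk0 hRk (Yt_norm hY₀ hY₁ ht) hRy0 hmmin hmm
    ⟨c, h⟩
  -- the Lipschitz constant
  obtain ⟨V, hV0, hV⟩ : ∃ V : ℝ, 0 ≤ V ∧ ∀ k, ‖Y₁ k - Y₀ k‖ ≤ V :=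
    ⟨2 * Ry, by positivity, fun k => (norm_sub_le _ _).trans (by linarith [hY₀ k, hY₁ k])⟩
  have hVol0 : 0 ≤ volume.real K := measureReal_nonneg
  set L : ℝ := Rk * V * volume.real K with hL
  have hL0 : 0 ≤ L := by positivity
  have hsites : ∀ t t' : ℝ, ∀ k, ‖Yt Y₀ Y₁ t k - Yt Y₀ Y₁ t' k‖ ≤ V * |t - t'| := by
    intro t t' k
    have e : Yt Y₀ Y₁ t k - Yt Y₀ Y₁ t' k = (t - t') • (Y₁ k - Y₀ k) := by
      simp only [Yt, sub_smul]
      abel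
    rw [e, norm_smul, Real.norm_eq_abs, mul_comm]
    exact mul_le_mul_of_nonneg_right (hV k) (abs_nonneg _)
  have hf : ∀ t ∈ Icc (0:ℝ) 1, ∀ t' ∈ Icc (0:ℝ) 1,
      val K (fun _ => 1) (Yt Y₀ Y₁ t) m ≤ val K (fun _ => 1) (Yt Y₀ Y₁ t') m + L * |t - t'| := by
    intro t ht t' ht'
    obtain ⟨c, hc⟩ := ex1 t ht
    obtain ⟨c', hc'⟩ := ex1 t' ht'
    have := val_sites_lip hK hKm c1 p1 hRk (hsites t t') hc hc'
    rw [I1] at this
    rw [hL]
    refine this.trans (le_of_eq ?_)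
    ring
  have hg : ∀ t ∈ Icc (0:ℝ) 1, ∀ t' ∈ Icc (0:ℝ) 1,
      val K (fun x => 1 + ξ x) (Yt Y₀ Y₁ t) m ≤
        val K (fun x => 1 + ξ x) (Yt Y₀ Y₁ t') m + L * |t - t'| := by
    intro t ht t' ht'
    obtain ⟨c, hc⟩ := exa t ht
    obtain ⟨c', hc'⟩ := exa t' ht'
    have := val_sites_lip hK hKm ca pa hRk (hsites t t') hc hc'
    rw [Ia] at this
    rw [hL]
    refine this.trans (le_of_eq ?_)
    ring
  have hPb : 0 ≤ (l / 2) * ∑ k, m k * ‖Y₁ k - Y₀ k‖ ^ 2 +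
      (196608 * D ^ 2 / (2 * l)) * ∫ x in K, ξ x ^ 2 := by
    have a1 : 0 ≤ ∑ k, m k * ‖Y₁ k - Y₀ k‖ ^ 2 :=
      Finset.sum_nonneg (fun k _ => mul_nonneg (hm0 k) (sq_nonneg _))
    have a2 : 0 ≤ ∫ x in K, ξ x ^ 2 := integral_nonneg (fun x => sq_nonneg _)
    positivity
  have main := path_bound (f := fun t => val K (fun _ => 1) (Yt Y₀ Y₁ t) m)
    (g := fun t => val K (fun x => 1 + ξ x) (Yt Y₀ Y₁ t) m) (bad_times_finite hinj) hL0 hPb hf hg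
    (by
      intro τ hτ hτB
      have hτI : τ ∈ Icc (0:ℝ) 1 := ⟨hτ.1.le, hτ.2.le⟩
      have hτinj : Function.Injective (Yt Y₀ Y₁ τ) := by
        by_contra h
        exact hτB h
      obtain ⟨c, hc⟩ := ex1 τ hτI
      obtain ⟨ĉ, hĉ⟩ := exa τ hτI
      have oc := opt_of_min hK hKm c1 p1 hs1 hτinj hc
      have oĉ := opt_of_min hK hKm ca pa hsa hτinj hĉ
      refine ⟨∑ k, ∫ x in K ∩ scell (Yt Y₀ Y₁ τ) c k, inner ℝ x (Y₁ k - Y₀ k) * 1,
        ∑ k, ∫ x in K ∩ scell (Yt Y₀ Y₁ τ) ĉ k, inner ℝ x (Y₁ k - Y₀ k) * (1 + ξ x), ?_, ?_, ?_⟩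
      · intro t ht
        obtain ⟨c', hc'⟩ := ex1 t ht
        exact subgrad_val hK hKm c1 p1 hτinj hc hc' oc
      · intro t ht
        obtain ⟨c', hc'⟩ := exa t ht
        exact subgrad_val hK hKm ca pa hτinj hĉ hc' oĉ
      · have hb := bary_core hK hKm hconv hD hball hτinj hm1 hξc hξ oc oĉ
          (fun k => Y₁ k - Y₀ k) hl
        rwa [Finset.sum_sub_distrib] at hb)
  simp only [Yt_zero, Yt_one] at main
  exact main

end mixed

end Vale.Agent.P074
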