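import Vale.Agent.Lib.P074.Swap

open MeasureTheory Set Filter Topology Metric

namespace Vale.Agent.P074

set_option linter.unusedSectionVars false

variable {d : ℕ}

/-- Good points of a map: interior density points for all basic open sets around the value. -/
def GoodPt (K : Set (E d)) (T : E d → E d) (R : ℝ) (x : E d) : Prop :=
  x ∈ interior K ∧ ‖T x‖ ≤ R ∧
    ∀ B ∈ TopologicalSpace.countableBasis (E d), T x ∈ B → DensAt (T ⁻¹' B) x

lemma ae_goodPt {K : Set (E d)} (hKm : MeasurableSet K) (hKc : Convex ℝ K) {T : E d → E d} (hT : Measurable T) {R : ℝ}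
    (hR : ∀ᵐ x ∂(volume.restrict K), ‖T x‖ ≤ R) :
    ∀ᵐ x ∂(volume.restrict K), GoodPt K T R x := by
  have hcount := TopologicalSpace.countable_countableBasis (E d)
  have h1 : ∀ᵐ x ∂(volume : Measure (E d)), ∀ B ∈ TopologicalSpace.countableBasis (E d),
      T x ∈ B → DensAt (T ⁻¹' B) x := by
    rw [ae_ball_iff hcount]
    intro B hB
    have hBm : MeasurableSet (T ⁻¹' B) :=
      hT ((TopologicalSpace.isOpen_of_mem_countableBasis hB).measurableSet)
    filter_upwards [Besicovitch.ae_tendsto_measure_inter_div_of_measurableSet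
      (volume : Measure (E d)) hBm] with x hx hxB
    have : (T ⁻¹' B).indicator (1 : E d → ENNReal) x = 1 := by
      rw [indicator_of_mem (show x ∈ T ⁻¹' B from hxB)]
      rfl
    rw [this] at hx
    exact hx
  have h2 : ∀ᵐ x ∂(volume.restrict K), x ∈ interior K := by
    have hnull : volume (frontier K) = 0 := hKc.addHaar_frontier (μ := volume)
    filter_upwards [ae_restrict_mem hKm, ae_restrict_of_ae (measure_eq_zero_iff_ae_notMem.mp hnull)]
      with x hxK hxf
    by_contra hcon
    exact hxf ⟨subset_closure hxK, hcon⟩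
  filter_upwards [ae_restrict_of_ae h1, h2, hR] with x a b c
  exact ⟨b, c, a⟩


section perm

variable {K : Set (E d)} {μ : Measure (E d)} {T : E d → E d} {R : ℝ}
  {ι : Type} [Fintype ι] [DecidableEq ι]

lemma perm_ineq (hK : MeasurableSet K) (hK0 : volume K ≠ 0) (hKt : volume K ≠ ⊤)
    (hT : IsOptimalMap K μ T) (hc : cost K T ≠ ⊤) (p : ι → E d) (hp : Function.Injective p)
    (hgood : ∀ i, GoodPt K T R (p i)) (τ : Equiv.Perm ι) :
    ∑ i, ‖p i - T (p i)‖ ^ 2 ≤ ∑ i, ‖p i - T (p (τ i))‖ ^ 2 := by
  classical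
  apply le_of_forall_pos_le_add
  intro ε hε
  set n : ℝ := (Fintype.card ι : ℝ) with hn
  have hn0 : 0 ≤ n := Nat.cast_nonneg _
  set ε' : ℝ := ε / (2 * n + 1) with hε'
  have hε'0 : 0 < ε' := by positivity
  have h2n : 2 * n * ε' ≤ ε := by
    rw [hε', mul_div_assoc']
    rw [div_le_iff₀ (by positivity)]
    nlinarith
  -- continuity
  have hcont : Continuous (fun q : E d × E d => ‖q.1 - q.2‖ ^ 2) := by fun_prop
  have hδ : ∀ᶠ δ in 𝓝[>] (0:ℝ), ∀ i j, ∀ x y : E d, ‖x - p i‖ < δ → ‖y - T (p j)‖ < δ →
      |‖x - y‖ ^ 2 - ‖p i - T (p j)‖ ^ 2| < ε' := by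
    refine eventually_all.mpr (fun i => eventually_all.mpr (fun j => ?_))
    obtain ⟨δ0, hδ0, hδ1⟩ := Metric.continuous_iff.mp hcont (p i, T (p j)) ε' hε'0
    filter_upwards [Ioo_mem_nhdsGT hδ0] with δ hδ x y hx hy
    have := hδ1 (x, y) (by
      rw [Prod.dist_eq, max_lt_iff]
      constructor
      · simpa [dist_eq_norm] using hx.trans hδ.2
      · simpa [dist_eq_norm] using hy.trans hδ.2)
    simpa [Real.dist_eq] using this
  obtain ⟨δ, hδ1, hδ0⟩ := (hδ.and (self_mem_nhdsWithin (s := Ioi (0:ℝ)))).exists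
  have hδ0' : 0 < δ := hδ0
  -- basic sets
  have hB : ∀ i, ∃ B ∈ TopologicalSpace.countableBasis (E d), T (p i) ∈ B ∧ B ⊆ ball (T (p i)) δ :=
    fun i => (TopologicalSpace.isBasis_countableBasis (E d)).exists_subset_of_mem_open
      (mem_ball_self hδ0') isOpen_ball
  choose B hBb hBm hBs using hB
  have hSm : ∀ i, MeasurableSet (T ⁻¹' B i) := fun i =>
    hT.1 ((TopologicalSpace.isOpen_of_mem_countableBasis (hBb i)).measurableSet)
  have hoff := eventually_offsets p (fun i => T ⁻¹' B i) hSm
    (fun i => (hgood i).2.2 (B i) (hBb i) (hBm i))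
  -- smallness of r
  have hin : ∀ᶠ r in 𝓝[>] (0:ℝ), ∀ i, closedBall (p i) r ⊆ K := by
    refine eventually_all.mpr (fun i => ?_)
    have hmem : K ∈ 𝓝 (p i) := mem_interior_iff_mem_nhds.mp (hgood i).1
    obtain ⟨r0, hr0, hr1⟩ := Metric.nhds_basis_closedBall.mem_iff.mp hmem
    filter_upwards [Ioo_mem_nhdsGT hr0] with r hr
    exact (closedBall_subset_closedBall hr.2.le).trans hr1
  have hsep : ∀ᶠ r in 𝓝[>] (0:ℝ), ∀ i j, i ≠ j → 2 * r < dist (p i) (p j) := by
    refine eventually_all.mpr (fun i => eventually_all.mpr (fun j => ?_))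
    by_cases hij : i = j
    · exact Eventually.of_forall (fun r h => absurd hij h)
    · have hpos : 0 < dist (p i) (p j) := dist_pos.mpr (fun h => hij (hp h))
      filter_upwards [Ioo_mem_nhdsGT (half_pos hpos)] with r hr _
      have := hr.2
      linarith
  have hrδ : ∀ᶠ r in 𝓝[>] (0:ℝ), r < δ := by
    filter_upwards [Ioo_mem_nhdsGT hδ0'] with r hr using hr.2
  obtain ⟨r, ⟨⟨⟨hr1, hr2⟩, hr3⟩, hr4⟩, hr5⟩ :=
    (((hoff.and hin).and hsep).and hrδ |>.and (self_mem_nhdsWithin (s := Ioi (0:ℝ)))).exists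
  have hr5' : 0 < r := hr5
  set W : Set (E d) := {w : E d | w ∈ closedBall (0 : E d) r ∧ ∀ i, p i + w ∈ T ⁻¹' B i} with hW
  have hWball : ∀ w ∈ W, ‖w‖ ≤ r := by
    intro w hw
    simpa [dist_eq_norm] using hw.1
  have hWm : MeasurableSet W := by
    have : W = closedBall (0 : E d) r ∩ ⋂ i, (fun w => p i + w) ⁻¹' (T ⁻¹' B i) := by
      ext w
      simp [hW]
    rw [this]
    exact isClosed_closedBall.measurableSet.inter
      (MeasurableSet.iInter (fun i => (measurable_const.add measurable_id) (hSm i)))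
  have hWt : volume W ≠ ⊤ := by
    refine ne_top_of_le_ne_top (measure_closedBall_lt_top (μ := volume) (x := (0 : E d)) (r := r)).ne ?_
    exact measure_mono (fun w hw => hw.1)
  have hsub : ∀ i, ∀ w ∈ W, p i + w ∈ K := by
    intro i w hw
    apply hr2 i
    rw [mem_closedBall, dist_eq_norm]
    simpa using hWball w hw
  have hdisj : ∀ i j, i ≠ j → ∀ w ∈ W, ∀ w' ∈ W, p i + w ≠ p j + w' := by
    intro i j hij w hw w' hw' heq
    have h1 := hr3 i j hij
    have h2 : dist (p i) (p j) = ‖w' - w‖ := by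
      rw [dist_eq_norm]
      congr 1
      have : p i = p j + w' - w := by rw [← heq]; abel
      rw [this]
      abel
    have h3 : ‖w' - w‖ ≤ ‖w'‖ + ‖w‖ := norm_sub_le _ _
    have h4 := hWball w hw
    have h5 := hWball w' hw'
    linarith
  have hcore := swap_core hK hK0 hKt hT hc p τ hWm hr1.ne' hWt hsub hdisj
    (fun i => ‖p i - T (p i)‖ ^ 2) (fun i => ‖p i - T (p (τ i))‖ ^ 2)
    (fun i => by positivity) (fun i => by positivity) hε'0.le
    (by
      intro i w hw
      have hw2 := hWball w hw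
      have h1 : ‖(p i + w) - p i‖ < δ := by simpa using lt_of_le_of_lt hw2 hr4
      have h2 : ‖T (p i + w) - T (p i)‖ < δ := by
        have : T (p i + w) ∈ ball (T (p i)) δ := hBs i (hw.2 i)
        simpa [dist_eq_norm] using this
      have := hδ1 i i _ _ h1 h2
      have := (abs_lt.mp this).1
      linarith)
    (by
      intro i w hw
      have hw2 := hWball w hw
      have h1 : ‖(p i + w) - p i‖ < δ := by simpa using lt_of_le_of_lt hw2 hr4
      have h2 : ‖T (p (τ i) + w) - T (p (τ i))‖ < δ := by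
        have : T (p (τ i) + w) ∈ ball (T (p (τ i))) δ := hBs (τ i) (hw.2 (τ i))
        simpa [dist_eq_norm] using this
      have := hδ1 i (τ i) _ _ h1 h2
      have := (abs_lt.mp this).2
      linarith)
  have : 2 * (Fintype.card ι : ℝ) * ε' ≤ ε := h2n
  linarith

/-- Inner product form of the permutation inequality. -/
lemma perm_inner (hK : MeasurableSet K) (hK0 : volume K ≠ 0) (hKt : volume K ≠ ⊤)
    (hT : IsOptimalMap K μ T) (hc : cost K T ≠ ⊤) (p : ι → E d) (hp : Function.Injective p)
    (hgood : ∀ i, GoodPt K T R (p i)) (τ : Equiv.Perm ι) :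
    ∑ i, inner ℝ (p (τ i)) (T (p i)) ≤ ∑ i, inner ℝ (p i) (T (p i)) := by
  have h := perm_ineq hK hK0 hKt hT hc p hp hgood τ⁻¹
  have e1 : ∑ i, ‖p i - T (p i)‖ ^ 2 =
      ∑ i, ‖p i‖ ^ 2 - 2 * ∑ i, inner ℝ (p i) (T (p i)) + ∑ i, ‖T (p i)‖ ^ 2 := by
    rw [Finset.mul_sum, ← Finset.sum_sub_distrib, ← Finset.sum_add_distrib]
    exact Finset.sum_congr rfl (fun i _ => norm_sub_sq_real _ _)
  have e2 : ∑ i, ‖p i - T (p (τ⁻¹ i))‖ ^ 2 =
      ∑ i, ‖p i‖ ^ 2 - 2 * ∑ i, inner ℝ (p (τ i)) (T (p i)) + ∑ i, ‖T (p i)‖ ^ 2 := by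
    rw [← Equiv.sum_comp τ (fun i => ‖p i - T (p (τ⁻¹ i))‖ ^ 2)]
    rw [← Equiv.sum_comp τ (fun i => ‖p i‖ ^ 2)]
    rw [Finset.mul_sum, ← Finset.sum_sub_distrib, ← Finset.sum_add_distrib]
    refine Finset.sum_congr rfl (fun i _ => ?_)
    have e3 : τ⁻¹ (τ i) = i := by simp
    rw [e3]
    exact norm_sub_sq_real _ _
  rw [e1, e2] at h
  linarith

/-- Closed chains of good points have nonpositive total. -/
lemma chain_closed (hK : MeasurableSet K) (hK0 : volume K ≠ 0) (hKt : volume K ≠ ⊤)
    (hT : IsOptimalMap K μ T) (hc : cost K T ≠ ⊤) :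
    ∀ (n : ℕ) (q : ℕ → E d), (∀ k ≤ n, GoodPt K T R (q k)) → q (n + 1) = q 0 →
      ∑ k ∈ Finset.range (n + 1), inner ℝ (q (k + 1) - q k) (T (q k)) ≤ 0 := by
  intro n
  induction n using Nat.strong_induction_on with
  | _ n ih =>
    intro q hq hcl
    by_cases hinj : ∀ i j, i ≤ n → j ≤ n → q i = q j → i = j
    · -- injective case
      have hp : Function.Injective (fun i : Fin (n + 1) => q i) := by
        intro i j hij
        exact Fin.ext (hinj i j (Nat.lt_succ_iff.mp i.2) (Nat.lt_succ_iff.mp j.2) hij)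
      have hstep : ∀ i : Fin (n + 1), q ((finRotate (n + 1) i : Fin (n + 1)) : ℕ) = q ((i : ℕ) + 1) := by
        intro i
        rw [coe_finRotate]
        split_ifs with h
        · rw [h]
          simp [hcl]
        · rfl
      have h := perm_inner hK hK0 hKt hT hc (fun i : Fin (n + 1) => q i) hp
        (fun i => hq i (Nat.lt_succ_iff.mp i.2)) (finRotate (n + 1))
      simp only [hstep] at h
      have e1 := Fin.sum_univ_eq_sum_range (fun k => inner ℝ (q (k + 1)) (T (q k))) (n + 1)
      have e2 := Fin.sum_univ_eq_sum_range (fun k => inner ℝ (q k) (T (q k))) (n + 1)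
      rw [e1, e2] at h
      have e3 : ∑ k ∈ Finset.range (n + 1), inner ℝ (q (k + 1) - q k) (T (q k)) =
          ∑ k ∈ Finset.range (n + 1), inner ℝ (q (k + 1)) (T (q k)) -
            ∑ k ∈ Finset.range (n + 1), inner ℝ (q k) (T (q k)) := by
        rw [← Finset.sum_sub_distrib]
        exact Finset.sum_congr rfl (fun k _ => inner_sub_left _ _ _)
      rw [e3]
      linarith
    · -- a repeated point: split the chain
      have hex : ∃ a l, 0 < l ∧ a + l ≤ n ∧ q (a + l) = q a := by
        by_contra hne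
        apply hinj
        intro i j hi hj hij
        by_contra hne2
        rcases lt_or_gt_of_ne hne2 with hlt | hlt
        · exact hne ⟨i, j - i, by omega, by omega, by
            rw [Nat.add_sub_cancel' hlt.le]; exact hij.symm⟩
        · exact hne ⟨j, i - j, by omega, by omega, by
            rw [Nat.add_sub_cancel' hlt.le]; exact hij⟩
      obtain ⟨a, l, hl, hal, hql⟩ := hex
      obtain ⟨m, hm⟩ : ∃ m, n + 1 = a + l + m := ⟨n + 1 - (a + l), by omega⟩
      have hm1 : 1 ≤ m := by omega
      set g : ℕ → ℝ := fun k => inner ℝ (q (k + 1) - q k) (T (q k)) with hg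
      -- first sub-chain
      have h1 : ∑ x ∈ Finset.range l, g (a + x) ≤ 0 := by
        obtain ⟨l', rfl⟩ : ∃ l', l = l' + 1 := ⟨l - 1, by omega⟩
        have := ih l' (by omega) (fun k => q (a + k))
          (fun k hk => hq (a + k) (by omega)) (by simpa using hql)
        refine le_trans (le_of_eq ?_) this
        refine Finset.sum_congr rfl (fun x _ => ?_)
        simp only [hg]
        rw [add_assoc]
      -- second sub-chain
      set q2 : ℕ → E d := fun k => if k ≤ a then q k else q (k + l) with hq2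
      have h2 : ∑ x ∈ Finset.range (a + m), inner ℝ (q2 (x + 1) - q2 x) (T (q2 x)) ≤ 0 := by
        obtain ⟨m', rfl⟩ : ∃ m', m = m' + 1 := ⟨m - 1, by omega⟩
        have hn2 : a + m' < n := by omega
        have := ih (a + m') hn2 q2
          (by
            intro k hk
            simp only [hq2]
            split_ifs with hka
            · exact hq k (by omega)
            · exact hq (k + l) (by omega))
          (by
            simp only [hq2]
            rw [if_neg (by omega), if_pos (by omega)]
            have : a + m' + 1 + l = n + 1 := by omega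
            rw [this, hcl])
        exact this
      have hsplit2 : ∑ x ∈ Finset.range (a + m), inner ℝ (q2 (x + 1) - q2 x) (T (q2 x)) =
          ∑ x ∈ Finset.range a, g x + ∑ x ∈ Finset.range m, g (a + l + x) := by
        rw [Finset.sum_range_add]
        congr 1
        · refine Finset.sum_congr rfl (fun x hx => ?_)
          have hx' : x < a := Finset.mem_range.mp hx
          simp only [hq2, hg]
          rw [if_pos (by omega), if_pos (by omega)]
        · refine Finset.sum_congr rfl (fun x _ => ?_)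
          simp only [hq2, hg]
          by_cases hx0 : x = 0
          · subst hx0
            simp only [add_zero]
            rw [if_neg (by omega), if_pos le_rfl, ← hql]
            congr 3
            omega
          · rw [if_neg (by omega), if_neg (by omega)]
            have e1 : a + x + 1 + l = a + l + x + 1 := by omega
            have e2 : a + x + l = a + l + x := by omega
            rw [e1, e2]
      have hsplit : ∑ k ∈ Finset.range (n + 1), g k =
          ∑ x ∈ Finset.range a, g x + ∑ x ∈ Finset.range l, g (a + x) +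
            ∑ x ∈ Finset.range m, g (a + l + x) := by
        rw [hm, Finset.sum_range_add, Finset.sum_range_add]
      rw [hsplit]
      rw [hsplit2] at h2
      linarith

end perm

section pot

variable {K : Set (E d)} {μ : Measure (E d)} {T : E d → E d} {R : ℝ}

/-- Value of a chain. -/
noncomputable def chainVal (T : E d → E d) (n : ℕ) (q : ℕ → E d) (x : E d) : ℝ :=
  ∑ k ∈ Finset.range n, inner ℝ (q (k + 1) - q k) (T (q k)) + inner ℝ (x - q n) (T (q n))

/-- Admissible chains from a base point. -/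
abbrev ChainT (K : Set (E d)) (T : E d → E d) (R : ℝ) (x0 : E d) : Type :=
  {c : ℕ × (ℕ → E d) // c.2 0 = x0 ∧ ∀ k ≤ c.1, GoodPt K T R (c.2 k)}

/-- The Rockafellar potential. -/
noncomputable def rockPot (K : Set (E d)) (T : E d → E d) (R : ℝ) (x0 x : E d) : ℝ :=
  ⨆ c : ChainT K T R x0, chainVal T c.1.1 c.1.2 x

lemma chainVal_le (hK : MeasurableSet K) (hK0 : volume K ≠ 0) (hKt : volume K ≠ ⊤)
    (hT : IsOptimalMap K μ T) (hc : cost K T ≠ ⊤) {x0 : E d}
    (c : ChainT K T R x0) (x : E d) : chainVal T c.1.1 c.1.2 x ≤ R * ‖x - x0‖ := by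
  obtain ⟨⟨n, q⟩, hq0, hq⟩ := c
  simp only at hq0 hq ⊢
  set q' : ℕ → E d := Function.update q (n + 1) x0 with hq'
  have h := chain_closed hK hK0 hKt hT hc n q'
    (by
      intro k hk
      have : q' k = q k := Function.update_of_ne (by omega) _ _
      rw [this]
      exact hq k hk)
    (by
      have e0 : q' 0 = q 0 := Function.update_of_ne (by omega) _ _
      rw [e0, hq0, hq']
      exact Function.update_self _ _ _)
  rw [Finset.sum_range_succ] at h
  have e1 : q' n = q n := Function.update_of_ne (by omega) _ _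
  have e2 : q' (n + 1) = x0 := Function.update_self _ _ _
  have e3 : ∑ k ∈ Finset.range n, inner ℝ (q' (k + 1) - q' k) (T (q' k)) =
      ∑ k ∈ Finset.range n, inner ℝ (q (k + 1) - q k) (T (q k)) := by
    refine Finset.sum_congr rfl (fun k hk => ?_)
    have hk' := Finset.mem_range.mp hk
    have a1 : q' k = q k := Function.update_of_ne (by omega) _ _
    have a2 : q' (k + 1) = q (k + 1) := Function.update_of_ne (by omega) _ _
    rw [a1, a2]
  rw [e1, e2, e3] at h
  unfold chainVal
  have hnorm : ‖T (q n)‖ ≤ R := (hq n le_rfl).2.1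
  have e4 : inner ℝ (x - q n) (T (q n)) = inner ℝ (x0 - q n) (T (q n)) + inner ℝ (x - x0) (T (q n)) := by
    rw [← inner_add_left]
    congr 1
    abel
  have e5 : inner ℝ (x - x0) (T (q n)) ≤ R * ‖x - x0‖ := by
    calc inner ℝ (x - x0) (T (q n)) ≤ ‖x - x0‖ * ‖T (q n)‖ := real_inner_le_norm _ _
      _ ≤ ‖x - x0‖ * R := by gcongr
      _ = R * ‖x - x0‖ := by ring
  linarith

lemma rockPot_bdd (hK : MeasurableSet K) (hK0 : volume K ≠ 0) (hKt : volume K ≠ ⊤)
    (hT : IsOptimalMap K μ T) (hc : cost K T ≠ ⊤) (x0 x : E d) :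
    BddAbove (Set.range (fun c : ChainT K T R x0 => chainVal T c.1.1 c.1.2 x)) := by
  refine ⟨R * ‖x - x0‖, ?_⟩
  rintro _ ⟨c, rfl⟩
  exact chainVal_le hK hK0 hKt hT hc c x

/-- Existence of a convex Lipschitz potential with subgradient `T` at good points. -/
theorem exists_potential (hK : MeasurableSet K) (hK0 : volume K ≠ 0) (hKt : volume K ≠ ⊤)
    (hT : IsOptimalMap K μ T) (hc : cost K T ≠ ⊤) (hR : 0 ≤ R) {x0 : E d}
    (hx0 : GoodPt K T R x0) :
    ∃ φ : E d → ℝ, (∀ x y, φ x ≤ φ y + R * ‖x - y‖) ∧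
      (∀ x y : E d, ∀ t : ℝ, 0 ≤ t → t ≤ 1 →
        φ ((1 - t) • x + t • y) ≤ (1 - t) * φ x + t * φ y) ∧
      (∀ x, GoodPt K T R x → ∀ y, φ x + inner ℝ (y - x) (T x) ≤ φ y) := by
  have hbdd := rockPot_bdd (R := R) hK hK0 hKt hT hc x0
  have : Nonempty (ChainT K T R x0) :=
    ⟨⟨(0, fun _ => x0), rfl, fun k _ => by simpa using hx0⟩⟩
  refine ⟨rockPot K T R x0, ?_, ?_, ?_⟩
  · intro x y
    refine ciSup_le (fun c => ?_)
    have h1 : chainVal T c.1.1 c.1.2 x = chainVal T c.1.1 c.1.2 y + inner ℝ (x - y) (T (c.1.2 c.1.1)) := by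
      unfold chainVal
      rw [add_assoc, ← inner_add_left]
      congr 2
      abel
    have h2 : inner ℝ (x - y) (T (c.1.2 c.1.1)) ≤ R * ‖x - y‖ := by
      calc inner ℝ (x - y) (T (c.1.2 c.1.1)) ≤ ‖x - y‖ * ‖T (c.1.2 c.1.1)‖ := real_inner_le_norm _ _
        _ ≤ ‖x - y‖ * R := by
            gcongr
            exact (c.2.2 _ le_rfl).2.1
        _ = R * ‖x - y‖ := by ring
    have h3 : chainVal T c.1.1 c.1.2 y ≤ rockPot K T R x0 y := le_ciSup (hbdd y) c
    linarith
  · intro x y t ht0 ht1
    refine ciSup_le (fun c => ?_)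
    have h1 : chainVal T c.1.1 c.1.2 ((1 - t) • x + t • y) =
        (1 - t) * chainVal T c.1.1 c.1.2 x + t * chainVal T c.1.1 c.1.2 y := by
      unfold chainVal
      have e : ((1 - t) • x + t • y) - c.1.2 c.1.1 =
          (1 - t) • (x - c.1.2 c.1.1) + t • (y - c.1.2 c.1.1) := by
        simp only [smul_sub, sub_smul, one_smul]
        abel
      rw [e, inner_add_left, inner_smul_left, inner_smul_left]
      simp only [conj_trivial]
      ring
    have h2 : chainVal T c.1.1 c.1.2 x ≤ rockPot K T R x0 x := le_ciSup (hbdd x) c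
    have h3 : chainVal T c.1.1 c.1.2 y ≤ rockPot K T R x0 y := le_ciSup (hbdd y) c
    rw [h1]
    have ht2 : 0 ≤ 1 - t := by linarith
    have h4 := mul_le_mul_of_nonneg_left h2 ht2
    have h5 := mul_le_mul_of_nonneg_left h3 ht0
    linarith
  · intro x hx y
    have hle : rockPot K T R x0 x ≤ rockPot K T R x0 y - inner ℝ (y - x) (T x) := by
      refine ciSup_le (fun c => ?_)
      obtain ⟨⟨n, q⟩, hq0, hq⟩ := c
      simp only at hq0 hq ⊢
      set q' : ℕ → E d := Function.update q (n + 1) x with hq'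
      have hchain : (q' 0 = x0) ∧ ∀ k ≤ n + 1, GoodPt K T R (q' k) := by
        constructor
        · have e0 : q' 0 = q 0 := Function.update_of_ne (by omega) _ _
          rw [e0, hq0]
        · intro k hk
          by_cases hkn : k = n + 1
          · subst hkn
            have : q' (n + 1) = x := Function.update_self _ _ _
            rw [this]
            exact hx
          · have : q' k = q k := Function.update_of_ne hkn _ _
            rw [this]
            exact hq k (by omega)
      let c' : ChainT K T R x0 := ⟨(n + 1, q'), hchain⟩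
      have h1 := le_ciSup (hbdd y) c'
      have h2 : chainVal T (n + 1) q' y = chainVal T n q x + inner ℝ (y - x) (T x) := by
        unfold chainVal
        rw [Finset.sum_range_succ]
        have e1 : q' n = q n := Function.update_of_ne (by omega) _ _
        have e2 : q' (n + 1) = x := Function.update_self _ _ _
        have e3 : ∑ k ∈ Finset.range n, inner ℝ (q' (k + 1) - q' k) (T (q' k)) =
            ∑ k ∈ Finset.range n, inner ℝ (q (k + 1) - q k) (T (q k)) := by
          refine Finset.sum_congr rfl (fun k hk => ?_)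
          have hk' := Finset.mem_range.mp hk
          have a1 : q' k = q k := Function.update_of_ne (by omega) _ _
          have a2 : q' (k + 1) = q (k + 1) := Function.update_of_ne (by omega) _ _
          rw [a1, a2]
        rw [e1, e2, e3]
      have h3 : chainVal T (n + 1) q' y ≤ rockPot K T R x0 y := h1
      linarith
    linarith

end pot

end Vale.Agent.P074
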