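import Vale.Agent.Lib.P074.Cell

open MeasureTheory Set Filter Topology Metric
open scoped ENNReal

namespace Vale.Agent.P074

set_option linter.unusedSectionVars false

variable {d : ℕ} {ι : Type} [Fintype ι] [Nonempty ι]

/-- The power potential of sites `Y` and weights `c`. -/
noncomputable def pot (Y : ι → E d) (c : ι → ℝ) (x : E d) : ℝ :=
  Finset.univ.sup' Finset.univ_nonempty (fun k => inner ℝ x (Y k) - c k)

lemma le_pot (Y : ι → E d) (c : ι → ℝ) (x : E d) (k : ι) : inner ℝ x (Y k) - c k ≤ pot Y c x :=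
  Finset.le_sup' (fun k => inner ℝ x (Y k) - c k) (Finset.mem_univ k)

lemma pot_le {Y : ι → E d} {c : ι → ℝ} {x : E d} {v : ℝ}
    (h : ∀ k, inner ℝ x (Y k) - c k ≤ v) : pot Y c x ≤ v :=
  Finset.sup'_le _ _ (fun k _ => h k)

lemma exists_pot_eq (Y : ι → E d) (c : ι → ℝ) (x : E d) :
    ∃ k, pot Y c x = inner ℝ x (Y k) - c k := by
  obtain ⟨k, _, hk⟩ := Finset.exists_mem_eq_sup' Finset.univ_nonempty
    (fun k => inner ℝ x (Y k) - c k)
  exact ⟨k, hk⟩

lemma pot_continuous (Y : ι → E d) (c : ι → ℝ) : Continuous (pot Y c) := by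
  unfold pot
  apply Continuous.finset_sup'_apply
  intro k _
  fun_prop

lemma pot_sub_le {Y : ι → E d} {c c' : ι → ℝ} {ε : ℝ} (h : ∀ k, c' k - c k ≤ ε) (x : E d) :
    pot Y c x ≤ pot Y c' x + ε := by
  apply pot_le
  intro k
  have := le_pot Y c' x k
  have := h k
  linarith

lemma pot_shift (Y : ι → E d) (c : ι → ℝ) (κ : ℝ) (x : E d) :
    pot Y (fun k => c k + κ) x = pot Y c x - κ := by
  apply le_antisymm
  · apply pot_le
    intro k
    have := le_pot Y c x k
    linarith
  · have : pot Y c x ≤ pot Y (fun k => c k + κ) x + κ := by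
      apply pot_le
      intro k
      have := le_pot Y (fun k => c k + κ) x k
      linarith
    linarith

/-- The open cell of a label. -/
def scell (Y : ι → E d) (c : ι → ℝ) (k : ι) : Set (E d) :=
  {x | ∀ l, l ≠ k → inner ℝ x (Y l) - c l < inner ℝ x (Y k) - c k}

lemma scell_isOpen (Y : ι → E d) (c : ι → ℝ) (k : ι) : IsOpen (scell Y c k) := by
  have e : scell Y c k = ⋂ l, ⋂ (_ : l ≠ k),
      {x | inner ℝ x (Y l) - c l < inner ℝ x (Y k) - c k} := by
    ext x
    simp [scell]
  rw [e]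
  refine isOpen_iInter_of_finite (fun l => isOpen_iInter_of_finite (fun _ => ?_))
  exact isOpen_lt (by fun_prop) (by fun_prop)

lemma scell_measurable (Y : ι → E d) (c : ι → ℝ) (k : ι) : MeasurableSet (scell Y c k) :=
  (scell_isOpen Y c k).measurableSet

lemma scell_disjoint (Y : ι → E d) (c : ι → ℝ) {k l : ι} (h : k ≠ l) :
    Disjoint (scell Y c k) (scell Y c l) := by
  rw [Set.disjoint_left]
  intro x hk hl
  have h1 := hk l h.symm
  have h2 := hl k h
  linarith

lemma pot_of_scell {Y : ι → E d} {c : ι → ℝ} {k : ι} {x : E d} (h : x ∈ scell Y c k) :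
    pot Y c x = inner ℝ x (Y k) - c k := by
  apply le_antisymm _ (le_pot Y c x k)
  apply pot_le
  intro l
  by_cases hl : l = k
  · rw [hl]
  · exact (h l hl).le

/-- Hyperplanes are null. -/
lemma hyperplane_null {v : E d} (hv : v ≠ 0) (β : ℝ) : volume {x : E d | inner ℝ x v = β} = 0 := by
  classical
  set S : Submodule ℝ (E d) := LinearMap.ker (innerₛₗ ℝ v) with hS
  have hS0 : volume (S : Set (E d)) = 0 := by
    apply Measure.addHaar_submodule
    intro h
    have : v ∈ S := by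
      rw [h]
      exact Submodule.mem_top
    rw [hS, LinearMap.mem_ker] at this
    have h2 : inner ℝ v v = 0 := this
    exact hv (inner_self_eq_zero.mp h2)
  set x₀ : E d := (β / ‖v‖ ^ 2) • v with hx₀
  have hnv : ‖v‖ ≠ 0 := norm_ne_zero_iff.mpr hv
  have e : {x : E d | inner ℝ x v = β} = (fun x => x + (-x₀)) ⁻¹' (S : Set (E d)) := by
    ext x
    simp only [mem_ofPred_eq, mem_preimage, SetLike.mem_coe, hS, LinearMap.mem_ker]
    have h1 : (innerₛₗ ℝ v) (x + -x₀) = inner ℝ x v - β := by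
      show inner ℝ v (x + -x₀) = _
      rw [inner_add_right, inner_neg_right, hx₀, inner_smul_right, real_inner_self_eq_norm_sq,
        real_inner_comm]
      field_simp
      ring
    rw [h1, sub_eq_zero]
  rw [e, measure_preimage_add_right]
  exact hS0

/-- Off a null set there are no ties among distinct sites. -/
lemma ae_no_tie {Y : ι → E d} (hY : Function.Injective Y) (c : ι → ℝ) :
    ∀ᵐ x : E d, ∀ k, pot Y c x ≤ inner ℝ x (Y k) - c k → x ∈ scell Y c k := by
  have h : ∀ k l : ι, k ≠ l → ∀ᵐ x : E d, inner ℝ x (Y k - Y l) ≠ c k - c l := by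
    intro k l hkl
    rw [ae_iff]
    have hv : Y k - Y l ≠ 0 := sub_ne_zero.mpr (fun h => hkl (hY h))
    simpa using hyperplane_null hv (c k - c l)
  have h2 : ∀ᵐ x : E d, ∀ k l : ι, k ≠ l → inner ℝ x (Y k - Y l) ≠ c k - c l := by
    rw [ae_all_iff]
    intro k
    rw [ae_all_iff]
    intro l
    by_cases hkl : k = l
    · exact Eventually.of_forall (fun x h => absurd hkl h)
    · filter_upwards [h k l hkl] with x hx _ using hx
  filter_upwards [h2] with x hx k hk l hl
  have h1 := le_pot Y c x l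
  have h3 : inner ℝ x (Y l) - c l ≤ inner ℝ x (Y k) - c k := h1.trans hk
  refine lt_of_le_of_ne h3 (fun heq => hx k l hl.symm ?_)
  rw [inner_sub_right]
  linarith

/-- Almost every point lies in an open cell. -/
lemma ae_mem_scell {Y : ι → E d} (hY : Function.Injective Y) (c : ι → ℝ) :
    ∀ᵐ x : E d, ∃ k, x ∈ scell Y c k := by
  filter_upwards [ae_no_tie hY c] with x hx
  obtain ⟨k, hk⟩ := exists_pot_eq Y c x
  exact ⟨k, hx k hk.le⟩

/-- Sum over a family of disjoint cells. -/
lemma sum_disjoint_cells {K : Set (E d)} {U : ι → Set (E d)} (mU : ∀ k, MeasurableSet (U k))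
    (hU : ∀ k l, k ≠ l → Disjoint (U k) (U l)) {f : E d → ℝ}
    (hf : IntegrableOn f K volume) (hsub : ∀ k, U k ⊆ K) :
    ∑ k, ∫ x in U k, f x = ∫ x in ⋃ k, U k, f x := by
  classical
  have : ⋃ k, U k = ⋃ k ∈ (Finset.univ : Finset ι), U k := by simp
  rw [this, integral_biUnion_finset _ (fun k _ => mU k)
    (fun k _ l _ hkl => hU k l hkl) (fun k _ => hf.mono_set (hsub k))]

/-- The integral over `K` is the sum over the open cells, for distinct sites. -/
lemma sum_scell {K : Set (E d)} {Y : ι → E d} (hY : Function.Injective Y) (c : ι → ℝ)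
    {f : E d → ℝ} (hf : IntegrableOn f K volume) (hK : MeasurableSet K) :
    ∑ k, ∫ x in K ∩ scell Y c k, f x = ∫ x in K, f x := by
  have m : ∀ k, MeasurableSet (K ∩ scell Y c k) := fun k => hK.inter (scell_measurable Y c k)
  have d : ∀ k l, k ≠ l → Disjoint (K ∩ scell Y c k) (K ∩ scell Y c l) := fun k l h =>
    (scell_disjoint Y c h).mono inter_subset_right inter_subset_right
  rw [sum_disjoint_cells m d hf (fun k => inter_subset_left)]
  apply setIntegral_congr_set
  have := ae_mem_scell hY c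
  filter_upwards [this] with x hx
  apply propext
  constructor
  · intro h
    obtain ⟨k, hk⟩ := mem_iUnion.mp h
    exact hk.1
  · intro h
    obtain ⟨k, hk⟩ := hx
    exact mem_iUnion.mpr ⟨k, h, hk⟩

/-- The Kantorovich functional. -/
noncomputable def kant (K : Set (E d)) (a : E d → ℝ) (Y : ι → E d) (m c : ι → ℝ) : ℝ :=
  (∫ x in K, pot Y c x * a x) + ∑ k, m k * c k

/-- `c` minimizes the Kantorovich functional. -/
def IsMin (K : Set (E d)) (a : E d → ℝ) (Y : ι → E d) (m c : ι → ℝ) : Prop :=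
  ∀ c', kant K a Y m c ≤ kant K a Y m c'

/-- The cell masses of `c` with density `a` are `m`. -/
def IsOpt (K : Set (E d)) (a : E d → ℝ) (Y : ι → E d) (m c : ι → ℝ) : Prop :=
  ∀ k, ∫ x in K ∩ scell Y c k, a x = m k

section kant

variable {K : Set (E d)} {a : E d → ℝ} {Y : ι → E d} {m : ι → ℝ}

lemma int_pot_mul (hK : IsCompact K) (ha : Continuous a) (Y : ι → E d) (c : ι → ℝ) :
    IntegrableOn (fun x => pot Y c x * a x) K volume :=
  ((pot_continuous Y c).mul ha).continuousOn.integrableOn_compact hK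

lemma int_of_cont (hK : IsCompact K) {f : E d → ℝ} (hf : Continuous f) : IntegrableOn f K volume :=
  hf.continuousOn.integrableOn_compact hK

lemma kant_shift (hK : IsCompact K) (ha : Continuous a) (hm : ∑ k, m k = ∫ x in K, a x)
    (c : ι → ℝ) (κ : ℝ) : kant K a Y m (fun k => c k + κ) = kant K a Y m c := by
  unfold kant
  simp only [pot_shift]
  have e : ∀ x, (pot Y c x - κ) * a x = pot Y c x * a x - κ * a x := fun x => by ring
  simp only [e]
  rw [integral_sub (int_pot_mul hK ha Y c) ((int_of_cont hK ha).const_mul κ), integral_const_mul,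
    ← hm, Finset.mul_sum]
  have : ∑ k, m k * (c k + κ) = ∑ k, m k * c k + ∑ k, κ * m k := by
    rw [← Finset.sum_add_distrib]
    exact Finset.sum_congr rfl (fun k _ => by ring)
  rw [this]
  ring

lemma pot_lower {Rk Ry : ℝ} (hRk : ∀ x ∈ K, ‖x‖ ≤ Rk) (hRy : ∀ k, ‖Y k‖ ≤ Ry)
    {c : ι → ℝ} {k₁ : ι} (hc : c k₁ = 0) {x : E d} (hx : x ∈ K) : -(Rk * Ry) ≤ pot Y c x := by
  have h1 := le_pot Y c x k₁
  rw [hc, sub_zero] at h1
  have h2 : |inner ℝ x (Y k₁)| ≤ ‖x‖ * ‖Y k₁‖ := abs_real_inner_le_norm _ _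
  have h3 : ‖x‖ * ‖Y k₁‖ ≤ Rk * Ry :=
    mul_le_mul (hRk x hx) (hRy k₁) (norm_nonneg _) ((norm_nonneg _).trans (hRk x hx))
  have := (abs_le.mp (h2.trans h3)).1
  linarith

lemma pot_zero_upper {Rk Ry : ℝ} (hRk : ∀ x ∈ K, ‖x‖ ≤ Rk) (hRy : ∀ k, ‖Y k‖ ≤ Ry)
    {x : E d} (hx : x ∈ K) : pot Y (fun _ => 0) x ≤ Rk * Ry := by
  apply pot_le
  intro k
  have h2 : |inner ℝ x (Y k)| ≤ ‖x‖ * ‖Y k‖ := abs_real_inner_le_norm _ _
  have h3 : ‖x‖ * ‖Y k‖ ≤ Rk * Ry :=
    mul_le_mul (hRk x hx) (hRy k) (norm_nonneg _) ((norm_nonneg _).trans (hRk x hx))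
  have := (abs_le.mp (h2.trans h3)).2
  simpa using this

lemma kant_lower (hK : IsCompact K) (hKm : MeasurableSet K) (ha : Continuous a)
    (ha0 : ∀ x ∈ K, 0 ≤ a x) (hm0 : ∀ k, 0 ≤ m k) {Rk Ry : ℝ} (hRk : ∀ x ∈ K, ‖x‖ ≤ Rk)
    (hRy : ∀ k, ‖Y k‖ ≤ Ry) {c : ι → ℝ} {k₁ : ι} (hc : c k₁ = 0)
    (hc0 : ∀ k, 0 ≤ c k) (k₀ : ι) :
    m k₀ * c k₀ - Rk * Ry * ∫ x in K, a x ≤ kant K a Y m c := by
  unfold kant
  have h1 : -(Rk * Ry) * ∫ x in K, a x ≤ ∫ x in K, pot Y c x * a x := by
    rw [← integral_const_mul]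
    apply setIntegral_mono_on ((int_of_cont hK ha).const_mul _) (int_pot_mul hK ha Y c) hKm
    intro x hx
    exact mul_le_mul_of_nonneg_right (pot_lower hRk hRy hc hx) (ha0 x hx)
  have h2 : m k₀ * c k₀ ≤ ∑ k, m k * c k :=
    Finset.single_le_sum (f := fun k => m k * c k) (fun k _ => mul_nonneg (hm0 k) (hc0 k))
      (Finset.mem_univ k₀)
  linarith

lemma kant_zero_upper (hK : IsCompact K) (hKm : MeasurableSet K) (ha : Continuous a)
    (ha0 : ∀ x ∈ K, 0 ≤ a x) {Rk Ry : ℝ} (hRk : ∀ x ∈ K, ‖x‖ ≤ Rk)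
    (hRy : ∀ k, ‖Y k‖ ≤ Ry) : kant K a Y m (fun _ => 0) ≤ Rk * Ry * ∫ x in K, a x := by
  unfold kant
  simp only [mul_zero, Finset.sum_const_zero, add_zero]
  rw [← integral_const_mul]
  apply setIntegral_mono_on (int_pot_mul hK ha Y _) ((int_of_cont hK ha).const_mul _) hKm
  intro x hx
  exact mul_le_mul_of_nonneg_right (pot_zero_upper hRk hRy hx) (ha0 x hx)

lemma kant_lip (hK : IsCompact K) (hKm : MeasurableSet K) (ha : Continuous a)
    (ha0 : ∀ x ∈ K, 0 ≤ a x) (hm0 : ∀ k, 0 ≤ m k) (hm : ∑ k, m k = ∫ x in K, a x)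
    {c c' : ι → ℝ} {ε : ℝ} (h : ∀ k, |c k - c' k| ≤ ε) :
    kant K a Y m c ≤ kant K a Y m c' + 2 * (∫ x in K, a x) * ε := by
  unfold kant
  have h1 : ∫ x in K, pot Y c x * a x ≤ (∫ x in K, pot Y c' x * a x) + ε * ∫ x in K, a x := by
    rw [← integral_const_mul, ← integral_add (int_pot_mul hK ha Y c')
      ((int_of_cont hK ha).const_mul _)]
    apply setIntegral_mono_on (int_pot_mul hK ha Y c)
      ((int_pot_mul hK ha Y c').add ((int_of_cont hK ha).const_mul _)) hKm
    intro x hx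
    have h2 := pot_sub_le (Y := Y) (c := c) (c' := c') (ε := ε)
      (fun k => by
        have := abs_le.mp (h k)
        linarith [this.1]) x
    have h3 := mul_le_mul_of_nonneg_right h2 (ha0 x hx)
    show pot Y c x * a x ≤ pot Y c' x * a x + ε * a x
    linarith
  have h2 : ∑ k, m k * c k ≤ ∑ k, m k * c' k + ε * ∫ x in K, a x := by
    rw [← hm, Finset.mul_sum, ← Finset.sum_add_distrib]
    apply Finset.sum_le_sum
    intro k _
    have := abs_le.mp (h k)
    nlinarith [hm0 k, this.2]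
  linarith

lemma kant_continuous (hK : IsCompact K) (hKm : MeasurableSet K) (ha : Continuous a)
    (ha0 : ∀ x ∈ K, 0 ≤ a x) (hm0 : ∀ k, 0 ≤ m k) (hm : ∑ k, m k = ∫ x in K, a x) :
    Continuous (kant K a Y m) := by
  have hA0 : 0 ≤ ∫ x in K, a x := setIntegral_nonneg hKm ha0
  have : LipschitzWith (Real.toNNReal (2 * ∫ x in K, a x)) (kant K a Y m) := by
    apply LipschitzWith.of_le_add_mul
    intro c c'
    rw [Real.coe_toNNReal _ (by positivity), dist_eq_norm]
    apply kant_lip hK hKm ha ha0 hm0 hm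
    intro k
    have := norm_le_pi_norm (c - c') k
    simpa [Real.norm_eq_abs] using this
  exact this.continuous

/-- Existence of a bounded minimizer of the Kantorovich functional. -/
theorem exists_min (hK : IsCompact K) (hKm : MeasurableSet K) (ha : Continuous a)
    (ha0 : ∀ x ∈ K, 0 ≤ a x) (hm0 : ∀ k, 0 ≤ m k) (hm : ∑ k, m k = ∫ x in K, a x)
    {Rk Ry mmin : ℝ} (hRk0 : 0 ≤ Rk) (hRk : ∀ x ∈ K, ‖x‖ ≤ Rk) (hRy : ∀ k, ‖Y k‖ ≤ Ry)
    (hRy0 : 0 ≤ Ry) (hmmin : 0 < mmin) (hmm : ∀ k, mmin ≤ m k) :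
    ∃ c : ι → ℝ, (∀ k, c k ∈ Icc (0 : ℝ) (2 * (Rk * Ry * ∫ x in K, a x) / mmin)) ∧
      IsMin K a Y m c := by
  have hA0 : 0 ≤ ∫ x in K, a x := setIntegral_nonneg hKm ha0
  set M : ℝ := 2 * (Rk * Ry * ∫ x in K, a x) / mmin with hM
  have hM0 : 0 ≤ M := by positivity
  set S : Set (ι → ℝ) := Set.pi univ (fun _ => Icc (0 : ℝ) M) with hS
  have hSc : IsCompact S := isCompact_univ_pi (fun _ => isCompact_Icc)
  have h0S : (fun _ => 0) ∈ S := fun k _ => ⟨le_rfl, hM0⟩
  obtain ⟨c, hcS, hcmin⟩ := hSc.exists_isMinOn ⟨_, h0S⟩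
    (kant_continuous (Y := Y) hK hKm ha ha0 hm0 hm).continuousOn
  refine ⟨c, fun k => hcS k (mem_univ k), ?_⟩
  intro c'
  -- normalize
  obtain ⟨k₁, _, hk₁⟩ := Finset.exists_mem_eq_inf' Finset.univ_nonempty c'
  set κ : ℝ := Finset.univ.inf' Finset.univ_nonempty c' with hκ
  set c'' : ι → ℝ := fun k => c' k + (-κ) with hc''
  have e : kant K a Y m c'' = kant K a Y m c' := kant_shift hK ha hm c' (-κ)
  rw [← e]
  have hc''0 : ∀ k, 0 ≤ c'' k := by
    intro k
    have : κ ≤ c' k := Finset.inf'_le _ (Finset.mem_univ k)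
    simp only [hc'']
    linarith
  have hc''1 : c'' k₁ = 0 := by
    simp only [hc'']
    rw [hk₁]
    ring
  by_cases hin : c'' ∈ S
  · exact hcmin hin
  · have : ∃ k₀, M < c'' k₀ := by
      by_contra hcon
      push Not at hcon
      exact hin (fun k _ => ⟨hc''0 k, hcon k⟩)
    obtain ⟨k₀, hk₀⟩ := this
    have h1 := kant_lower hK hKm ha ha0 hm0 hRk hRy hc''1 hc''0 k₀
    have h2 : mmin * M ≤ m k₀ * c'' k₀ :=
      mul_le_mul (hmm k₀) hk₀.le hM0 (hmmin.le.trans (hmm k₀))
    have h3 : mmin * M = 2 * (Rk * Ry * ∫ x in K, a x) := by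
      rw [hM]
      field_simp
    have h4 := kant_zero_upper (m := m) hK hKm ha ha0 hRk hRy
    have h5 : kant K a Y m c ≤ kant K a Y m (fun _ => 0) := hcmin h0S
    linarith

lemma min_step (hK : IsCompact K) (hKm : MeasurableSet K) (ha : Continuous a)
    (ha0 : ∀ x ∈ K, 0 ≤ a x) {c : ι → ℝ} (hc : IsMin K a Y m c) (k : ι) {t : ℝ} (ht : 0 < t) :
    m k ≤ ∫ x in K ∩ {x | pot Y c x ≤ inner ℝ x (Y k) - c k + t}, a x := by
  classical
  set S : Set (E d) := {x | pot Y c x ≤ inner ℝ x (Y k) - c k + t} with hS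
  have hSc : IsClosed S := isClosed_le (pot_continuous Y c) (by fun_prop)
  have hSm : MeasurableSet S := hSc.measurableSet
  set c' : ι → ℝ := Function.update c k (c k - t) with hc'
  have hpot : ∀ x, pot Y c' x ≤ pot Y c x + t * S.indicator (fun _ => (1 : ℝ)) x := by
    intro x
    apply pot_le
    intro l
    by_cases hl : l = k
    · subst hl
      have e : c' l = c l - t := by rw [hc', Function.update_self]
      rw [e]
      by_cases hx : x ∈ S
      · rw [indicator_of_mem hx, mul_one]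
        have := le_pot Y c x l
        linarith
      · rw [indicator_of_notMem hx, mul_zero, add_zero]
        have : inner ℝ x (Y l) - c l + t < pot Y c x := not_le.mp hx
        linarith
    · have e : c' l = c l := by rw [hc', Function.update_of_ne hl]
      rw [e]
      have h1 := le_pot Y c x l
      have h2 : 0 ≤ t * S.indicator (fun _ => (1 : ℝ)) x := by
        apply mul_nonneg ht.le
        exact indicator_nonneg (fun _ _ => zero_le_one) x
      linarith
  have hsum : ∑ l, m l * c' l = ∑ l, m l * c l - m k * t := by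
    have : ∀ l, m l * c' l = m l * c l - (if l = k then m k * t else 0) := by
      intro l
      by_cases hl : l = k
      · subst hl
        rw [hc', Function.update_self, if_pos rfl]
        ring
      · rw [hc', Function.update_of_ne hl, if_neg hl]
        ring
    simp only [this]
    rw [Finset.sum_sub_distrib, Finset.sum_ite_eq' Finset.univ k]
    simp
  have i1 : IntegrableOn (fun x => S.indicator a x) K volume :=
    (int_of_cont hK ha).indicator hSm
  have i2 : IntegrableOn (fun x => pot Y c x * a x + t * S.indicator a x) K volume :=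
    (int_pot_mul hK ha Y c).add (i1.const_mul t)
  have hint : ∫ x in K, pot Y c' x * a x ≤
      (∫ x in K, pot Y c x * a x) + t * ∫ x in K ∩ S, a x := by
    rw [← setIntegral_indicator hSm, ← integral_const_mul,
      ← integral_add (int_pot_mul hK ha Y c) (i1.const_mul t)]
    apply setIntegral_mono_on (int_pot_mul hK ha Y c') i2 hKm
    intro x hx
    have h1 := mul_le_mul_of_nonneg_right (hpot x) (ha0 x hx)
    refine h1.trans (le_of_eq ?_)
    by_cases hxS : x ∈ S
    · rw [indicator_of_mem hxS, indicator_of_mem hxS]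
      ring
    · rw [indicator_of_notMem hxS, indicator_of_notMem hxS]
      ring
  have hmin := hc c'
  unfold kant at hmin
  rw [hsum] at hmin
  have h5 : t * m k ≤ t * ∫ x in K ∩ S, a x := by linarith
  exact le_of_mul_le_mul_left h5 ht

/-- First order conditions at a minimizer, for distinct sites. -/
theorem opt_of_min (hK : IsCompact K) (hKm : MeasurableSet K) (ha : Continuous a)
    (ha0 : ∀ x ∈ K, 0 ≤ a x) (hm : ∑ k, m k = ∫ x in K, a x) (hY : Function.Injective Y)
    {c : ι → ℝ} (hc : IsMin K a Y m c) : IsOpt K a Y m c := by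
  have hia := int_of_cont hK ha
  have step : ∀ k, m k ≤ ∫ x in K ∩ scell Y c k, a x := by
    intro k
    set s : ℕ → Set (E d) := fun n =>
      K ∩ {x | pot Y c x ≤ inner ℝ x (Y k) - c k + 1 / ((n : ℝ) + 1)} with hs
    have hsm : ∀ n, MeasurableSet (s n) := fun n =>
      hKm.inter (isClosed_le (pot_continuous Y c) (by fun_prop)).measurableSet
    have hanti : Antitone s := by
      intro n n' hnn x hx
      refine ⟨hx.1, ?_⟩
      have h1 : pot Y c x ≤ inner ℝ x (Y k) - c k + 1 / ((n' : ℝ) + 1) := hx.2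
      have h2 : 1 / ((n' : ℝ) + 1) ≤ 1 / ((n : ℝ) + 1) :=
        one_div_le_one_div_of_le (by positivity) (by
          have : (n : ℝ) ≤ n' := by exact_mod_cast hnn
          linarith)
      show pot Y c x ≤ inner ℝ x (Y k) - c k + 1 / ((n : ℝ) + 1)
      linarith
    have hlim := tendsto_setIntegral_of_antitone (μ := volume) (f := a) hsm hanti
      ⟨0, hia.mono_set inter_subset_left⟩
    have hge : m k ≤ ∫ x in ⋂ n, s n, a x := by
      apply ge_of_tendsto' hlim
      intro n
      exact min_step hK hKm ha ha0 hc k (by positivity)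
    have hcong : ∫ x in ⋂ n, s n, a x = ∫ x in K ∩ scell Y c k, a x := by
      apply setIntegral_congr_set
      filter_upwards [ae_no_tie hY c] with x hx
      apply propext
      constructor
      · intro h
        have hm' := mem_iInter.mp h
        refine ⟨(hm' 0).1, hx k ?_⟩
        apply le_of_forall_pos_le_add
        intro ε hε
        obtain ⟨n, hn⟩ := exists_nat_one_div_lt hε
        have h3 : pot Y c x ≤ inner ℝ x (Y k) - c k + 1 / ((n : ℝ) + 1) := (hm' n).2
        linarith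
      · rintro ⟨h1, h2⟩
        refine mem_iInter.mpr (fun n => ⟨h1, ?_⟩)
        show pot Y c x ≤ inner ℝ x (Y k) - c k + 1 / ((n : ℝ) + 1)
        rw [pot_of_scell h2]
        have : (0 : ℝ) ≤ 1 / ((n : ℝ) + 1) := by positivity
        linarith
    rw [hcong] at hge
    exact hge
  have hsum : ∑ k, m k = ∑ k, ∫ x in K ∩ scell Y c k, a x := by
    rw [sum_scell hY c hia hKm, hm]
  have := (Finset.sum_eq_sum_iff_of_le (fun k _ => step k)).mp hsum
  intro k
  exact (this k (Finset.mem_univ k)).symm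

/-- Weak duality: the value of any test pair dominates the pairing on the cells. -/
lemma kant_ge_of_opt (hK : IsCompact K) (hKm : MeasurableSet K) (ha : Continuous a)
    (ha0 : ∀ x ∈ K, 0 ≤ a x) (hY : Function.Injective Y) {c : ι → ℝ} (hc : IsOpt K a Y m c)
    (Y' : ι → E d) (c' : ι → ℝ) :
    ∑ k, ∫ x in K ∩ scell Y c k, inner ℝ x (Y' k) * a x ≤ kant K a Y' m c' := by
  unfold kant
  rw [← sum_scell hY c (int_pot_mul hK ha Y' c') hKm, ← Finset.sum_add_distrib]
  apply Finset.sum_le_sum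
  intro k _
  have hs : MeasurableSet (K ∩ scell Y c k) := hKm.inter (scell_measurable Y c k)
  have i1 := (int_pot_mul hK ha Y' c').mono_set (inter_subset_left (t := scell Y c k))
  have i2 := (int_of_cont hK ha).mono_set (inter_subset_left (t := scell Y c k))
  have i3 : IntegrableOn (fun x => inner ℝ x (Y' k) * a x) (K ∩ scell Y c k) volume :=
    (int_of_cont hK (by fun_prop)).mono_set inter_subset_left
  rw [← hc k, mul_comm, ← integral_const_mul, ← integral_add i1 (i2.const_mul _)]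
  apply setIntegral_mono_on i3 (i1.add (i2.const_mul _)) hs
  intro x hx
  have h1 := le_pot Y' c' x k
  have h2 := mul_le_mul_of_nonneg_right h1 (ha0 x hx.1)
  show inner ℝ x (Y' k) * a x ≤ pot Y' c' x * a x + c' k * a x
  linarith

/-- Strong duality on the cells. -/
lemma kant_eq_of_opt (hK : IsCompact K) (hKm : MeasurableSet K) (ha : Continuous a)
    (hY : Function.Injective Y) {c : ι → ℝ} (hc : IsOpt K a Y m c) :
    kant K a Y m c = ∑ k, ∫ x in K ∩ scell Y c k, inner ℝ x (Y k) * a x := by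
  unfold kant
  rw [← sum_scell hY c (int_pot_mul hK ha Y c) hKm, ← Finset.sum_add_distrib]
  apply Finset.sum_congr rfl
  intro k _
  have hs : MeasurableSet (K ∩ scell Y c k) := hKm.inter (scell_measurable Y c k)
  have i2 := (int_of_cont hK ha).mono_set (inter_subset_left (t := scell Y c k))
  have i3 : IntegrableOn (fun x => inner ℝ x (Y k) * a x) (K ∩ scell Y c k) volume :=
    (int_of_cont hK (by fun_prop)).mono_set inter_subset_left
  have e : ∫ x in K ∩ scell Y c k, pot Y c x * a x =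
      ∫ x in K ∩ scell Y c k, (inner ℝ x (Y k) * a x - c k * a x) := by
    apply setIntegral_congr_fun hs
    intro x hx
    show pot Y c x * a x = _
    rw [pot_of_scell hx.2]
    ring
  rw [e, integral_sub i3 (i2.const_mul _), integral_const_mul, hc k]
  ring

/-- The value of the Kantorovich problem. -/
noncomputable def val (K : Set (E d)) (a : E d → ℝ) (Y : ι → E d) (m : ι → ℝ) : ℝ :=
  sInf (range (kant K a Y m))

lemma val_of_min {c : ι → ℝ} (hc : IsMin K a Y m c) : val K a Y m = kant K a Y m c := by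
  apply IsLeast.csInf_eq
  refine ⟨⟨c, rfl⟩, ?_⟩
  rintro _ ⟨c', rfl⟩
  exact hc c'

lemma val_le {c : ι → ℝ} (hc : IsMin K a Y m c) (c' : ι → ℝ) :
    val K a Y m ≤ kant K a Y m c' := by
  rw [val_of_min hc]
  exact hc c'

/-- Lipschitz dependence on the sites. -/
lemma kant_sites_lip (hK : IsCompact K) (hKm : MeasurableSet K) (ha : Continuous a)
    (ha0 : ∀ x ∈ K, 0 ≤ a x) {Rk ε : ℝ} (hRk : ∀ x ∈ K, ‖x‖ ≤ Rk)
    {Y Y' : ι → E d} (hYY : ∀ k, ‖Y k - Y' k‖ ≤ ε) (c : ι → ℝ) :
    kant K a Y m c ≤ kant K a Y' m c + Rk * ε * ∫ x in K, a x := by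
  unfold kant
  have h1 : ∫ x in K, pot Y c x * a x ≤ (∫ x in K, pot Y' c x * a x) + Rk * ε * ∫ x in K, a x := by
    rw [← integral_const_mul, ← integral_add (int_pot_mul hK ha Y' c)
      ((int_of_cont hK ha).const_mul _)]
    apply setIntegral_mono_on (int_pot_mul hK ha Y c)
      ((int_pot_mul hK ha Y' c).add ((int_of_cont hK ha).const_mul _)) hKm
    intro x hx
    have h2 : pot Y c x ≤ pot Y' c x + Rk * ε := by
      apply pot_le
      intro k
      have h3 := le_pot Y' c x k
      have h4 : inner ℝ x (Y k) = inner ℝ x (Y' k) + inner ℝ x (Y k - Y' k) := by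
        rw [inner_sub_right]
        ring
      have h5 : inner ℝ x (Y k - Y' k) ≤ ‖x‖ * ‖Y k - Y' k‖ := real_inner_le_norm _ _
      have h6 : ‖x‖ * ‖Y k - Y' k‖ ≤ Rk * ε :=
        mul_le_mul (hRk x hx) (hYY k) (norm_nonneg _) ((norm_nonneg _).trans (hRk x hx))
      linarith
    have h3 := mul_le_mul_of_nonneg_right h2 (ha0 x hx)
    show pot Y c x * a x ≤ pot Y' c x * a x + Rk * ε * a x
    linarith
  linarith

lemma val_sites_lip (hK : IsCompact K) (hKm : MeasurableSet K) (ha : Continuous a)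
    (ha0 : ∀ x ∈ K, 0 ≤ a x) {Rk ε : ℝ} (hRk : ∀ x ∈ K, ‖x‖ ≤ Rk)
    {Y Y' : ι → E d} (hYY : ∀ k, ‖Y k - Y' k‖ ≤ ε) {c c' : ι → ℝ}
    (hc : IsMin K a Y m c) (hc' : IsMin K a Y' m c') :
    val K a Y m ≤ val K a Y' m + Rk * ε * ∫ x in K, a x := by
  rw [val_of_min hc', val_of_min hc]
  exact (hc c').trans (kant_sites_lip hK hKm ha ha0 hRk hYY c')

end kant

end Vale.Agent.P074
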