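import Vale.Agent.Lib.P074.Path

open MeasureTheory Set Filter Topology Metric
open scoped ENNReal

namespace Vale.Agent.P074

set_option linter.unusedSectionVars false

variable {d : ℕ} {ι : Type} [Fintype ι] [Nonempty ι]

section

variable {K : Set (E d)} {m : ι → ℝ} {Y : ι → E d}

lemma phi_continuous (hK : IsCompact K) (hKm : MeasurableSet K) {ζ : E d → ℝ} (hζ : Continuous ζ) :
    Continuous (fun c : ι → ℝ => ∫ x in K, pot Y c x * ζ x) := by
  have hL0 : 0 ≤ ∫ x in K, |ζ x| := integral_nonneg (fun x => abs_nonneg _)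
  have : LipschitzWith (Real.toNNReal (∫ x in K, |ζ x|))
      (fun c : ι → ℝ => ∫ x in K, pot Y c x * ζ x) := by
    apply LipschitzWith.of_le_add_mul
    intro c c'
    rw [Real.coe_toNNReal _ hL0, dist_eq_norm, mul_comm, ← integral_const_mul]
    have i1 := int_pot_mul hK hζ Y c
    have i2 := int_pot_mul hK hζ Y c'
    have i3 : IntegrableOn (fun x => ‖c - c'‖ * |ζ x|) K volume :=
      int_of_cont hK (by fun_prop)
    rw [← integral_add i2 i3]
    apply setIntegral_mono_on i1 (i2.add i3) hKm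
    intro x _
    have hk : ∀ k, |c k - c' k| ≤ ‖c - c'‖ := by
      intro k
      have := norm_le_pi_norm (c - c') k
      simpa [Real.norm_eq_abs] using this
    have h1 := pot_sub_le (Y := Y) (c := c) (c' := c') (ε := ‖c - c'‖)
      (fun k => by
        have := abs_le.mp (hk k)
        linarith [this.1]) x
    have h2 := pot_sub_le (Y := Y) (c := c') (c' := c) (ε := ‖c - c'‖)
      (fun k => by
        have := abs_le.mp (hk k)
        linarith [this.2]) x
    have h3 : |pot Y c x - pot Y c' x| ≤ ‖c - c'‖ := by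
      rw [abs_le]
      constructor <;> linarith
    have h4 : (pot Y c x - pot Y c' x) * ζ x ≤ ‖c - c'‖ * |ζ x| := by
      calc (pot Y c x - pot Y c' x) * ζ x ≤ |(pot Y c x - pot Y c' x) * ζ x| := le_abs_self _
        _ = |pot Y c x - pot Y c' x| * |ζ x| := abs_mul _ _
        _ ≤ ‖c - c'‖ * |ζ x| := mul_le_mul_of_nonneg_right h3 (abs_nonneg _)
    show pot Y c x * ζ x ≤ pot Y c' x * ζ x + ‖c - c'‖ * |ζ x|
    linarith
  exact this.continuous

lemma kant_perturb (hK : IsCompact K) {ζ : E d → ℝ} (hζ : Continuous ζ) (s : ℝ) (c : ι → ℝ) :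
    kant K (fun x => 1 + s * ζ x) Y m c =
      kant K (fun _ => 1) Y m c + s * ∫ x in K, pot Y c x * ζ x := by
  unfold kant
  have i1 : IntegrableOn (fun x => pot Y c x * 1) K volume :=
    int_of_cont hK (by
      have := pot_continuous Y c
      fun_prop)
  have i2 := (int_pot_mul hK hζ Y c).const_mul s
  have e : ∫ x in K, pot Y c x * (1 + s * ζ x) =
      (∫ x in K, pot Y c x * 1) + s * ∫ x in K, pot Y c x * ζ x := by
    rw [← integral_const_mul, ← integral_add i1 i2]
    congr 1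
    funext x
    ring
  rw [e]
  ring

/-- Uniqueness of the potential up to a constant for the uniform source. -/
lemma min_unique (hK : IsCompact K) (hKm : MeasurableSet K) (hconv : Convex ℝ K)
    {c c' : ι → ℝ} (hc : IsMin K (fun _ => 1) Y m c) (hc' : IsMin K (fun _ => 1) Y m c')
    {x y : E d} (hx : x ∈ interior K) (hy : y ∈ interior K) :
    pot Y c x - pot Y c' x = pot Y c y - pot Y c' y := by
  set cm : ι → ℝ := fun k => (c k + c' k) / 2 with hcm
  set G : E d → ℝ := fun x => (pot Y c x + pot Y c' x) / 2 - pot Y cm x with hG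
  have hGc : Continuous G := by
    have h1 := pot_continuous Y c
    have h2 := pot_continuous Y c'
    have h3 := pot_continuous Y cm
    simp only [hG]
    fun_prop
  have hG0 : ∀ x, 0 ≤ G x := by
    intro x
    simp only [hG]
    have : pot Y cm x ≤ (pot Y c x + pot Y c' x) / 2 := by
      apply pot_le
      intro k
      have a1 := le_pot Y c x k
      have a2 := le_pot Y c' x k
      simp only [hcm]
      linarith
    linarith
  have i1 := int_pot_mul (Y := Y) (c := c) hK (continuous_const (y := (1:ℝ)))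
  have i2 := int_pot_mul (Y := Y) (c := c') hK (continuous_const (y := (1:ℝ)))
  have i3 := int_pot_mul (Y := Y) (c := cm) hK (continuous_const (y := (1:ℝ)))
  have iG : IntegrableOn G K volume := int_of_cont hK hGc
  -- the integral of `G` vanishes
  have hIG : ∫ x in K, G x = (kant K (fun _ => 1) Y m c + kant K (fun _ => 1) Y m c') / 2 -
      kant K (fun _ => 1) Y m cm := by
    unfold kant
    have e : ∀ x, G x = (pot Y c x * 1 + pot Y c' x * 1) * (1 / 2) - pot Y cm x * 1 := by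
      intro x
      simp only [hG]
      ring
    simp only [e]
    have i4 : IntegrableOn (fun x => (pot Y c x * 1 + pot Y c' x * 1) * (1 / 2)) K volume :=
      (i1.add i2).mul_const _
    rw [integral_sub i4 i3, integral_mul_const, integral_add i1 i2]
    have : ∑ k, m k * cm k = (∑ k, m k * c k + ∑ k, m k * c' k) / 2 := by
      rw [← Finset.sum_add_distrib, Finset.sum_div]
      apply Finset.sum_congr rfl
      intro k _
      simp only [hcm]
      ring
    rw [this]
    ring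
  have hI0 : ∫ x in K, G x = 0 := by
    apply le_antisymm _ (integral_nonneg hG0)
    rw [hIG]
    have a1 := hc cm
    have a2 := hc' cm
    linarith
  have hae : G =ᵐ[volume.restrict K] 0 :=
    (setIntegral_eq_zero_iff_of_nonneg_ae (ae_of_all _ hG0) iG).mp hI0
  have hae2 : G =ᵐ[volume.restrict (interior K)] (fun _ => 0) :=
    ae_restrict_of_ae_restrict_of_subset interior_subset hae
  have hzero : EqOn G (fun _ => 0) (interior K) :=
    Measure.eqOn_open_of_ae_eq hae2 isOpen_interior hGc.continuousOn continuousOn_const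
  -- the difference takes finitely many values on the interior
  set V : E d → ℝ := fun x => pot Y c x - pot Y c' x with hV
  have hVc : Continuous V := (pot_continuous Y c).sub (pot_continuous Y c')
  have hfin : V '' interior K ⊆ range (fun k => c' k - c k) := by
    rintro _ ⟨z, hz, rfl⟩
    have h0 := hzero hz
    obtain ⟨k, hk⟩ := exists_pot_eq Y cm z
    have a1 := le_pot Y c z k
    have a2 := le_pot Y c' z k
    simp only [hG] at h0
    rw [hk] at h0
    simp only [hcm] at h0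
    refine ⟨k, ?_⟩
    simp only [hV]
    linarith
  have hprec : IsPreconnected (V '' interior K) :=
    (hconv.interior.isPreconnected).image V hVc.continuousOn
  by_contra hne
  have hxy : V x ≠ V y := hne
  have hfinite : (V '' interior K).Finite := (finite_range _).subset hfin
  have hmx := mem_image_of_mem V hx
  have hmy := mem_image_of_mem V hy
  rcases lt_or_gt_of_ne hxy with h | h
  · exact (Set.Icc_infinite h) (hfinite.subset (hprec.Icc_subset hmx hmy))
  · exact (Set.Icc_infinite h) (hfinite.subset (hprec.Icc_subset hmy hmx))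

/-- Integrals against mean zero functions do not see the choice of the minimizer. -/
lemma min_unique_integral (hK : IsCompact K) (hKm : MeasurableSet K) (hconv : Convex ℝ K)
    (hint : (interior K).Nonempty) {c c' : ι → ℝ} (hc : IsMin K (fun _ => 1) Y m c)
    (hc' : IsMin K (fun _ => 1) Y m c') {ζ : E d → ℝ} (hζ : Continuous ζ)
    (hζ0 : ∫ x in K, ζ x = 0) :
    ∫ x in K, pot Y c x * ζ x = ∫ x in K, pot Y c' x * ζ x := by
  obtain ⟨y, hy⟩ := hint
  set κ : ℝ := pot Y c y - pot Y c' y with hκ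
  have hint' : ∀ᵐ x ∂(volume.restrict K), x ∈ interior K := by
    have hnull : volume (frontier K) = 0 := hconv.addHaar_frontier (μ := volume)
    filter_upwards [ae_restrict_mem hKm, ae_restrict_of_ae (measure_eq_zero_iff_ae_notMem.mp hnull)]
      with x hxK hxf
    by_contra hcon
    exact hxf ⟨subset_closure hxK, hcon⟩
  have e : ∫ x in K, pot Y c x * ζ x = ∫ x in K, (pot Y c' x * ζ x + κ * ζ x) := by
    apply integral_congr_ae
    filter_upwards [hint'] with x hx
    have := min_unique hK hKm hconv hc hc' hx hy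
    have e2 : pot Y c x = pot Y c' x + κ := by
      rw [hκ]
      linarith
    rw [e2]
    ring
  rw [e, integral_add (int_pot_mul hK hζ Y c') ((int_of_cont hK hζ).const_mul κ),
    integral_const_mul, hζ0]
  ring

/-- One perturbation step: the inequality at positive `s`. -/
lemma pot_step {Y₀ Y₁ : ι → E d} (hK : IsCompact K) (hKm : MeasurableSet K) (hconv : Convex ℝ K)
    {o : E d} {D : ℝ} (hD : 0 < D) (hball : K ⊆ closedBall o D) {Rk Ry mmin : ℝ}
    (hRk0 : 0 ≤ Rk) (hRk : ∀ x ∈ K, ‖x‖ ≤ Rk) (hRy0 : 0 ≤ Ry) (hY₀ : ∀ k, ‖Y₀ k‖ ≤ Ry)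
    (hY₁ : ∀ k, ‖Y₁ k‖ ≤ Ry) (hmmin : 0 < mmin) (hmm : ∀ k, mmin ≤ m k)
    (hsum : ∑ k, m k = volume.real K)
    (hinj : Function.Injective (fun k => (Y₀ k, Y₁ k)))
    {c₁ : ι → ℝ} (h₁ : IsMin K (fun _ => 1) Y₁ m c₁)
    {ζ : E d → ℝ} (hζ : Continuous ζ) (hζ0 : ∫ x in K, ζ x = 0) {s : ℝ} (hs : 0 < s)
    (hsζ : ∀ x ∈ K, |s * ζ x| ≤ 1 / 2)
    {cs : ι → ℝ} (hcs : IsMin K (fun x => 1 + s * ζ x) Y₀ m cs) :
    (∫ x in K, pot Y₀ cs x * ζ x) - ∫ x in K, pot Y₁ c₁ x * ζ x ≤
      (196608 * D ^ 2 / 2) * (∑ k, m k * ‖Y₁ k - Y₀ k‖ ^ 2) + (∫ x in K, ζ x ^ 2) / 2 := by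
  have hC : 0 < 196608 * D ^ 2 := by positivity
  have hl : 0 < s * (196608 * D ^ 2) := by positivity
  have hmix := mixed_bound hK hKm hconv hD hball hRk0 hRk hRy0 hY₀ hY₁ hmmin hmm hsum hinj
    (ξ := fun x => s * ζ x) (continuous_const.mul hζ) hsζ
    (by rw [integral_const_mul, hζ0, mul_zero]) hl
  have e1 : ∫ x in K, (s * ζ x) ^ 2 = s ^ 2 * ∫ x in K, ζ x ^ 2 := by
    rw [← integral_const_mul]
    congr 1
    funext x
    ring
  rw [e1] at hmix
  -- comparison of values
  have hfin₀ : ∀ c', val K (fun _ => 1) Y₀ m ≤ kant K (fun _ => 1) Y₀ m c' := by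
    -- a minimizer at the uniform density exists
    have hpos : ∑ k, m k = ∫ x in K, (fun _ : E d => (1 : ℝ)) x := by
      simp only []
      rw [int_const_real, mul_one, hsum]
    obtain ⟨c, _, hc⟩ := exists_min (Y := Y₀) hK hKm continuous_const (fun _ _ => zero_le_one)
      (fun k => hmmin.le.trans (hmm k)) hpos hRk0 hRk hY₀ hRy0 hmmin hmm
    exact fun c' => val_le hc c'
  have a0 : val K (fun _ => 1) Y₀ m + s * ∫ x in K, pot Y₀ cs x * ζ x ≤
      val K (fun x => 1 + s * ζ x) Y₀ m := by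
    rw [val_of_min hcs, kant_perturb hK hζ]
    have := hfin₀ cs
    linarith
  have a1 : val K (fun x => 1 + s * ζ x) Y₁ m ≤
      val K (fun _ => 1) Y₁ m + s * ∫ x in K, pot Y₁ c₁ x * ζ x := by
    have hex : ∃ c, IsMin K (fun x => 1 + s * ζ x) Y₁ m c := by
      have hp : ∀ x ∈ K, (0 : ℝ) ≤ (fun x : E d => 1 + s * ζ x) x := by
        intro x hx
        have := abs_le.mp (hsζ x hx)
        show 0 ≤ 1 + s * ζ x
        linarith [this.1]
      have hpos : ∑ k, m k = ∫ x in K, (fun x : E d => 1 + s * ζ x) x := by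
        simp only []
        have f1 : IntegrableOn (fun _ : E d => (1 : ℝ)) K volume := int_of_cont hK continuous_const
        rw [integral_add f1 ((int_of_cont hK hζ).const_mul s), integral_const_mul, hζ0,
          int_const_real, hsum]
        ring
      obtain ⟨c, _, hc⟩ := exists_min (Y := Y₁) hK hKm (continuous_const.add
        (continuous_const.mul hζ)) hp
        (fun k => hmmin.le.trans (hmm k)) hpos hRk0 hRk hY₁ hRy0 hmmin hmm
      exact ⟨c, hc⟩
    obtain ⟨c, hc⟩ := hex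
    have := val_le hc c₁
    rw [kant_perturb hK hζ, ← val_of_min h₁] at this
    exact this
  have e2 : (s * (196608 * D ^ 2)) / 2 * (∑ k, m k * ‖Y₁ k - Y₀ k‖ ^ 2) +
      (196608 * D ^ 2 / (2 * (s * (196608 * D ^ 2)))) * (s ^ 2 * ∫ x in K, ζ x ^ 2) =
      s * ((196608 * D ^ 2 / 2) * (∑ k, m k * ‖Y₁ k - Y₀ k‖ ^ 2) + (∫ x in K, ζ x ^ 2) / 2) := by
    field_simp
  rw [e2] at hmix
  have h3 : s * ((∫ x in K, pot Y₀ cs x * ζ x) - ∫ x in K, pot Y₁ c₁ x * ζ x) ≤
      s * ((196608 * D ^ 2 / 2) * (∑ k, m k * ‖Y₁ k - Y₀ k‖ ^ 2) + (∫ x in K, ζ x ^ 2) / 2) := by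
    linarith
  exact le_of_mul_le_mul_left h3 hs

/-- The `L²`-Lipschitz stability of the potentials with respect to the sites. -/
theorem pot_L2 {Y₀ Y₁ : ι → E d} (hK : IsCompact K) (hKm : MeasurableSet K) (hconv : Convex ℝ K)
    (hint : (interior K).Nonempty)
    {o : E d} {D : ℝ} (hD : 0 < D) (hball : K ⊆ closedBall o D) {Rk Ry mmin : ℝ}
    (hRk0 : 0 ≤ Rk) (hRk : ∀ x ∈ K, ‖x‖ ≤ Rk) (hRy0 : 0 ≤ Ry) (hY₀ : ∀ k, ‖Y₀ k‖ ≤ Ry)
    (hY₁ : ∀ k, ‖Y₁ k‖ ≤ Ry) (hmmin : 0 < mmin) (hmm : ∀ k, mmin ≤ m k)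
    (hsum : ∑ k, m k = volume.real K)
    (hinj : Function.Injective (fun k => (Y₀ k, Y₁ k)))
    {c₀ c₁ : ι → ℝ} (h₀ : IsMin K (fun _ => 1) Y₀ m c₀) (h₁ : IsMin K (fun _ => 1) Y₁ m c₁)
    {κ : ℝ} (hκ : ∫ x in K, (pot Y₀ c₀ x - pot Y₁ c₁ x - κ) = 0) :
    ∫ x in K, (pot Y₀ c₀ x - pot Y₁ c₁ x - κ) ^ 2 ≤
      196608 * D ^ 2 * ∑ k, m k * ‖Y₁ k - Y₀ k‖ ^ 2 := by
  set ζ : E d → ℝ := fun x => pot Y₀ c₀ x - pot Y₁ c₁ x - κ with hζdef
  have hζ : Continuous ζ := ((pot_continuous Y₀ c₀).sub (pot_continuous Y₁ c₁)).sub continuous_const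
  obtain ⟨B₀, hB₀⟩ := hK.exists_bound_of_continuousOn hζ.continuousOn
  obtain ⟨B, hB⟩ : ∃ B, B = max B₀ 1 := ⟨_, rfl⟩
  have hB1 : 1 ≤ B := by rw [hB]; exact le_max_right _ _
  have hB0 : 0 < B := by linarith
  have hbd : ∀ x ∈ K, |ζ x| ≤ B := fun x hx =>
    (hB₀ x hx).trans (by rw [hB]; exact le_max_left _ _)
  set s : ℕ → ℝ := fun n => 1 / (2 * B * ((n : ℝ) + 1)) with hs
  have hs0 : ∀ n, 0 < s n := fun n => by
    simp only [hs]
    positivity
  have hsζ : ∀ n, ∀ x ∈ K, |s n * ζ x| ≤ 1 / 2 := by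
    intro n x hx
    rw [abs_mul, abs_of_pos (hs0 n)]
    have h1 := hbd x hx
    have hn : (1 : ℝ) ≤ (n : ℝ) + 1 := by
      have : (0 : ℝ) ≤ n := Nat.cast_nonneg n
      linarith
    have e : s n * B = 1 / (2 * ((n : ℝ) + 1)) := by
      simp only [hs]
      field_simp
    calc s n * |ζ x| ≤ s n * B := mul_le_mul_of_nonneg_left h1 (hs0 n).le
      _ = 1 / (2 * ((n : ℝ) + 1)) := e
      _ ≤ 1 / 2 := by
          apply one_div_le_one_div_of_le (by norm_num)
          linarith
  have hstend : Tendsto s atTop (𝓝 0) := by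
    have h1 : Tendsto (fun n : ℕ => 1 / ((n : ℝ) + 1)) atTop (𝓝 0) :=
      tendsto_one_div_add_atTop_nhds_zero_nat
    have h2 := h1.const_mul (1 / (2 * B))
    rw [mul_zero] at h2
    refine h2.congr (fun n => ?_)
    simp only [hs]
    field_simp
  -- minimizers in a fixed box
  obtain ⟨M, hM⟩ : ∃ M, M = 2 * (Rk * Ry * volume.real K) / mmin := ⟨_, rfl⟩
  have hm0 : ∀ k, 0 ≤ m k := fun k => hmmin.le.trans (hmm k)
  have hex : ∀ n, ∃ c, (∀ k, c k ∈ Icc (0 : ℝ) M) ∧ IsMin K (fun x => 1 + s n * ζ x) Y₀ m c := by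
    intro n
    have hp : ∀ x ∈ K, (0 : ℝ) ≤ (fun x : E d => 1 + s n * ζ x) x := by
      intro x hx
      have := abs_le.mp (hsζ n x hx)
      show 0 ≤ 1 + s n * ζ x
      linarith [this.1]
    have f1 : IntegrableOn (fun _ : E d => (1 : ℝ)) K volume := int_of_cont hK continuous_const
    have hval : ∫ x in K, (fun x : E d => 1 + s n * ζ x) x = volume.real K := by
      simp only []
      rw [integral_add f1 ((int_of_cont hK hζ).const_mul (s n)), integral_const_mul, hκ,
        int_const_real]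
      ring
    have hpos : ∑ k, m k = ∫ x in K, (fun x : E d => 1 + s n * ζ x) x := by
      rw [hval, hsum]
    have ca : Continuous (fun x : E d => 1 + s n * ζ x) :=
      continuous_const.add (continuous_const.mul hζ)
    obtain ⟨c, hc1, hc⟩ := exists_min (Y := Y₀) (a := fun x : E d => 1 + s n * ζ x) hK hKm ca hp
      hm0 hpos hRk0 hRk hY₀ hRy0 hmmin hmm
    rw [hval, ← hM] at hc1
    exact ⟨c, hc1, hc⟩
  choose cs hcs1 hcs2 using hex
  have hstep := fun n => pot_step hK hKm hconv hD hball hRk0 hRk hRy0 hY₀ hY₁ hmmin hmm hsum hinj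
    h₁ hζ hκ (hs0 n) (hsζ n) (hcs2 n)
  -- compactness
  have hbox : IsCompact (Set.pi univ (fun _ : ι => Icc (0 : ℝ) M)) :=
    isCompact_univ_pi (fun _ => isCompact_Icc)
  obtain ⟨cstar, _, φ, hφ, hlim⟩ := hbox.tendsto_subseq
    (x := cs) (fun n k _ => hcs1 n k)
  have hΦ := phi_continuous (Y := Y₀) hK hKm hζ
  have hΦlim := hΦ.tendsto cstar |>.comp hlim
  have hkc : Continuous (kant K (fun _ => 1) Y₀ m) := by
    have hpos : ∑ k, m k = ∫ x in K, (fun _ : E d => (1 : ℝ)) x := by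
      simp only []
      rw [int_const_real, mul_one, hsum]
    exact kant_continuous hK hKm continuous_const (fun _ _ => zero_le_one) hm0 hpos
  have hklim := hkc.tendsto cstar |>.comp hlim
  have hsφ : Tendsto (s ∘ φ) atTop (𝓝 0) := hstend.comp hφ.tendsto_atTop
  -- the limit is a minimizer
  have hstar : IsMin K (fun _ => 1) Y₀ m cstar := by
    intro c'
    have h1 : ∀ n, kant K (fun _ => 1) Y₀ m (cs (φ n)) +
        s (φ n) * ∫ x in K, pot Y₀ (cs (φ n)) x * ζ x ≤
        kant K (fun _ => 1) Y₀ m c' + s (φ n) * ∫ x in K, pot Y₀ c' x * ζ x := by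
      intro n
      have := hcs2 (φ n) c'
      rwa [kant_perturb hK hζ, kant_perturb hK hζ] at this
    have l1 : Tendsto (fun n => kant K (fun _ => 1) Y₀ m (cs (φ n)) +
        s (φ n) * ∫ x in K, pot Y₀ (cs (φ n)) x * ζ x) atTop
        (𝓝 (kant K (fun _ => 1) Y₀ m cstar + 0 * ∫ x in K, pot Y₀ cstar x * ζ x)) :=
      hklim.add (hsφ.mul hΦlim)
    have l2 : Tendsto (fun n => kant K (fun _ => 1) Y₀ m c' +
        s (φ n) * ∫ x in K, pot Y₀ c' x * ζ x) atTop
        (𝓝 (kant K (fun _ => 1) Y₀ m c' + 0 * ∫ x in K, pot Y₀ c' x * ζ x)) :=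
      tendsto_const_nhds.add (hsφ.mul_const _)
    have := le_of_tendsto_of_tendsto' l1 l2 h1
    simpa using this
  -- passing to the limit
  have hfinal : (∫ x in K, pot Y₀ cstar x * ζ x) - ∫ x in K, pot Y₁ c₁ x * ζ x ≤
      (196608 * D ^ 2 / 2) * (∑ k, m k * ‖Y₁ k - Y₀ k‖ ^ 2) + (∫ x in K, ζ x ^ 2) / 2 := by
    have l1 : Tendsto (fun n => (∫ x in K, pot Y₀ (cs (φ n)) x * ζ x) -
        ∫ x in K, pot Y₁ c₁ x * ζ x) atTop
        (𝓝 ((∫ x in K, pot Y₀ cstar x * ζ x) - ∫ x in K, pot Y₁ c₁ x * ζ x)) :=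
      hΦlim.sub_const _
    exact le_of_tendsto' l1 (fun n => hstep (φ n))
  rw [min_unique_integral hK hKm hconv hint hstar h₀ hζ hκ] at hfinal
  -- the identity
  have hZ : ∫ x in K, ζ x ^ 2 = (∫ x in K, pot Y₀ c₀ x * ζ x) - ∫ x in K, pot Y₁ c₁ x * ζ x := by
    have i1 := int_pot_mul (Y := Y₀) (c := c₀) hK hζ
    have i2 := int_pot_mul (Y := Y₁) (c := c₁) hK hζ
    have i3 : IntegrableOn (fun x => κ * ζ x) K volume := (int_of_cont hK hζ).const_mul κ
    have e0 : (∫ x in K, pot Y₀ c₀ x * ζ x) - ∫ x in K, pot Y₁ c₁ x * ζ x =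
        (∫ x in K, pot Y₀ c₀ x * ζ x) - (∫ x in K, pot Y₁ c₁ x * ζ x) - ∫ x in K, κ * ζ x := by
      rw [integral_const_mul, hκ]
      ring
    have i12 : IntegrableOn (fun x => pot Y₀ c₀ x * ζ x - pot Y₁ c₁ x * ζ x) K volume := i1.sub i2
    rw [e0, ← integral_sub i1 i2, ← integral_sub i12 i3]
    congr 1
    funext x
    simp only [hζdef]
    ring
  rw [← hZ] at hfinal
  linarith

end

end Vale.Agent.P074
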