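import Vale.Agent.Lib.P074.Defs

open MeasureTheory Set Filter Topology Metric

namespace Vale.Agent.P074

set_option linter.unusedSectionVars false

variable {d : ℕ}

/-- `x` is a Lebesgue density point of `s`. -/
def DensAt (s : Set (E d)) (x : E d) : Prop :=
  Tendsto (fun r => volume (s ∩ closedBall x r) / volume (closedBall x r)) (𝓝[>] 0) (𝓝 1)

/-- Offsets selection: near density points, a common set of offsets has positive volume. -/
lemma eventually_offsets {ι : Type} [Fintype ι] (p : ι → E d) (S : ι → Set (E d))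
    (hS : ∀ i, MeasurableSet (S i)) (hd : ∀ i, DensAt (S i) (p i)) :
    ∀ᶠ r in 𝓝[>] (0:ℝ), 0 < volume {w : E d | w ∈ closedBall (0 : E d) r ∧ ∀ i, p i + w ∈ S i} := by
  classical
  set n : ℕ := Fintype.card ι with hn
  set a : ℝ := 1 / (n + 1) with ha
  have ha0 : 0 < a := by positivity
  have hev : ∀ i, ∀ᶠ r in 𝓝[>] (0:ℝ),
      1 - a < (volume (S i ∩ closedBall (p i) r) / volume (closedBall (p i) r)).toReal := by
    intro i
    have h1 : Tendsto (fun r => (volume (S i ∩ closedBall (p i) r) /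
        volume (closedBall (p i) r)).toReal) (𝓝[>] 0) (𝓝 (1 : ENNReal).toReal) :=
      (ENNReal.tendsto_toReal (by simp)).comp (hd i)
    simp only [ENNReal.toReal_one] at h1
    exact h1.eventually (lt_mem_nhds (by linarith))
  have hall := (eventually_all.mpr hev).and (self_mem_nhdsWithin (s := Ioi (0:ℝ)))
  filter_upwards [hall] with r hr
  obtain ⟨hr1, hr0⟩ := hr
  have hr0' : 0 < r := hr0
  set B0 : Set (E d) := closedBall (0 : E d) r with hB0
  have hB0pos : 0 < volume.real B0 := by
    rw [measureReal_def, ENNReal.toReal_pos_iff]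
    exact ⟨measure_closedBall_pos _ _ hr0', measure_closedBall_lt_top⟩
  have hball : ∀ i, volume (closedBall (p i) r) = volume B0 := by
    intro i
    rw [hB0, Measure.addHaar_closedBall_center]
  set Bad : ι → Set (E d) := fun i => {w | w ∈ B0 ∧ p i + w ∉ S i} with hBad
  have hBadm : ∀ i, MeasurableSet (Bad i) := by
    intro i
    refine (isClosed_closedBall.measurableSet).inter ?_
    exact ((measurable_const.add measurable_id) (hS i)).compl
  have hBadpre : ∀ i, Bad i = (fun w => p i + w) ⁻¹' (closedBall (p i) r \ S i) := by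
    intro i
    ext w
    simp only [hBad, hB0, mem_preimage, Set.mem_sdiff, mem_closedBall, dist_eq_norm, sub_zero,
      add_sub_cancel_left, Set.mem_ofPred_eq]
  have hBadv : ∀ i, volume.real (Bad i) < a * volume.real B0 := by
    intro i
    have h1 := hr1 i
    have hfin : volume (closedBall (p i) r) ≠ ⊤ := measure_closedBall_lt_top.ne
    have hv : volume.real (Bad i) = volume.real (closedBall (p i) r \ S i) := by
      rw [hBadpre i, measureReal_def, measureReal_def, measure_preimage_add]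
    rw [hv]
    have hv2 : volume.real (closedBall (p i) r) = volume.real B0 := by
      rw [measureReal_def, measureReal_def, hball]
    have hsplit : volume.real (closedBall (p i) r \ S i) + volume.real (S i ∩ closedBall (p i) r)
        = volume.real (closedBall (p i) r) := by
      have := measureReal_inter_add_sdiff (μ := volume) (s := closedBall (p i) r) (hS i) hfin
      rw [inter_comm, add_comm]
      exact this
    rw [ENNReal.toReal_div, ← measureReal_def, ← measureReal_def, hv2] at h1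
    have h2 : (1 - a) * volume.real B0 < volume.real (S i ∩ closedBall (p i) r) := by
      rwa [lt_div_iff₀ hB0pos] at h1
    nlinarith
  set W : Set (E d) := {w : E d | w ∈ closedBall (0 : E d) r ∧ ∀ i, p i + w ∈ S i} with hW
  have hcover : B0 ⊆ W ∪ ⋃ i ∈ (Finset.univ : Finset ι), Bad i := by
    intro w hw
    by_cases h : ∀ i, p i + w ∈ S i
    · exact Or.inl ⟨hw, h⟩
    · obtain ⟨i, hi⟩ := not_forall.mp h
      refine Or.inr ?_
      simp only [mem_iUnion]
      exact ⟨i, Finset.mem_univ i, hw, hi⟩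
  have hWfin : volume W ≠ ⊤ := by
    refine ne_top_of_le_ne_top (measure_closedBall_lt_top (μ := volume) (x := (0 : E d)) (r := r)).ne ?_
    exact measure_mono (fun w hw => hw.1)
  have hle : volume.real B0 ≤ volume.real W + ∑ i, volume.real (Bad i) := by
    have hfinU : ∀ i, volume (Bad i) ≠ ⊤ := by
      intro i
      refine ne_top_of_le_ne_top (measure_closedBall_lt_top (μ := volume) (x := (0 : E d)) (r := r)).ne ?_
      exact measure_mono (fun w hw => hw.1)
    have h1 : volume B0 ≤ volume W + ∑ i, volume (Bad i) := by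
      calc volume B0 ≤ volume (W ∪ ⋃ i ∈ (Finset.univ : Finset ι), Bad i) := measure_mono hcover
        _ ≤ volume W + volume (⋃ i ∈ (Finset.univ : Finset ι), Bad i) := measure_union_le _ _
        _ ≤ volume W + ∑ i, volume (Bad i) := by
            gcongr
            exact measure_biUnion_finset_le _ _
    have h2 := ENNReal.toReal_mono (ENNReal.add_ne_top.mpr ⟨hWfin,
      ENNReal.sum_ne_top.mpr (fun i _ => hfinU i)⟩) h1
    rw [ENNReal.toReal_add hWfin (ENNReal.sum_ne_top.mpr (fun i _ => hfinU i)),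
      ENNReal.toReal_sum (fun i _ => hfinU i)] at h2
    exact h2
  have hsum : ∑ i, volume.real (Bad i) ≤ n * (a * volume.real B0) := by
    calc ∑ i, volume.real (Bad i) ≤ ∑ _i : ι, a * volume.real B0 :=
          Finset.sum_le_sum (fun i _ => (hBadv i).le)
      _ = n * (a * volume.real B0) := by simp [hn]
  have hna : (n : ℝ) * a < 1 := by
    rw [ha]
    have : (0:ℝ) < n + 1 := by positivity
    rw [mul_one_div, div_lt_one this]
    linarith
  have hWpos : 0 < volume.real W := by nlinarith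
  rw [measureReal_def, ENNReal.toReal_pos_iff] at hWpos
  exact hWpos.1


/-! ### The cyclic swap competitor -/

section swap

variable {ι : Type} [Fintype ι] [DecidableEq ι]

/-- The piecewise translation used as a competitor. -/
noncomputable def swapMap (p : ι → E d) (τ : Equiv.Perm ι) (W : Set (E d)) (x : E d) : E d :=
  x + ∑ i, ({y | y - p i ∈ W} : Set (E d)).indicator (fun _ => p (τ i) - p i) x

lemma measurable_swapMap (p : ι → E d) (τ : Equiv.Perm ι) {W : Set (E d)} (hW : MeasurableSet W) :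
    Measurable (swapMap p τ W) := by
  unfold swapMap
  refine measurable_id.add ?_
  refine Finset.measurable_sum _ (fun i _ => ?_)
  refine measurable_const.indicator ?_
  exact (measurable_id.sub measurable_const) hW

lemma swapMap_of_mem (p : ι → E d) (τ : Equiv.Perm ι) (W : Set (E d))
    (hdisj : ∀ i j, i ≠ j → ∀ w ∈ W, ∀ w' ∈ W, p i + w ≠ p j + w') {j : ι} {x : E d}
    (hx : x - p j ∈ W) : swapMap p τ W x = x - p j + p (τ j) := by
  unfold swapMap
  rw [Finset.sum_eq_single j]
  · rw [indicator_of_mem (by exact hx)]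
    abel
  · intro i _ hij
    rw [indicator_of_notMem]
    intro hi
    have h1 : x - p i ∈ W := hi
    apply hdisj i j hij _ h1 _ hx
    abel
  · intro h
    exact absurd (Finset.mem_univ j) h

lemma swapMap_of_notMem (p : ι → E d) (τ : Equiv.Perm ι) (W : Set (E d)) {x : E d}
    (hx : ∀ j, x - p j ∉ W) : swapMap p τ W x = x := by
  unfold swapMap
  rw [Finset.sum_eq_zero, add_zero]
  intro i _
  rw [indicator_of_notMem]
  exact hx i

/-- The cells of the swap. -/
def swapCell (p : ι → E d) (W : Set (E d)) (i : ι) : Set (E d) := {y | y - p i ∈ W}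

lemma swapCell_measurable (p : ι → E d) {W : Set (E d)} (hW : MeasurableSet W) (i : ι) :
    MeasurableSet (swapCell p W i) :=
  (measurable_id.sub measurable_const) hW

lemma swapCell_disjoint (p : ι → E d) (W : Set (E d))
    (hdisj : ∀ i j, i ≠ j → ∀ w ∈ W, ∀ w' ∈ W, p i + w ≠ p j + w') :
    Pairwise (Function.onFun Disjoint (swapCell p W)) := by
  intro i j hij
  refine Set.disjoint_left.mpr (fun x hi hj => ?_)
  have h1 : x - p i ∈ W := hi
  have h2 : x - p j ∈ W := hj
  apply hdisj i j hij _ h1 _ h2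
  abel

/-- Volume bookkeeping: finite disjoint family. -/
lemma volume_split {K : Set (E d)} (hK : MeasurableSet K) {U : ι → Set (E d)}
    (hUm : ∀ i, MeasurableSet (U i))
    (hUd : Pairwise (Function.onFun Disjoint U)) {A : Set (E d)} (hA : MeasurableSet A) :
    volume (A ∩ K) = volume ((A ∩ K) \ ⋃ i, U i) + ∑ i, volume ((A ∩ K) ∩ U i) := by
  have hm : MeasurableSet (⋃ i, U i) := MeasurableSet.iUnion hUm
  have h1 := measure_sdiff_add_inter (μ := volume) (A ∩ K) hm
  rw [← h1, inter_iUnion, measure_iUnion]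
  · rw [tsum_fintype]
  · intro i j hij
    exact (hUd hij).mono inter_subset_right inter_subset_right
  · exact fun i => (hA.inter hK).inter (hUm i)

lemma swap_preserves_volume {K : Set (E d)} (hK : MeasurableSet K) (p : ι → E d)
    (τ : Equiv.Perm ι) {W : Set (E d)} (hW : MeasurableSet W)
    (hsub : ∀ i, ∀ w ∈ W, p i + w ∈ K)
    (hdisj : ∀ i j, i ≠ j → ∀ w ∈ W, ∀ w' ∈ W, p i + w ≠ p j + w')
    {A : Set (E d)} (hA : MeasurableSet A) :
    volume (swapMap p τ W ⁻¹' A ∩ K) = volume (A ∩ K) := by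
  have hσ := measurable_swapMap p τ hW
  have hUm := swapCell_measurable p hW
  have hUd := swapCell_disjoint p W hdisj
  rw [volume_split hK hUm hUd (hσ hA), volume_split hK hUm hUd hA]
  have hUK : ∀ i x, x ∈ swapCell p W i → x ∈ K := by
    intro i x hx
    have hx' : x - p i ∈ W := hx
    have := hsub i _ hx'
    simpa using this
  congr 1
  · congr 1
    ext x
    simp only [Set.mem_sdiff, mem_inter_iff, mem_preimage, mem_iUnion, not_exists]
    constructor
    · rintro ⟨⟨h1, h2⟩, h3⟩
      rw [swapMap_of_notMem p τ W h3] at h1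
      exact ⟨⟨h1, h2⟩, h3⟩
    · rintro ⟨⟨h1, h2⟩, h3⟩
      refine ⟨⟨?_, h2⟩, h3⟩
      rw [swapMap_of_notMem p τ W h3]
      exact h1
  · rw [← Equiv.sum_comp τ (fun i => volume ((A ∩ K) ∩ swapCell p W i))]
    refine Finset.sum_congr rfl (fun j _ => ?_)
    have hset : (swapMap p τ W ⁻¹' A ∩ K) ∩ swapCell p W j =
        (fun x => x + (p (τ j) - p j)) ⁻¹' ((A ∩ K) ∩ swapCell p W (τ j)) := by
      ext x
      simp only [mem_inter_iff, mem_preimage]
      constructor
      · rintro ⟨⟨h1, _⟩, h3⟩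
        have hx' : x - p j ∈ W := h3
        have e := swapMap_of_mem p τ W hdisj hx'
        rw [e] at h1
        have e2 : x + (p (τ j) - p j) = x - p j + p (τ j) := by abel
        have h4 : x + (p (τ j) - p j) - p (τ j) ∈ W := by
          have e3 : x + (p (τ j) - p j) - p (τ j) = x - p j := by abel
          rw [e3]; exact hx'
        rw [e2]
        refine ⟨⟨h1, ?_⟩, ?_⟩
        · rw [← e2]; exact hUK _ _ h4
        · rw [← e2]; exact h4
      · rintro ⟨⟨h1, _⟩, h3⟩
        have h4 : x + (p (τ j) - p j) - p (τ j) ∈ W := h3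
        have e3 : x + (p (τ j) - p j) - p (τ j) = x - p j := by abel
        rw [e3] at h4
        have e := swapMap_of_mem p τ W hdisj h4
        have e2 : x + (p (τ j) - p j) = x - p j + p (τ j) := by abel
        refine ⟨⟨?_, hUK j x h4⟩, h4⟩
        rw [e, ← e2]
        exact h1
    rw [hset, measure_preimage_add_right]

lemma map_swap_eq {K : Set (E d)} (hK : MeasurableSet K) (p : ι → E d)
    (τ : Equiv.Perm ι) {W : Set (E d)} (hW : MeasurableSet W)
    (hsub : ∀ i, ∀ w ∈ W, p i + w ∈ K)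
    (hdisj : ∀ i j, i ≠ j → ∀ w ∈ W, ∀ w' ∈ W, p i + w ≠ p j + w') :
    (unif K).map (swapMap p τ W) = unif K := by
  have hσ := measurable_swapMap p τ hW
  ext A hA
  rw [Measure.map_apply hσ hA, unif, Measure.smul_apply, Measure.smul_apply,
    Measure.restrict_apply (hσ hA), Measure.restrict_apply hA,
    swap_preserves_volume hK p τ hW hsub hdisj hA]

/-- The basic inequality obtained from the swap competitor. -/
lemma swap_core {K : Set (E d)} (hK : MeasurableSet K) (hK0 : volume K ≠ 0) (hKt : volume K ≠ ⊤)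
    {μ : Measure (E d)} {T : E d → E d} (hT : IsOptimalMap K μ T) (hc : cost K T ≠ ⊤)
    (p : ι → E d) (τ : Equiv.Perm ι) {W : Set (E d)} (hW : MeasurableSet W)
    (hWp : volume W ≠ 0) (hWt : volume W ≠ ⊤)
    (hsub : ∀ i, ∀ w ∈ W, p i + w ∈ K)
    (hdisj : ∀ i j, i ≠ j → ∀ w ∈ W, ∀ w' ∈ W, p i + w ≠ p j + w')
    (a b : ι → ℝ) (ha0 : ∀ i, 0 ≤ a i) (hb0 : ∀ i, 0 ≤ b i) {ε : ℝ} (hε : 0 ≤ ε)
    (ha : ∀ i, ∀ w ∈ W, a i ≤ ‖(p i + w) - T (p i + w)‖ ^ 2 + ε)
    (hb : ∀ i, ∀ w ∈ W, ‖(p i + w) - T (p (τ i) + w)‖ ^ 2 ≤ b i + ε) :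
    ∑ i, a i ≤ ∑ i, b i + 2 * (Fintype.card ι) * ε := by
  obtain ⟨hTm, hTmap, hTopt⟩ := hT
  have hσ := measurable_swapMap p τ hW
  set σ := swapMap p τ W with hσdef
  have hmap : (unif K).map (T ∘ σ) = μ := by
    rw [← Measure.map_map hTm hσ, map_swap_eq hK p τ hW hsub hdisj, hTmap]
  have hopt := hTopt (T ∘ σ) (hTm.comp hσ) hmap
  simp only [cost] at hopt hc
  set ρ := unif K with hρ
  set f : E d → ENNReal := fun x => ENNReal.ofReal (‖x - T x‖ ^ 2) with hf
  set g : E d → ENNReal := fun x => ENNReal.ofReal (‖x - (T ∘ σ) x‖ ^ 2) with hg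
  have hfm : Measurable f :=
    ENNReal.measurable_ofReal.comp ((measurable_id.sub hTm).norm.pow_const 2)
  have hgm : Measurable g :=
    ENNReal.measurable_ofReal.comp ((measurable_id.sub (hTm.comp hσ)).norm.pow_const 2)
  have hUm := swapCell_measurable p hW
  have hUd := swapCell_disjoint p W hdisj
  set U := swapCell p W with hU
  have hΩ : MeasurableSet (⋃ i, U i) := MeasurableSet.iUnion hUm
  -- decomposition
  have e1 : ∫⁻ x, f x ∂ρ = ∑ i, ∫⁻ x in U i, f x ∂ρ + ∫⁻ x in (⋃ i, U i)ᶜ, f x ∂ρ := by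
    rw [← lintegral_add_compl f hΩ, lintegral_iUnion hUm hUd, tsum_fintype]
  have e2 : ∫⁻ x, g x ∂ρ = ∑ i, ∫⁻ x in U i, g x ∂ρ + ∫⁻ x in (⋃ i, U i)ᶜ, g x ∂ρ := by
    rw [← lintegral_add_compl g hΩ, lintegral_iUnion hUm hUd, tsum_fintype]
  have e3 : ∫⁻ x in (⋃ i, U i)ᶜ, g x ∂ρ = ∫⁻ x in (⋃ i, U i)ᶜ, f x ∂ρ := by
    apply setLIntegral_congr_fun hΩ.compl
    intro x hx
    have hx' : ∀ j, x - p j ∉ W := by
      intro j hj
      apply hx
      exact mem_iUnion.mpr ⟨j, hj⟩
    simp only [hg, hf, Function.comp]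
    rw [hσdef, swapMap_of_notMem p τ W hx']
  have hfin : ∫⁻ x in (⋃ i, U i)ᶜ, f x ∂ρ ≠ ⊤ :=
    ne_top_of_le_ne_top hc (setLIntegral_le_lintegral _ _)
  have hU : (∑ i, ∫⁻ x in U i, f x ∂ρ) ≤ ∑ i, ∫⁻ x in U i, g x ∂ρ := by
    have : ∑ i, ∫⁻ x in U i, f x ∂ρ + ∫⁻ x in (⋃ i, U i)ᶜ, f x ∂ρ ≤
        ∑ i, ∫⁻ x in U i, g x ∂ρ + ∫⁻ x in (⋃ i, U i)ᶜ, f x ∂ρ := by
      rw [← e1, ← e3, ← e2]
      exact hopt
    exact (ENNReal.add_le_add_iff_right hfin).mp this
  -- mass of cells
  set m : ENNReal := (volume K)⁻¹ * volume W with hm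
  have hm0 : m ≠ 0 := by
    rw [hm]
    exact mul_ne_zero (ENNReal.inv_ne_zero.mpr hKt) hWp
  have hmt : m ≠ ⊤ := by
    rw [hm]
    exact ENNReal.mul_ne_top (ENNReal.inv_ne_top.mpr hK0) hWt
  have hUK : ∀ i x, x ∈ U i → x ∈ K := by
    intro i x hx
    have hx' : x - p i ∈ W := hx
    have := hsub i _ hx'
    simpa using this
  have hρU : ∀ i, ρ (U i) = m := by
    intro i
    rw [hρ, unif, Measure.smul_apply, Measure.restrict_apply (hUm i), smul_eq_mul, hm]
    congr 1
    have : U i ∩ K = (fun x => x + (- p i)) ⁻¹' W := by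
      ext x
      constructor
      · rintro ⟨h, _⟩
        have h' : x - p i ∈ W := h
        simpa [sub_eq_add_neg] using h'
      · intro h
        have h' : x - p i ∈ W := by simpa [sub_eq_add_neg] using h
        exact ⟨h', hUK i x h'⟩
    rw [this, measure_preimage_add_right]
  -- pointwise bounds
  have hlow : ∀ i, ENNReal.ofReal (a i) * m ≤ ∫⁻ x in U i, f x ∂ρ + ENNReal.ofReal ε * m := by
    intro i
    have hpt : ∀ x ∈ U i, ENNReal.ofReal (a i) ≤ f x + ENNReal.ofReal ε := by
      intro x hx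
      have hx' : x - p i ∈ W := hx
      have := ha i _ hx'
      have e : p i + (x - p i) = x := by abel
      rw [e] at this
      simp only [hf]
      rw [← ENNReal.ofReal_add (by positivity) hε]
      exact ENNReal.ofReal_le_ofReal this
    calc ENNReal.ofReal (a i) * m = ∫⁻ _x in U i, ENNReal.ofReal (a i) ∂ρ := by
          rw [setLIntegral_const, hρU]
      _ ≤ ∫⁻ x in U i, (f x + ENNReal.ofReal ε) ∂ρ := setLIntegral_mono' (hUm i) hpt
      _ = ∫⁻ x in U i, f x ∂ρ + ENNReal.ofReal ε * m := by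
          rw [lintegral_add_right _ measurable_const, setLIntegral_const, hρU]
  have hup : ∀ i, ∫⁻ x in U i, g x ∂ρ ≤ ENNReal.ofReal (b i + ε) * m := by
    intro i
    have hpt : ∀ x ∈ U i, g x ≤ ENNReal.ofReal (b i + ε) := by
      intro x hx
      have hx' : x - p i ∈ W := hx
      have := hb i _ hx'
      have e : p i + (x - p i) = x := by abel
      rw [e] at this
      simp only [hg, Function.comp]
      rw [hσdef, swapMap_of_mem p τ W hdisj hx']
      apply ENNReal.ofReal_le_ofReal
      have e2 : x - p i + p (τ i) = p (τ i) + (x - p i) := by abel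
      rw [e2]
      exact this
    calc ∫⁻ x in U i, g x ∂ρ ≤ ∫⁻ _x in U i, ENNReal.ofReal (b i + ε) ∂ρ :=
          setLIntegral_mono' (hUm i) hpt
      _ = ENNReal.ofReal (b i + ε) * m := by rw [setLIntegral_const, hρU]
  have hsum : (∑ i, ENNReal.ofReal (a i)) * m ≤
      (∑ i, ENNReal.ofReal (b i + ε) + ∑ _i : ι, ENNReal.ofReal ε) * m := by
    rw [Finset.sum_mul, add_mul, Finset.sum_mul, Finset.sum_mul]
    calc ∑ i, ENNReal.ofReal (a i) * m ≤ ∑ i, (∫⁻ x in U i, f x ∂ρ + ENNReal.ofReal ε * m) :=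
          Finset.sum_le_sum (fun i _ => hlow i)
      _ = ∑ i, ∫⁻ x in U i, f x ∂ρ + ∑ _i : ι, ENNReal.ofReal ε * m := Finset.sum_add_distrib
      _ ≤ ∑ i, ∫⁻ x in U i, g x ∂ρ + ∑ _i : ι, ENNReal.ofReal ε * m := by gcongr
      _ ≤ ∑ i, ENNReal.ofReal (b i + ε) * m + ∑ _i : ι, ENNReal.ofReal ε * m := by
          gcongr with i _
          exact hup i
  have hcancel := (ENNReal.mul_le_mul_iff_left hm0 hmt).mp hsum
  rw [← ENNReal.ofReal_sum_of_nonneg (fun i _ => ha0 i),
    ← ENNReal.ofReal_sum_of_nonneg (fun i _ => add_nonneg (hb0 i) hε),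
    ← ENNReal.ofReal_sum_of_nonneg (fun i _ => hε),
    ← ENNReal.ofReal_add (Finset.sum_nonneg (fun i _ => add_nonneg (hb0 i) hε))
      (Finset.sum_nonneg (fun i _ => hε))] at hcancel
  have hnn : 0 ≤ ∑ i, (b i + ε) + ∑ _i : ι, ε :=
    add_nonneg (Finset.sum_nonneg (fun i _ => add_nonneg (hb0 i) hε))
      (Finset.sum_nonneg (fun i _ => hε))
  have := (ENNReal.ofReal_le_ofReal_iff hnn).mp hcancel
  rw [Finset.sum_add_distrib] at this
  simp only [Finset.sum_const, Finset.card_univ, nsmul_eq_mul] at this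
  linarith

end swap

end Vale.Agent.P074
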