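import Vale.Agent.Lib.P074.Atom

open MeasureTheory Set Filter Topology Metric
open scoped ENNReal

namespace Vale.Agent.P074

set_option linter.unusedSectionVars false

variable {d : ℕ}

/-- The constant of the interpolation step. -/
noncomputable def CG (d : ℕ) (R V a : ℝ) : ℝ :=
  d * (8 + 36 * R ^ 2 * (V * d / a)) + 4 * R ^ 2 * V / a

lemma CG_nonneg (d : ℕ) {R V a : ℝ} (hV : 0 ≤ V) (ha : 0 < a) : 0 ≤ CG d R V a := by
  unfold CG
  positivity

/-- The interpolation inequality with the optimal choice of the scale. -/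
theorem gn_opt {K : Set (E d)} (hK : IsCompact K) (hconv : Convex ℝ K) {c : E d} {a : ℝ}
    (ha : 0 < a) (hball : closedBall c a ⊆ K) {R : ℝ} (hR : 0 ≤ R)
    {φ ψ : E d → ℝ} (hφ : Continuous φ) (hψ : Continuous ψ)
    {T S : E d → E d} (mT : Measurable T) (mS : Measurable S)
    (hT : ∀ᵐ x ∂(volume.restrict K), (∀ y, φ x + inner ℝ (y - x) (T x) ≤ φ y) ∧ ‖T x‖ ≤ R)
    (hS : ∀ᵐ x ∂(volume.restrict K), (∀ y, ψ x + inner ℝ (y - x) (S x) ≤ ψ y) ∧ ‖S x‖ ≤ R)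
    (κ : ℝ) {Z : ℝ} (hZ0 : 0 < Z) (hZ : ∫ x in K, (φ x - ψ x - κ) ^ 2 ≤ Z) :
    ∫ x in K, ‖T x - S x‖ ^ 2 ≤ CG d R (volume.real K) a * Z ^ ((1 : ℝ) / 3) := by
  obtain ⟨V, hV⟩ : ∃ V, V = volume.real K := ⟨_, rfl⟩
  rw [← hV]
  have hV0 : 0 ≤ V := by rw [hV]; exact measureReal_nonneg
  obtain ⟨r, hr⟩ : ∃ r : ℝ, r = Z ^ ((1 : ℝ) / 3) := ⟨_, rfl⟩
  rw [← hr]
  have hr0 : 0 < r := by rw [hr]; exact Real.rpow_pos_of_pos hZ0 _
  have hr3 : r ^ 3 = Z := by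
    rw [hr, ← Real.rpow_natCast, ← Real.rpow_mul hZ0.le]
    norm_num
  have hd0 : (0 : ℝ) ≤ d := Nat.cast_nonneg d
  have hCG : CG d R V a * r = (d : ℝ) * (8 * r + 36 * R ^ 2 * (V * (d * (r / a)))) +
      4 * R ^ 2 * V / a * r := by
    unfold CG
    field_simp
  have hpos2 : (0 : ℝ) ≤ 4 * R ^ 2 * V / a * r := by positivity
  have hpos1 : (0 : ℝ) ≤ (d : ℝ) * (8 * r + 36 * R ^ 2 * (V * (d * (r / a)))) := by positivity
  rw [hCG]
  by_cases hra : r / a ≤ 1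
  · have h1 := gn_main hK hconv ha hball hr0 hra hR hφ hψ mT mS hT hS κ
    rw [← hV] at h1
    have h2 : (8 / r ^ 2) * (∫ x in K, (φ x - ψ x - κ) ^ 2) ≤ 8 * r := by
      calc (8 / r ^ 2) * (∫ x in K, (φ x - ψ x - κ) ^ 2) ≤ (8 / r ^ 2) * r ^ 3 := by
            rw [hr3]
            exact mul_le_mul_of_nonneg_left hZ (by positivity)
        _ = 8 * r := by field_simp
    have h3 : (d : ℝ) * ((8 / r ^ 2) * (∫ x in K, (φ x - ψ x - κ) ^ 2) +
        36 * R ^ 2 * (V * (d * (r / a)))) ≤ (d : ℝ) * (8 * r + 36 * R ^ 2 * (V * (d * (r / a)))) :=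
      mul_le_mul_of_nonneg_left (by linarith) hd0
    linarith
  · have hra' : 1 < r / a := not_le.mp hra
    have h0 : ∫ x in K, ‖T x - S x‖ ^ 2 ≤ 4 * R ^ 2 * V := by
      have := norm_setIntegral_le_of_norm_le_const_ae (μ := volume) (s := K)
        (f := fun x => ‖T x - S x‖ ^ 2) (C := 4 * R ^ 2) hK.measure_lt_top (by
          filter_upwards [hT, hS] with x h1 h2
          have h3 : ‖T x - S x‖ ≤ 2 * R := (norm_sub_le _ _).trans (by linarith [h1.2, h2.2])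
          rw [Real.norm_eq_abs, abs_of_nonneg (sq_nonneg _)]
          nlinarith [norm_nonneg (T x - S x)])
      rw [hV]
      exact (le_abs_self _).trans this
    have h1 : 4 * R ^ 2 * V ≤ 4 * R ^ 2 * V / a * r := by
      have e : 4 * R ^ 2 * V / a * r = 4 * R ^ 2 * V * (r / a) := by ring
      rw [e]
      have : 0 ≤ 4 * R ^ 2 * V := by positivity
      nlinarith
    linarith

section lifted

variable {ι ι₁ : Type} [Fintype ι] [Nonempty ι] [Fintype ι₁] [Nonempty ι₁]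

open scoped Classical in
/-- Existence of the optimal map for sites that are merged by a surjection. -/
theorem exists_lifted_aux {K : Set (E d)} (hK : IsCompact K) (hK0 : volume K ≠ 0)
    {ρ : ι → ι₁} (hρ : Function.Surjective ρ) {Y' : ι₁ → E d} (hY' : Function.Injective Y')
    {m : ι → ℝ} (hm0 : ∀ k, 0 < m k) (hsum : ∑ k, m k = volume.real K)
    {R : ℝ} (hR0 : 0 ≤ R) (hYR : ∀ f, ‖Y' f‖ ≤ R) :
    ∃ (c : ι → ℝ) (T : E d → E d), IsMin K (fun _ => 1) (Y' ∘ ρ) m c ∧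
      IsOptimalMap K ((unif K).map T) T ∧
      (∀ᵐ x ∂(volume.restrict K),
        (∀ y, pot (Y' ∘ ρ) c x + inner ℝ (y - x) (T x) ≤ pot (Y' ∘ ρ) c y) ∧ ‖T x‖ ≤ R) ∧
      (∀ x, ∃ k, T x = Y' (ρ k)) ∧
      (∀ k, unif K (T ⁻¹' {Y' (ρ k)}) = ENNReal.ofReal
        ((∑ l, if ρ l = ρ k then m l else 0) / volume.real K)) := by
  have mK := hK.measurableSet
  obtain ⟨n, hn⟩ : ∃ n : ι₁ → ℝ, ∀ f, n f = ∑ k, if ρ k = f then m k else 0 := ⟨_, fun _ => rfl⟩
  have hn0 : ∀ f, 0 < n f := by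
    intro f
    obtain ⟨k, rfl⟩ := hρ f
    apply lt_of_lt_of_le (hm0 k)
    rw [hn]
    have := Finset.single_le_sum (f := fun l => if ρ l = ρ k then m l else 0) (s := Finset.univ)
      (fun l _ => by
        show 0 ≤ if ρ l = ρ k then m l else 0
        split_ifs
        · exact (hm0 l).le
        · exact le_rfl) (Finset.mem_univ k)
    simpa using this
  have hnsum : ∑ f, n f = volume.real K := by
    rw [← hsum]
    simp only [hn]
    rw [Finset.sum_comm]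
    apply Finset.sum_congr rfl
    intro k _
    simp
  have hint1 : ∑ f, n f = ∫ x in K, (fun _ : E d => (1 : ℝ)) x := by
    rw [hnsum, int_const_real, mul_one]
  obtain ⟨fm, -, hfm⟩ := Finset.exists_min_image Finset.univ n Finset.univ_nonempty
  obtain ⟨Rk0, hRk0⟩ := hK.isBounded.exists_norm_le
  obtain ⟨c', -, hc'⟩ := exists_min (Y := Y') (a := fun _ => 1) hK mK continuous_const
    (fun _ _ => zero_le_one) (fun f => (hn0 f).le) hint1 (le_max_right Rk0 0)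
    (fun x hx => (hRk0 x hx).trans (le_max_left _ _)) hYR hR0 (hn0 fm)
    (fun f => hfm f (Finset.mem_univ f))
  have hopt : IsOpt K (fun _ => 1) Y' n c' :=
    opt_of_min hK mK continuous_const (fun _ _ => zero_le_one) hint1 hY' hc'
  obtain ⟨k₀⟩ : Nonempty ι₁ := inferInstance
  refine ⟨c' ∘ ρ, atomMap Y' c' k₀, ?_, atomMap_optimal hK hK0 hY' c' k₀, ?_, ?_, ?_⟩
  · exact lift_min hρ (fun k => (hm0 k).le) hn hc'
  · have e : pot (Y' ∘ ρ) (c' ∘ ρ) = pot Y' c' := funext (lift_pot hρ Y' c')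
    rw [e]
    filter_upwards [ae_restrict_of_ae (ae_mem_scell hY' c')] with x ⟨f, hf⟩
    refine ⟨fun y => atomMap_subgrad k₀ hf y, ?_⟩
    rw [atomMap_of_mem k₀ hf]
    exact hYR f
  · intro x
    obtain ⟨f, hf⟩ := atomMap_mem_range Y' c' k₀ x
    obtain ⟨k, rfl⟩ := hρ f
    exact ⟨k, hf⟩
  · intro k
    have h := atomMap_mass hK hK0 hY' hopt k₀ (ρ k)
    rw [hn] at h
    exact h

open scoped Classical in
/-- Existence of the optimal map for possibly repeated sites. -/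
theorem exists_lifted {K : Set (E d)} (hK : IsCompact K) (hK0 : volume K ≠ 0)
    (lab : ι → E d) {m : ι → ℝ} (hm0 : ∀ k, 0 < m k) (hsum : ∑ k, m k = volume.real K)
    {R : ℝ} (hR0 : 0 ≤ R) (hR : ∀ k, ‖lab k‖ ≤ R) :
    ∃ (c : ι → ℝ) (T : E d → E d), IsMin K (fun _ => 1) lab m c ∧
      IsOptimalMap K ((unif K).map T) T ∧
      (∀ᵐ x ∂(volume.restrict K),
        (∀ y, pot lab c x + inner ℝ (y - x) (T x) ≤ pot lab c y) ∧ ‖T x‖ ≤ R) ∧
      (∀ x, ∃ k, T x = lab k) ∧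
      (∀ k, unif K (T ⁻¹' {lab k}) = ENNReal.ofReal
        ((∑ l, if lab l = lab k then m l else 0) / volume.real K)) := by
  obtain ⟨F₀, hF₀⟩ : ∃ F₀ : Finset (E d), F₀ = Finset.univ.image lab := ⟨_, rfl⟩
  have hlab : ∀ k, lab k ∈ F₀ := fun k => by
    rw [hF₀]
    exact Finset.mem_image_of_mem lab (Finset.mem_univ k)
  obtain ⟨ρ, hρv⟩ : ∃ ρ : ι → ↥F₀, ∀ k, (ρ k).1 = lab k := ⟨fun k => ⟨lab k, hlab k⟩, fun _ => rfl⟩
  have hρ : Function.Surjective ρ := by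
    rintro ⟨f, hf⟩
    rw [hF₀] at hf
    obtain ⟨k, -, rfl⟩ := Finset.mem_image.mp hf
    exact ⟨k, Subtype.ext (hρv k)⟩
  have : Nonempty ↥F₀ := ⟨ρ (Classical.arbitrary ι)⟩
  have elb : (Subtype.val : ↥F₀ → E d) ∘ ρ = lab := funext hρv
  have hYR : ∀ f : ↥F₀, ‖(Subtype.val : ↥F₀ → E d) f‖ ≤ R := by
    intro f
    obtain ⟨k, rfl⟩ := hρ f
    rw [hρv]
    exact hR k
  have := exists_lifted_aux hK hK0 hρ Subtype.val_injective hm0 hsum hR0 hYR
  rw [elb] at this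
  obtain ⟨c, T, h1, h2, h3, h4, h5⟩ := this
  refine ⟨c, T, h1, h2, h3, ?_, ?_⟩
  · intro x
    obtain ⟨k, hk⟩ := h4 x
    exact ⟨k, by rw [hk, hρv]⟩
  · intro k
    have h := h5 k
    rw [hρv] at h
    rw [h]
    congr 2
    apply Finset.sum_congr rfl
    intro l _
    by_cases hl : lab l = lab k
    · rw [if_pos hl, if_pos (Subtype.ext (by rw [hρv, hρv, hl]))]
    · rw [if_neg hl, if_neg (fun h' => hl (by rw [← hρv l, ← hρv k, h']))]

end lifted

/-- Measures concentrated on a finite set are sums of atoms. -/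
lemma mass_eq_sum {A : Type} [MeasurableSpace A] [MeasurableSingletonClass A] (α : Measure A)
    (F : Finset A) (h : α (↑F)ᶜ = 0) (U : Set A) :
    α U = ∑ f ∈ F, U.indicator (fun f => α {f}) f := by
  classical
  have key : α U = ∑ f ∈ F with f ∈ U, α {f} := by
    rw [sum_measure_singleton]
    have hsub : U = (U ∩ ↑F) ∪ (U \ ↑F) := by
      ext x
      simp only [mem_union, mem_inter_iff, Set.mem_sdiff]
      tauto
    have h0 : α (U \ ↑F) = 0 := measure_mono_null (fun x hx => hx.2) h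
    have e : ((F.filter (· ∈ U) : Finset A) : Set A) = U ∩ ↑F := by
      ext x
      simp [and_comm]
    rw [e]
    apply le_antisymm
    · calc α U ≤ α (U ∩ ↑F) + α (U \ ↑F) := by
            nth_rw 1 [hsub]
            exact measure_union_le _ _
        _ = α (U ∩ ↑F) := by rw [h0, add_zero]
    · exact measure_mono inter_subset_left
  rw [key, Finset.sum_filter]
  apply Finset.sum_congr rfl
  intro f _
  by_cases hf : f ∈ U
  · simp [hf]
  · simp [hf]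

open scoped Classical in
/-- The image of the uniform measure is the marginal. -/
theorem target_eq {K : Set (E d)} {α : Measure (E d × E d)} [IsProbabilityMeasure α]
    (hV0 : 0 < volume.real K)
    (G : Finset (E d × E d)) (hG : α (↑G)ᶜ = 0) {g : E d × E d → E d} (mg : Measurable g)
    {T : E d → E d} (mT : Measurable T) (hrange : ∀ x, ∃ q : ↥G, T x = g q.1)
    (hmass : ∀ q : ↥G, unif K (T ⁻¹' {g q.1}) = ENNReal.ofReal
      ((∑ l : ↥G, if g l.1 = g q.1 then volume.real K * (α {l.1}).toReal else 0) / volume.real K)) :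
    (unif K).map T = α.map g := by
  have hm0 : MeasurableSet ((↑(G.image g) : Set (E d))ᶜ) :=
    ((G.image g).finite_toSet.measurableSet).compl
  apply measure_ext_of_finite (G.image g)
  · rw [Measure.map_apply mT hm0]
    have : T ⁻¹' (↑(G.image g) : Set (E d))ᶜ = ∅ := by
      ext x
      obtain ⟨q, hq⟩ := hrange x
      simp only [mem_preimage, mem_compl_iff, Finset.mem_coe, mem_empty_iff_false, iff_false,
        not_not, Finset.mem_image]
      exact ⟨q.1, q.2, hq.symm⟩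
    rw [this, measure_empty]
  · rw [Measure.map_apply mg hm0]
    refine measure_mono_null ?_ hG
    intro p hp hpG
    apply hp
    exact Finset.mem_coe.mpr (Finset.mem_image_of_mem g (Finset.mem_coe.mp hpG))
  · intro f hf
    obtain ⟨q₀, hq₀, rfl⟩ := Finset.mem_image.mp hf
    rw [Measure.map_apply mT (measurableSet_singleton _),
      Measure.map_apply mg (measurableSet_singleton _)]
    rw [hmass ⟨q₀, hq₀⟩]
    have hne : α (g ⁻¹' {g q₀}) ≠ ⊤ := measure_ne_top _ _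
    rw [← ENNReal.ofReal_toReal hne]
    congr 1
    rw [mass_eq_sum α G hG, ENNReal.toReal_sum (fun q _ => by
      by_cases hq : q ∈ g ⁻¹' {g q₀}
      · rw [indicator_of_mem hq]
        exact measure_ne_top _ _
      · rw [indicator_of_notMem hq]
        exact ENNReal.zero_ne_top)]
    rw [← Finset.sum_coe_sort G]
    rw [Finset.sum_div]
    apply Finset.sum_congr rfl
    intro l _
    by_cases hl : g l.1 = g q₀
    · have hmem : l.1 ∈ g ⁻¹' {g q₀} := hl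
      rw [if_pos hl, indicator_of_mem hmem]
      field_simp
    · have hmem : l.1 ∉ g ⁻¹' {g q₀} := hl
      rw [if_neg hl, indicator_of_notMem hmem]
      simp

/-- The discrete cost is bounded by the integral against the measure. -/
lemma sum_cost_le {α : Measure (E d × E d)} [IsProbabilityMeasure α] (G : Finset (E d × E d))
    {Z : ℝ} (hZ0 : 0 ≤ Z) (hZ : ∫⁻ p, ENNReal.ofReal (‖p.1 - p.2‖ ^ 2) ∂α ≤ ENNReal.ofReal Z) :
    ∑ q : ↥G, (α {q.1}).toReal * ‖q.1.2 - q.1.1‖ ^ 2 ≤ Z := by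
  have h1 : ∑ q ∈ G, ENNReal.ofReal (‖q.1 - q.2‖ ^ 2) * α {q} ≤ ENNReal.ofReal Z := by
    rw [← lintegral_finset]
    exact (setLIntegral_le_lintegral _ _).trans hZ
  have h2 := ENNReal.toReal_mono ENNReal.ofReal_ne_top h1
  rw [ENNReal.toReal_ofReal hZ0, ENNReal.toReal_sum (fun q _ =>
    ENNReal.mul_ne_top ENNReal.ofReal_ne_top (measure_ne_top _ _))] at h2
  rw [Finset.sum_coe_sort G (fun q => (α {q}).toReal * ‖q.2 - q.1‖ ^ 2)]
  refine le_trans (le_of_eq ?_) h2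
  apply Finset.sum_congr rfl
  intro q _
  rw [ENNReal.toReal_mul, ENNReal.toReal_ofReal (sq_nonneg _), norm_sub_rev, mul_comm]

open scoped Classical in
/-- Stability for couplings with all atoms positive. -/
theorem finite_coupling_pos {K : Set (E d)} (hK : IsCompact K) (hconv : Convex ℝ K) {c : E d} {a : ℝ}
    (ha : 0 < a) (hball : closedBall c a ⊆ K) {D : ℝ} (hD : 0 < D) (hD' : K ⊆ closedBall c D)
    {R : ℝ} (hR0 : 0 ≤ R) {α : Measure (E d × E d)} [IsProbabilityMeasure α]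
    (G : Finset (E d × E d)) (hG : α (↑G)ᶜ = 0) (hpos : ∀ q ∈ G, α {q} ≠ 0)
    (hGR : ∀ q ∈ G, ‖q.1‖ ≤ R ∧ ‖q.2‖ ≤ R) {Z : ℝ} (hZ0 : 0 < Z)
    (hZ : ∫⁻ p, ENNReal.ofReal (‖p.1 - p.2‖ ^ 2) ∂α ≤ ENNReal.ofReal Z) :
    ∃ T S : E d → E d, IsOptimalMap K (α.map Prod.fst) T ∧ IsOptimalMap K (α.map Prod.snd) S ∧
      ∫ x in K, ‖T x - S x‖ ^ 2 ≤
        CG d R (volume.real K) a * (196608 * D ^ 2 * (volume.real K * Z)) ^ ((1 : ℝ) / 3) := by
  have mK := hK.measurableSet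
  have fK : volume K ≠ ⊤ := hK.measure_lt_top.ne
  have hint : (interior K).Nonempty :=
    ⟨c, mem_interior.mpr ⟨ball c a, ball_subset_closedBall.trans hball, isOpen_ball,
      mem_ball_self ha⟩⟩
  have hK0 : volume K ≠ 0 := by
    have hpos : 0 < volume (closedBall c a) := measure_closedBall_pos volume c ha
    exact (hpos.trans_le (measure_mono hball)).ne'
  obtain ⟨V, hV⟩ : ∃ V, V = volume.real K := ⟨_, rfl⟩
  have hV0 : 0 < V := by
    rw [hV, measureReal_def]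
    exact ENNReal.toReal_pos hK0 fK
  have hsum1 : ∑ q ∈ G, (α {q}).toReal = 1 := by
    have h1 := mass_eq_sum α G hG univ
    simp only [indicator_univ, measure_univ] at h1
    have h2 := congrArg ENNReal.toReal h1
    rw [ENNReal.toReal_sum (fun _ _ => measure_ne_top _ _)] at h2
    simpa using h2.symm
  have hne : Nonempty ↥G := by
    by_contra h
    have : G = ∅ := by
      apply Finset.eq_empty_of_forall_notMem
      intro q hq
      exact h ⟨⟨q, hq⟩⟩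
    rw [this] at hsum1
    simp at hsum1
  obtain ⟨m, hm⟩ : ∃ m : ↥G → ℝ, ∀ q, m q = V * (α {q.1}).toReal := ⟨_, fun _ => rfl⟩
  have hm0 : ∀ q, 0 < m q := by
    intro q
    rw [hm]
    exact mul_pos hV0 (ENNReal.toReal_pos (hpos q.1 q.2) (measure_ne_top _ _))
  have hmsum : ∑ q, m q = volume.real K := by
    simp only [hm]
    rw [← Finset.mul_sum, Finset.sum_coe_sort G (fun q => (α {q}).toReal), hsum1, mul_one, hV]
  have hRf : ∀ q : ↥G, ‖q.1.1‖ ≤ R := fun q => (hGR q.1 q.2).1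
  have hRs : ∀ q : ↥G, ‖q.1.2‖ ≤ R := fun q => (hGR q.1 q.2).2
  obtain ⟨c₀, T, hc₀, hTo, hTs, hTr, hTm⟩ :=
    exists_lifted hK hK0 (fun q : ↥G => q.1.1) hm0 hmsum hR0 hRf
  obtain ⟨c₁, S, hc₁, hSo, hSs, hSr, hSm⟩ :=
    exists_lifted hK hK0 (fun q : ↥G => q.1.2) hm0 hmsum hR0 hRs
  have eT : (unif K).map T = α.map Prod.fst := by
    apply target_eq (hV ▸ hV0) G hG measurable_fst hTo.1 hTr
    intro q
    rw [hTm q]
    congr 2
    apply Finset.sum_congr rfl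
    intro l _
    rw [hm, hV]
  have eS : (unif K).map S = α.map Prod.snd := by
    apply target_eq (hV ▸ hV0) G hG measurable_snd hSo.1 hSr
    intro q
    rw [hSm q]
    congr 2
    apply Finset.sum_congr rfl
    intro l _
    rw [hm, hV]
  rw [eT] at hTo
  rw [eS] at hSo
  refine ⟨T, S, hTo, hSo, ?_⟩
  obtain ⟨Rk, hRk⟩ := hK.isBounded.exists_norm_le
  obtain ⟨qm, -, hqm⟩ := Finset.exists_min_image Finset.univ m Finset.univ_nonempty
  obtain ⟨φ, hφ⟩ : ∃ φ, φ = pot (fun q : ↥G => q.1.1) c₀ := ⟨_, rfl⟩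
  obtain ⟨ψ, hψ⟩ : ∃ ψ, ψ = pot (fun q : ↥G => q.1.2) c₁ := ⟨_, rfl⟩
  have cφ : Continuous φ := by rw [hφ]; exact pot_continuous _ _
  have cψ : Continuous ψ := by rw [hψ]; exact pot_continuous _ _
  obtain ⟨κ, hκ⟩ : ∃ κ, κ = V⁻¹ * ∫ x in K, (φ x - ψ x) := ⟨_, rfl⟩
  have hκ0 : ∫ x in K, (φ x - ψ x - κ) = 0 := by
    have i1 : IntegrableOn (fun x => φ x - ψ x) K volume :=
      (cφ.sub cψ).continuousOn.integrableOn_compact hK
    rw [integral_sub i1 (integrableOn_const fK), int_const_real, ← hV, hκ]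
    field_simp
    ring
  have hL2 := pot_L2 hK mK hconv hint hD hD' (le_max_right Rk 0)
    (fun x hx => (hRk x hx).trans (le_max_left _ _)) hR0 hRf hRs (hm0 qm)
    (fun q => hqm q (Finset.mem_univ q)) hmsum
    (fun q q' h => Subtype.ext (Prod.ext (congrArg Prod.fst h) (congrArg Prod.snd h))) hc₀ hc₁
    (κ := κ) (by rw [← hφ, ← hψ]; exact hκ0)
  rw [← hφ, ← hψ] at hL2
  rw [← hφ] at hTs
  rw [← hψ] at hSs
  have hcost : ∑ q : ↥G, m q * ‖q.1.2 - q.1.1‖ ^ 2 ≤ V * Z := by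
    have h1 := sum_cost_le G hZ0.le hZ
    simp only [hm, mul_assoc]
    rw [← Finset.mul_sum]
    exact mul_le_mul_of_nonneg_left h1 hV0.le
  have hZ' : ∫ x in K, (φ x - ψ x - κ) ^ 2 ≤ 196608 * D ^ 2 * (V * Z) :=
    hL2.trans (mul_le_mul_of_nonneg_left hcost (by positivity))
  rw [← hV]
  have := gn_opt hK hconv ha hball hR0 cφ cψ hTo.1 hSo.1 hTs hSs κ (by positivity) hZ'
  rw [← hV] at this
  exact this

open scoped Classical in
/-- Stability for finitely supported couplings. -/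
theorem finite_coupling {K : Set (E d)} (hK : IsCompact K) (hconv : Convex ℝ K) {c : E d} {a : ℝ}
    (ha : 0 < a) (hball : closedBall c a ⊆ K) {D : ℝ} (hD : 0 < D) (hD' : K ⊆ closedBall c D)
    {R : ℝ} (hR0 : 0 ≤ R) {α : Measure (E d × E d)} [IsProbabilityMeasure α]
    (G : Finset (E d × E d)) (hG : α (↑G)ᶜ = 0)
    (hGR : ∀ q ∈ G, ‖q.1‖ ≤ R ∧ ‖q.2‖ ≤ R) {Z : ℝ} (hZ0 : 0 < Z)
    (hZ : ∫⁻ p, ENNReal.ofReal (‖p.1 - p.2‖ ^ 2) ∂α ≤ ENNReal.ofReal Z) :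
    ∃ T S : E d → E d, IsOptimalMap K (α.map Prod.fst) T ∧ IsOptimalMap K (α.map Prod.snd) S ∧
      ∫ x in K, ‖T x - S x‖ ^ 2 ≤
        CG d R (volume.real K) a * (196608 * D ^ 2 * (volume.real K * Z)) ^ ((1 : ℝ) / 3) := by
  have hGp : α (↑(G.filter (fun q => α {q} ≠ 0)))ᶜ = 0 := by
    rw [mass_eq_sum α G hG]
    apply Finset.sum_eq_zero
    intro f hf
    by_cases h2 : f ∈ (↑(G.filter (fun q => α {q} ≠ 0)) : Set (E d × E d))ᶜ
    · rw [indicator_of_mem h2]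
      by_contra h3
      exact h2 (Finset.mem_coe.mpr (Finset.mem_filter.mpr ⟨hf, h3⟩))
    · rw [indicator_of_notMem h2]
  exact finite_coupling_pos hK hconv ha hball hD hD' hR0 (G.filter (fun q => α {q} ≠ 0)) hGp
    (fun q hq => (Finset.mem_filter.mp hq).2) (fun q hq => hGR q (Finset.mem_filter.mp hq).1)
    hZ0 hZ

/-- A measurable selection of nearby points in a finite set. -/
lemma exists_sel {ε : ℝ} (t : Finset (E d)) (ht : t.Nonempty) :
    ∃ P : E d → E d, Measurable P ∧ (∀ y, P y ∈ t) ∧ ∀ y, ∀ f ∈ t, dist y f < ε → dist y (P y) < ε := by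
  classical
  induction ht using Finset.Nonempty.cons_induction with
  | singleton a =>
    refine ⟨fun _ => a, measurable_const, by simp, ?_⟩
    intro y f hf h
    rw [Finset.mem_singleton] at hf
    rw [hf] at h
    exact h
  | cons a s h hs ih =>
    obtain ⟨P, mP, h1, h2⟩ := ih
    refine ⟨fun y => if dist y a < ε then a else P y,
      Measurable.ite (measurableSet_lt (by fun_prop) measurable_const) measurable_const mP, ?_, ?_⟩
    · intro y
      by_cases hy : dist y a < ε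
      · simp [hy]
      · simp [hy, h1 y]
    · intro y f hf hyf
      by_cases hy : dist y a < ε
      · simp only [hy, if_true]
      · simp only [hy, if_false]
        rw [Finset.mem_cons] at hf
        rcases hf with rfl | hf
        · exact absurd hyf hy
        · exact h2 y f hf hyf

/-- Discretization of a compact set. -/
lemma exists_disc {Y : Set (E d)} (hY : IsCompact Y) (hne : Y.Nonempty) {ε : ℝ} (hε : 0 < ε) :
    ∃ (P : E d → E d) (F : Finset (E d)), Measurable P ∧ (∀ y, P y ∈ F) ∧ ((↑F : Set (E d)) ⊆ Y) ∧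
      ∀ y ∈ Y, ‖y - P y‖ < ε := by
  obtain ⟨t, htY, htf, hcov⟩ := hY.finite_cover_balls hε
  obtain ⟨y₀, hy₀⟩ := hne
  have hcovpt : ∀ y ∈ Y, ∃ f ∈ t, dist y f < ε := by
    intro y hy
    have := hcov hy
    simp only [mem_iUnion, mem_ball, exists_prop] at this
    exact this
  have hFne : htf.toFinset.Nonempty := by
    obtain ⟨f, hf, -⟩ := hcovpt y₀ hy₀
    exact ⟨f, htf.mem_toFinset.mpr hf⟩
  obtain ⟨P, mP, h1, h2⟩ := exists_sel (ε := ε) htf.toFinset hFne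
  refine ⟨P, htf.toFinset, mP, h1, ?_, ?_⟩
  · intro f hf
    exact htY (htf.mem_toFinset.mp (Finset.mem_coe.mp hf))
  · intro y hy
    obtain ⟨f, hf, hyf⟩ := hcovpt y hy
    have := h2 y f (htf.mem_toFinset.mpr hf) hyf
    rwa [dist_eq_norm] at this

/-- The displacement bound for the Wasserstein distance to a pushforward. -/
lemma W2_map_le {μ : Measure (E d)} [IsProbabilityMeasure μ] {Y : Set (E d)}
    (hμ : μ Yᶜ = 0) {P : E d → E d} (mP : Measurable P) {ε : ℝ} (hε : 0 ≤ ε)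
    (hP : ∀ y ∈ Y, ‖y - P y‖ ≤ ε) : W2 μ (μ.map P) ≤ ε := by
  have mj : Measurable (fun y : E d => (y, P y)) := measurable_id.prodMk mP
  have hπ : IsCoupling μ (μ.map P) (μ.map (fun y => (y, P y))) := by
    constructor
    · rw [Measure.map_map measurable_fst mj]
      exact Measure.map_id
    · rw [Measure.map_map measurable_snd mj]
      rfl
  have mc : Measurable (fun p : E d × E d => ENNReal.ofReal (‖p.1 - p.2‖ ^ 2)) := by
    fun_prop
  have hcost : ∫⁻ p, ENNReal.ofReal (‖p.1 - p.2‖ ^ 2) ∂(μ.map (fun y => (y, P y))) ≤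
      ENNReal.ofReal (ε ^ 2) := by
    rw [lintegral_map mc mj]
    have hae : ∀ᵐ y ∂μ, y ∈ Y := by
      rw [ae_iff]
      exact hμ
    calc ∫⁻ y, ENNReal.ofReal (‖y - P y‖ ^ 2) ∂μ ≤ ∫⁻ _, ENNReal.ofReal (ε ^ 2) ∂μ := by
          apply lintegral_mono_ae
          filter_upwards [hae] with y hy
          apply ENNReal.ofReal_le_ofReal
          exact pow_le_pow_left₀ (norm_nonneg _) (hP y hy) 2
      _ = ENNReal.ofReal (ε ^ 2) := by simp
  have hmem : (∫⁻ p, ENNReal.ofReal (‖p.1 - p.2‖ ^ 2) ∂(μ.map (fun y => (y, P y)))) ∈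
      {c : ENNReal | ∃ π : Measure (E d × E d), IsCoupling μ (μ.map P) π ∧
        c = ∫⁻ p, ENNReal.ofReal (‖p.1 - p.2‖ ^ 2) ∂π} := ⟨_, hπ, rfl⟩
  have h1 : sInf {c : ENNReal | ∃ π : Measure (E d × E d), IsCoupling μ (μ.map P) π ∧
      c = ∫⁻ p, ENNReal.ofReal (‖p.1 - p.2‖ ^ 2) ∂π} ≤ ENNReal.ofReal (ε ^ 2) :=
    (sInf_le hmem).trans hcost
  have h2 := ENNReal.toReal_mono ENNReal.ofReal_ne_top h1
  rw [ENNReal.toReal_ofReal (sq_nonneg _)] at h2
  exact (Real.sqrt_le_sqrt h2).trans (by rw [Real.sqrt_sq hε])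

lemma L2dist_sq {K : Set (E d)} {V : ℝ} (hV : V = volume.real K) {A B : E d → E d}
    (mA : Measurable A) (mB : Measurable B) :
    L2dist K A B ^ 2 = V⁻¹ * ∫ x in K, ‖A x - B x‖ ^ 2 := by
  have hqm : Measurable (fun x => ‖A x - B x‖ ^ 2) := ((mA.sub mB).norm).pow_const 2
  rw [L2dist, Real.sq_sqrt ENNReal.toReal_nonneg,
    ← integral_eq_lintegral_of_nonneg_ae (ae_of_all _ fun x => sq_nonneg _)
      hqm.aestronglyMeasurable, integral_unif_eq hV]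

lemma int_sq_integrable {K : Set (E d)} (fK : volume K ≠ ⊤) {R : ℝ} {A B : E d → E d}
    (mA : Measurable A) (mB : Measurable B) (hA : ∀ᵐ x ∂(volume.restrict K), ‖A x‖ ≤ R)
    (hB : ∀ᵐ x ∂(volume.restrict K), ‖B x‖ ≤ R) :
    IntegrableOn (fun x => ‖A x - B x‖ ^ 2) K volume := by
  have hqm : Measurable (fun x => ‖A x - B x‖ ^ 2) := ((mA.sub mB).norm).pow_const 2
  apply Measure.integrableOn_of_bounded fK hqm.aestronglyMeasurable (M := (2 * R) ^ 2)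
  filter_upwards [hA, hB] with x h1 h2
  have h3 : ‖A x - B x‖ ≤ 2 * R := (norm_sub_le _ _).trans (by linarith)
  rw [Real.norm_eq_abs, abs_of_nonneg (sq_nonneg _)]
  exact pow_le_pow_left₀ (norm_nonneg _) h3 2

/-- The triangle inequality for squared distances with the factor `3`. -/
lemma int_tri {K : Set (E d)} (fK : volume K ≠ ⊤) {R : ℝ} {A B C' D' : E d → E d}
    (mA : Measurable A) (mB : Measurable B) (mC : Measurable C') (mD : Measurable D')
    (hA : ∀ᵐ x ∂(volume.restrict K), ‖A x‖ ≤ R) (hB : ∀ᵐ x ∂(volume.restrict K), ‖B x‖ ≤ R)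
    (hC : ∀ᵐ x ∂(volume.restrict K), ‖C' x‖ ≤ R) (hD : ∀ᵐ x ∂(volume.restrict K), ‖D' x‖ ≤ R) :
    ∫ x in K, ‖A x - D' x‖ ^ 2 ≤
      3 * ((∫ x in K, ‖A x - B x‖ ^ 2) + (∫ x in K, ‖B x - C' x‖ ^ 2) +
        ∫ x in K, ‖C' x - D' x‖ ^ 2) := by
  have iAD := int_sq_integrable fK mA mD hA hD
  have iAB := int_sq_integrable fK mA mB hA hB
  have iBC := int_sq_integrable fK mB mC hB hC
  have iCD := int_sq_integrable fK mC mD hC hD
  have i1 : IntegrableOn (fun x => ‖A x - B x‖ ^ 2 + ‖B x - C' x‖ ^ 2) K volume := iAB.add iBC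
  have i2 : IntegrableOn (fun x => ‖A x - B x‖ ^ 2 + ‖B x - C' x‖ ^ 2 + ‖C' x - D' x‖ ^ 2) K volume :=
    i1.add iCD
  rw [← integral_add iAB iBC, ← integral_add i1 iCD, ← integral_const_mul]
  apply integral_mono iAD (i2.const_mul 3)
  intro x
  show ‖A x - D' x‖ ^ 2 ≤ 3 * (‖A x - B x‖ ^ 2 + ‖B x - C' x‖ ^ 2 + ‖C' x - D' x‖ ^ 2)
  have e : A x - D' x = (A x - B x) + (B x - C' x) + (C' x - D' x) := by abel
  have h : ‖A x - D' x‖ ≤ ‖A x - B x‖ + ‖B x - C' x‖ + ‖C' x - D' x‖ := by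
    rw [e]
    exact norm_add₃_le
  have hn := norm_nonneg (A x - D' x)
  nlinarith [sq_nonneg (‖A x - B x‖ - ‖B x - C' x‖), sq_nonneg (‖A x - B x‖ - ‖C' x - D' x‖),
    sq_nonneg (‖B x - C' x‖ - ‖C' x - D' x‖)]

/-- One approximation step: discretize a near-optimal coupling. -/
theorem approx_step {K : Set (E d)} (hK : IsCompact K) (hconv : Convex ℝ K) {c : E d} {a : ℝ}
    (ha : 0 < a) (hball : closedBall c a ⊆ K) {D : ℝ} (hD : 0 < D) (hD' : K ⊆ closedBall c D)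
    {Y : Set (E d)} (hY : IsCompact Y) {R : ℝ} (hR0 : 0 ≤ R) (hRY : ∀ y ∈ Y, ‖y‖ ≤ R)
    {μ ν : Measure (E d)} [IsProbabilityMeasure μ] [IsProbabilityMeasure ν]
    (hμ : μ Yᶜ = 0) (hν : ν Yᶜ = 0) {ε : ℝ} (hε : 0 < ε) :
    ∃ P : E d → E d, Measurable P ∧ (∀ y, P y ∈ Y) ∧ (∀ y ∈ Y, ‖y - P y‖ ≤ ε) ∧
      ∃ T S : E d → E d, IsOptimalMap K (μ.map P) T ∧ IsOptimalMap K (ν.map P) S ∧
        ∫ x in K, ‖T x - S x‖ ^ 2 ≤ CG d R (volume.real K) a *
          (196608 * D ^ 2 * (volume.real K * (3 * (W2 μ ν) ^ 2 + 9 * ε ^ 2))) ^ ((1 : ℝ) / 3) := by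
  have hYm := hY.measurableSet
  have hne : Y.Nonempty := by
    by_contra h
    rw [not_nonempty_iff_eq_empty] at h
    rw [h, compl_empty, measure_univ] at hμ
    exact one_ne_zero hμ
  obtain ⟨P, F, mP, hPF, hFY, hPε⟩ := exists_disc hY hne hε
  refine ⟨P, mP, fun y => hFY (Finset.mem_coe.mpr (hPF y)), fun y hy => (hPε y hy).le, ?_⟩
  -- a near-optimal coupling
  have hne_top := wass_inf_ne_top (μ := μ) (ν := ν) hYm hμ hν hRY
  obtain ⟨W, hW⟩ : ∃ W : ℝ≥0∞, W = sInf {c : ENNReal | ∃ π : Measure (E d × E d), IsCoupling μ ν π ∧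
      c = ∫⁻ p, ENNReal.ofReal (‖p.1 - p.2‖ ^ 2) ∂π} := ⟨_, rfl⟩
  rw [← hW] at hne_top
  have hWsq : (W2 μ ν) ^ 2 = W.toReal := by
    rw [W2, ← hW, Real.sq_sqrt ENNReal.toReal_nonneg]
  have hlt : W < W + ENNReal.ofReal (ε ^ 2) :=
    ENNReal.lt_add_right hne_top (by
      simp only [ne_eq, ENNReal.ofReal_eq_zero, not_le]
      positivity)
  have hlt' := hlt
  nth_rw 1 [hW] at hlt'
  obtain ⟨cπ, ⟨π, hπ, rfl⟩, hπlt⟩ := sInf_lt_iff.mp hlt'
  have hπp := coupling_prob hπ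
  have mf : Measurable (Prod.map P P : E d × E d → E d × E d) := mP.prodMap mP
  have hαp : IsProbabilityMeasure (π.map (Prod.map P P)) :=
    Measure.isProbabilityMeasure_map mf.aemeasurable
  have hG : (π.map (Prod.map P P)) (↑(F ×ˢ F) : Set (E d × E d))ᶜ = 0 := by
    rw [Measure.map_apply mf ((F ×ˢ F).finite_toSet.measurableSet).compl]
    have : (Prod.map P P : E d × E d → E d × E d) ⁻¹' (↑(F ×ˢ F) : Set (E d × E d))ᶜ = ∅ := by
      ext p
      simp only [mem_preimage, mem_compl_iff, Finset.mem_coe, mem_empty_iff_false, iff_false,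
        not_not, Finset.mem_product, Prod.map_fst, Prod.map_snd]
      exact ⟨hPF _, hPF _⟩
    rw [this, measure_empty]
  have hGR : ∀ q ∈ F ×ˢ F, ‖q.1‖ ≤ R ∧ ‖q.2‖ ≤ R := by
    intro q hq
    rw [Finset.mem_product] at hq
    exact ⟨hRY _ (hFY (Finset.mem_coe.mpr hq.1)), hRY _ (hFY (Finset.mem_coe.mpr hq.2))⟩
  have hZ0 : 0 < 3 * (W2 μ ν) ^ 2 + 9 * ε ^ 2 := by positivity
  have mc : Measurable (fun p : E d × E d => ENNReal.ofReal (‖p.1 - p.2‖ ^ 2)) := by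
    fun_prop
  have hZ : ∫⁻ p, ENNReal.ofReal (‖p.1 - p.2‖ ^ 2) ∂(π.map (Prod.map P P)) ≤
      ENNReal.ofReal (3 * (W2 μ ν) ^ 2 + 9 * ε ^ 2) := by
    rw [lintegral_map mc mf]
    have h1 : ∀ᵐ p ∂π, ENNReal.ofReal (‖(Prod.map P P p).1 - (Prod.map P P p).2‖ ^ 2) ≤
        ENNReal.ofReal 3 * ENNReal.ofReal (‖p.1 - p.2‖ ^ 2) + ENNReal.ofReal (6 * ε ^ 2) := by
      filter_upwards [ae_fst_snd_mem hπ hYm hμ hν] with p hp
      rw [← ENNReal.ofReal_mul (by norm_num), ← ENNReal.ofReal_add (by positivity) (by positivity)]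
      apply ENNReal.ofReal_le_ofReal
      simp only [Prod.map_fst, Prod.map_snd]
      have h2 := hPε _ hp.1
      have h3 := hPε _ hp.2
      have e : P p.1 - P p.2 = (P p.1 - p.1) + (p.1 - p.2) + (p.2 - P p.2) := by abel
      have h4 : ‖P p.1 - P p.2‖ ≤ ‖P p.1 - p.1‖ + ‖p.1 - p.2‖ + ‖p.2 - P p.2‖ := by
        rw [e]
        exact norm_add₃_le
      rw [norm_sub_rev (P p.1) p.1] at h4
      have h5 := norm_nonneg (P p.1 - P p.2)
      have h6 := norm_nonneg (p.1 - P p.1)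
      have h7 := norm_nonneg (p.2 - P p.2)
      have h8 := norm_nonneg (p.1 - p.2)
      have h9 : ‖p.1 - P p.1‖ ^ 2 ≤ ε ^ 2 := pow_le_pow_left₀ h6 h2.le 2
      have h10 : ‖p.2 - P p.2‖ ^ 2 ≤ ε ^ 2 := pow_le_pow_left₀ h7 h3.le 2
      nlinarith [sq_nonneg (‖p.1 - P p.1‖ - ‖p.1 - p.2‖), sq_nonneg (‖p.1 - P p.1‖ - ‖p.2 - P p.2‖),
        sq_nonneg (‖p.1 - p.2‖ - ‖p.2 - P p.2‖)]
    refine (lintegral_mono_ae h1).trans ?_
    rw [lintegral_add_right _ measurable_const, lintegral_const_mul _ mc]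
    simp only [lintegral_const, measure_univ, mul_one]
    have h2 : ENNReal.ofReal 3 * ∫⁻ p, ENNReal.ofReal (‖p.1 - p.2‖ ^ 2) ∂π ≤
        ENNReal.ofReal 3 * (W + ENNReal.ofReal (ε ^ 2)) := by
      gcongr
    have h3 : W = ENNReal.ofReal ((W2 μ ν) ^ 2) := by
      rw [hWsq, ENNReal.ofReal_toReal hne_top]
    calc ENNReal.ofReal 3 * (∫⁻ p, ENNReal.ofReal (‖p.1 - p.2‖ ^ 2) ∂π) + ENNReal.ofReal (6 * ε ^ 2)
        ≤ ENNReal.ofReal 3 * (W + ENNReal.ofReal (ε ^ 2)) + ENNReal.ofReal (6 * ε ^ 2) := by gcongr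
      _ = ENNReal.ofReal (3 * (W2 μ ν) ^ 2 + 9 * ε ^ 2) := by
        rw [h3, ← ENNReal.ofReal_add (by positivity) (by positivity),
          ← ENNReal.ofReal_mul (by norm_num), ← ENNReal.ofReal_add (by positivity) (by positivity)]
        congr 1
        ring
  obtain ⟨T, S, hT, hS, hTS⟩ := finite_coupling hK hconv ha hball hD hD' hR0 (F ×ˢ F) hG hGR hZ0 hZ
  have e1 : (π.map (Prod.map P P)).map Prod.fst = μ.map P := by
    rw [Measure.map_map measurable_fst mf, ← hπ.1, Measure.map_map mP measurable_fst]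
    rfl
  have e2 : (π.map (Prod.map P P)).map Prod.snd = ν.map P := by
    rw [Measure.map_map measurable_snd mf, ← hπ.2, Measure.map_map mP measurable_snd]
    rfl
  rw [e1] at hT
  rw [e2] at hS
  exact ⟨T, S, hT, hS, hTS⟩

lemma quarter_sq {L C W ε : ℝ} (hL0 : 0 ≤ L) (hW0 : 0 ≤ W) (hWε : W ≤ ε)
    (hL : L ≤ C * W ^ ((1 : ℝ) / 4)) : L ^ 2 ≤ C ^ 2 * ε ^ ((1 : ℝ) / 2) := by
  have hε0 : 0 ≤ ε := hW0.trans hWε
  have h1 : W ^ ((1 : ℝ) / 4) ≤ ε ^ ((1 : ℝ) / 4) := Real.rpow_le_rpow hW0 hWε (by norm_num)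
  have h0 : 0 ≤ W ^ ((1 : ℝ) / 4) := Real.rpow_nonneg hW0 _
  have h2 : L ≤ |C| * ε ^ ((1 : ℝ) / 4) := by
    refine hL.trans ?_
    calc C * W ^ ((1 : ℝ) / 4) ≤ |C| * W ^ ((1 : ℝ) / 4) :=
          mul_le_mul_of_nonneg_right (le_abs_self C) h0
      _ ≤ |C| * ε ^ ((1 : ℝ) / 4) := mul_le_mul_of_nonneg_left h1 (abs_nonneg C)
  have h3 : (ε ^ ((1 : ℝ) / 4)) ^ 2 = ε ^ ((1 : ℝ) / 2) := by
    rw [← Real.rpow_natCast, ← Real.rpow_mul hε0]
    norm_num
  calc L ^ 2 ≤ (|C| * ε ^ ((1 : ℝ) / 4)) ^ 2 := pow_le_pow_left₀ hL0 h2 2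
    _ = C ^ 2 * ε ^ ((1 : ℝ) / 2) := by rw [mul_pow, sq_abs, h3]

/-- The bound for each scale of the approximation. -/
theorem scale_bound {K : Set (E d)} (hK : IsCompact K) (hconv : Convex ℝ K) {c : E d} {a : ℝ}
    (ha : 0 < a) (hball : closedBall c a ⊆ K) {D : ℝ} (hD : 0 < D) (hD' : K ⊆ closedBall c D)
    {Y : Set (E d)} (hY : IsCompact Y) {R : ℝ} (hR0 : 0 ≤ R) (hRY : ∀ y ∈ Y, ‖y‖ ≤ R)
    {Cq : ℝ} (hCq : ∀ μ ν : Measure (E d),
      IsProbabilityMeasure μ → IsProbabilityMeasure ν → μ Yᶜ = 0 → ν Yᶜ = 0 →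
      ∀ T S : E d → E d, IsOptimalMap K μ T → IsOptimalMap K ν S →
        L2dist K T S ≤ Cq * W2 μ ν ^ ((1 : ℝ) / 4))
    {μ ν : Measure (E d)} [IsProbabilityMeasure μ] [IsProbabilityMeasure ν]
    (hμ : μ Yᶜ = 0) (hν : ν Yᶜ = 0) {T S : E d → E d} (hT : IsOptimalMap K μ T)
    (hS : IsOptimalMap K ν S) {ε : ℝ} (hε : 0 < ε) {V : ℝ} (hV : V = volume.real K) :
    V⁻¹ * ∫ x in K, ‖T x - S x‖ ^ 2 ≤ 6 * (Cq ^ 2 * ε ^ ((1 : ℝ) / 2)) +
      3 * (V⁻¹ * (CG d R V a *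
        (196608 * D ^ 2 * (V * (3 * (W2 μ ν) ^ 2 + 9 * ε ^ 2))) ^ ((1 : ℝ) / 3))) := by
  have hYm := hY.measurableSet
  have fK : volume K ≠ ⊤ := hK.measure_lt_top.ne
  have hK0 : volume K ≠ 0 := by
    have hpos : 0 < volume (closedBall c a) := measure_closedBall_pos volume c ha
    exact (hpos.trans_le (measure_mono hball)).ne'
  have hV0 : 0 < V := by
    rw [hV, measureReal_def]
    exact ENNReal.toReal_pos hK0 fK
  obtain ⟨P, mP, hPY, hPε, Tε, Sε, hTε, hSε, hI⟩ :=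
    approx_step hK hconv ha hball hD hD' hY hR0 hRY hμ hν hε
  rw [← hV] at hI
  have hpreim : P ⁻¹' Yᶜ = ∅ := by
    ext y
    simp [hPY y]
  have hμP : (μ.map P) Yᶜ = 0 := by
    rw [Measure.map_apply mP hYm.compl, hpreim, measure_empty]
  have hνP : (ν.map P) Yᶜ = 0 := by
    rw [Measure.map_apply mP hYm.compl, hpreim, measure_empty]
  have pμ : IsProbabilityMeasure (μ.map P) := Measure.isProbabilityMeasure_map mP.aemeasurable
  have pν : IsProbabilityMeasure (ν.map P) := Measure.isProbabilityMeasure_map mP.aemeasurable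
  have hW1 : W2 μ (μ.map P) ≤ ε := W2_map_le hμ mP hε.le hPε
  have hW2 : W2 ν (ν.map P) ≤ ε := W2_map_le hν mP hε.le hPε
  have q1 : L2dist K T Tε ^ 2 ≤ Cq ^ 2 * ε ^ ((1 : ℝ) / 2) :=
    quarter_sq (Real.sqrt_nonneg _) (Real.sqrt_nonneg _) hW1
      (hCq μ (μ.map P) inferInstance pμ hμ hμP T Tε hT hTε)
  have q2 : L2dist K S Sε ^ 2 ≤ Cq ^ 2 * ε ^ ((1 : ℝ) / 2) :=
    quarter_sq (Real.sqrt_nonneg _) (Real.sqrt_nonneg _) hW2
      (hCq ν (ν.map P) inferInstance pν hν hνP S Sε hS hSε)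
  rw [L2dist_sq hV hT.1 hTε.1] at q1
  rw [L2dist_sq hV hS.1 hSε.1] at q2
  have bd : ∀ {ξ : Measure (E d)} {U : E d → E d}, ξ Yᶜ = 0 → IsOptimalMap K ξ U →
      ∀ᵐ x ∂(volume.restrict K), ‖U x‖ ≤ R := by
    intro ξ U h1 h2
    filter_upwards [ae_map_mem hK0 fK h2 hYm h1] with x hx using hRY _ hx
  have htri := int_tri fK hT.1 hTε.1 hSε.1 hS.1 (bd hμ hT) (bd hμP hTε) (bd hνP hSε) (bd hν hS)
  have hsym : ∫ x in K, ‖Sε x - S x‖ ^ 2 = ∫ x in K, ‖S x - Sε x‖ ^ 2 := by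
    congr 1
    ext x
    rw [norm_sub_rev]
  rw [hsym] at htri
  have h1 := mul_le_mul_of_nonneg_left htri (inv_nonneg.mpr hV0.le)
  have h4 := mul_le_mul_of_nonneg_left hI (inv_nonneg.mpr hV0.le)
  have e : V⁻¹ * (3 * ((∫ x in K, ‖T x - Tε x‖ ^ 2) + (∫ x in K, ‖Tε x - Sε x‖ ^ 2) +
      ∫ x in K, ‖S x - Sε x‖ ^ 2)) = 3 * (V⁻¹ * ∫ x in K, ‖T x - Tε x‖ ^ 2) +
      3 * (V⁻¹ * ∫ x in K, ‖Tε x - Sε x‖ ^ 2) + 3 * (V⁻¹ * ∫ x in K, ‖S x - Sε x‖ ^ 2) := by ring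
  rw [e] at h1
  linarith

/-- The exponent `1/3` is admissible in every dimension. -/
theorem admissible_third (hd : 1 ≤ d) : Admissible d (1 / 3) := by
  intro K hKc hconv hKint Y hY
  obtain ⟨Cq, hCq⟩ := admissible_quarter hd K hKc hconv hKint Y hY
  obtain ⟨c, hc⟩ := hKint
  obtain ⟨a, ha, hball⟩ : ∃ a > 0, closedBall c a ⊆ K := by
    rcases Metric.nhds_basis_closedBall.mem_iff.mp (mem_interior_iff_mem_nhds.mp hc) with ⟨a, ha, h⟩
    exact ⟨a, ha, h⟩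
  have fK : volume K ≠ ⊤ := hKc.measure_lt_top.ne
  have hK0 : volume K ≠ 0 := by
    have hpos : 0 < volume (closedBall c a) := measure_closedBall_pos volume c ha
    exact (hpos.trans_le (measure_mono hball)).ne'
  obtain ⟨D₀, hD₀⟩ : ∃ D₀, K ⊆ closedBall c D₀ := hKc.isBounded.subset_closedBall c
  have hD0 : 0 < max D₀ 1 := lt_max_of_lt_right one_pos
  have hD' : K ⊆ closedBall c (max D₀ 1) := hD₀.trans (closedBall_subset_closedBall (le_max_left _ _))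
  obtain ⟨D, hDdef⟩ : ∃ D, D = max D₀ 1 := ⟨_, rfl⟩
  rw [← hDdef] at hD0 hD'
  obtain ⟨R₀, hR₀⟩ := hY.isBounded.exists_norm_le
  obtain ⟨R, hRdef⟩ : ∃ R, R = max R₀ 0 := ⟨_, rfl⟩
  have hR0 : 0 ≤ R := by rw [hRdef]; exact le_max_right _ _
  have hRY : ∀ y ∈ Y, ‖y‖ ≤ R := fun y hy => (hR₀ y hy).trans (by rw [hRdef]; exact le_max_left _ _)
  obtain ⟨V, hV⟩ : ∃ V, V = volume.real K := ⟨_, rfl⟩
  have hV0 : 0 < V := by
    rw [hV, measureReal_def]
    exact ENNReal.toReal_pos hK0 fK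
  obtain ⟨C1, hC1⟩ : ∃ C1, C1 = 3 * (V⁻¹ * (CG d R V a *
      (196608 * D ^ 2 * V * 3) ^ ((1 : ℝ) / 3))) := ⟨_, rfl⟩
  have hC10 : 0 ≤ C1 := by
    rw [hC1]
    have := CG_nonneg d (R := R) hV0.le ha
    have h2 : 0 ≤ (196608 * D ^ 2 * V * 3) ^ ((1 : ℝ) / 3) := Real.rpow_nonneg (by positivity) _
    positivity
  refine ⟨Real.sqrt C1, ?_⟩
  intro μ ν hμp hνp hμY hνY T S hT hS
  obtain ⟨W, hW⟩ : ∃ W, W = W2 μ ν := ⟨_, rfl⟩
  have hW0 : 0 ≤ W := by rw [hW]; exact Real.sqrt_nonneg _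
  rw [← hW]
  have hbound : ∀ ε ∈ Ioi (0 : ℝ), V⁻¹ * ∫ x in K, ‖T x - S x‖ ^ 2 ≤
      6 * (Cq ^ 2 * ε ^ ((1 : ℝ) / 2)) + 3 * (V⁻¹ * (CG d R V a *
        (196608 * D ^ 2 * (V * (3 * W ^ 2 + 9 * ε ^ 2))) ^ ((1 : ℝ) / 3))) := by
    intro ε hε
    rw [hW]
    exact scale_bound hKc hconv ha hball hD0 hD' hY hR0 hRY hCq hμY hνY hT hS hε hV
  have hcont : Continuous (fun ε : ℝ => 6 * (Cq ^ 2 * ε ^ ((1 : ℝ) / 2)) + 3 * (V⁻¹ * (CG d R V a *
      (196608 * D ^ 2 * (V * (3 * W ^ 2 + 9 * ε ^ 2))) ^ ((1 : ℝ) / 3)))) := by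
    have h1 : Continuous (fun ε : ℝ => ε ^ ((1 : ℝ) / 2)) :=
      continuous_id.rpow_const (fun _ => Or.inr (by norm_num))
    have h2 : Continuous (fun ε : ℝ => (196608 * D ^ 2 * (V * (3 * W ^ 2 + 9 * ε ^ 2))) ^ ((1 : ℝ) / 3)) :=
      (by fun_prop : Continuous (fun ε : ℝ => 196608 * D ^ 2 * (V * (3 * W ^ 2 + 9 * ε ^ 2)))).rpow_const
        (fun _ => Or.inr (by norm_num))
    exact ((h1.const_mul _).const_mul _).add (((h2.const_mul _).const_mul _).const_mul _)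
  have hlim := ge_of_tendsto ((hcont.tendsto 0).mono_left (nhdsWithin_le_nhds (s := Ioi 0)))
    (eventually_mem_nhdsWithin.mono hbound)
  have e0 : (0 : ℝ) ^ ((1 : ℝ) / 2) = 0 := Real.zero_rpow (by norm_num)
  have e1 : 196608 * D ^ 2 * (V * (3 * W ^ 2 + 9 * (0 : ℝ) ^ 2)) = (196608 * D ^ 2 * V * 3) * W ^ 2 := by
    ring
  simp only [e0, e1, mul_zero, zero_add] at hlim
  rw [Real.mul_rpow (by positivity) (by positivity)] at hlim
  have e2 : (W ^ 2) ^ ((1 : ℝ) / 3) = (W ^ ((1 : ℝ) / 3)) ^ 2 := by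
    rw [← Real.rpow_natCast W 2, ← Real.rpow_natCast (W ^ ((1 : ℝ) / 3)) 2, ← Real.rpow_mul hW0,
      ← Real.rpow_mul hW0]
    congr 1
    ring
  have hu : 0 ≤ W ^ ((1 : ℝ) / 3) := Real.rpow_nonneg hW0 _
  have hsq : L2dist K T S ^ 2 ≤ (Real.sqrt C1 * W ^ ((1 : ℝ) / 3)) ^ 2 := by
    rw [L2dist_sq hV hT.1 hS.1, mul_pow, Real.sq_sqrt hC10, hC1, ← e2]
    refine hlim.trans (le_of_eq ?_)
    ring
  exact (pow_le_pow_iff_left₀ (Real.sqrt_nonneg _) (mul_nonneg (Real.sqrt_nonneg _) hu)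
    two_ne_zero).mp hsq

end Vale.Agent.P074
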