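import Vale.Agent.Lib.P074.Main
import Vale.Agent.Lib.P074.Quarter

open MeasureTheory Set

namespace Vale.Agent.P074

/-- The first transport distance: the infimum over couplings `π` of `∫ |y - z| dπ(y, z)`. -/
noncomputable def W1 {d : ℕ} (μ ν : Measure (E d)) : ℝ :=
  (sInf {c : ENNReal | ∃ π : Measure (E d × E d), IsCoupling μ ν π ∧
    c = ∫⁻ p, ENNReal.ofReal ‖p.1 - p.2‖ ∂π}).toReal

lemma W1_nonneg {d : ℕ} (μ ν : Measure (E d)) : 0 ≤ W1 μ ν := ENNReal.toReal_nonneg

lemma W1_inf_ne_top {d : ℕ} {μ ν : Measure (E d)} [IsProbabilityMeasure μ] [IsProbabilityMeasure ν]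
    {Y : Set (E d)} (hYm : MeasurableSet Y) (hμ : μ Yᶜ = 0) (hν : ν Yᶜ = 0)
    {R : ℝ} (hR : ∀ y ∈ Y, ‖y‖ ≤ R) :
    sInf {c : ENNReal | ∃ π : Measure (E d × E d), IsCoupling μ ν π ∧
      c = ∫⁻ p, ENNReal.ofReal ‖p.1 - p.2‖ ∂π} ≠ ⊤ := by
  have hcoup : IsCoupling μ ν (μ.prod ν) := by
    constructor
    · simp
    · simp
  apply ne_top_of_le_ne_top (ENNReal.ofReal_ne_top (r := 2 * R))
  have hmem : (∫⁻ p, ENNReal.ofReal ‖p.1 - p.2‖ ∂(μ.prod ν)) ∈
      {c : ENNReal | ∃ π : Measure (E d × E d), IsCoupling μ ν π ∧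
        c = ∫⁻ p, ENNReal.ofReal ‖p.1 - p.2‖ ∂π} := ⟨μ.prod ν, hcoup, rfl⟩
  refine (sInf_le hmem).trans ?_
  have : IsProbabilityMeasure (μ.prod ν) := coupling_prob hcoup
  have h : ∀ᵐ p ∂(μ.prod ν), ENNReal.ofReal ‖p.1 - p.2‖ ≤ ENNReal.ofReal (2 * R) := by
    filter_upwards [ae_fst_snd_mem hcoup hYm hμ hν] with p hp
    apply ENNReal.ofReal_le_ofReal
    have h1 := hR _ hp.1
    have h2 := hR _ hp.2
    exact (norm_sub_le _ _).trans (by linarith)
  calc ∫⁻ p, ENNReal.ofReal ‖p.1 - p.2‖ ∂(μ.prod ν)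
      ≤ ∫⁻ _, ENNReal.ofReal (2 * R) ∂(μ.prod ν) := lintegral_mono_ae h
    _ = ENNReal.ofReal (2 * R) := by simp

/-- Lipschitz test integrals are controlled by the first transport distance. -/
theorem W1_bound {d : ℕ} {μ ν : Measure (E d)} [IsProbabilityMeasure μ] [IsProbabilityMeasure ν]
    {Y : Set (E d)} (hY : IsCompact Y) (hμ : μ Yᶜ = 0) (hν : ν Yᶜ = 0)
    {f : E d → ℝ} {Λ : ℝ} (hΛ : 0 < Λ) (hf : ∀ y z, f y ≤ f z + Λ * ‖y - z‖) :
    ∫ y, f y ∂ν - ∫ y, f y ∂μ ≤ Λ * W1 μ ν := by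
  have hYm : MeasurableSet Y := hY.measurableSet
  obtain ⟨R, hR⟩ := hY.isBounded.exists_norm_le
  have hfc : Continuous f := lip_continuous hΛ.le hf
  obtain ⟨Bf, hBf⟩ := hY.exists_bound_of_continuousOn hfc.continuousOn
  obtain ⟨D, hD⟩ : ∃ D, D = ∫ y, f y ∂ν - ∫ y, f y ∂μ := ⟨_, rfl⟩
  rw [← hD]
  rcases le_or_gt D 0 with hD0 | hD0
  · have : 0 ≤ Λ * W1 μ ν := mul_nonneg hΛ.le (W1_nonneg _ _)
    linarith
  have key : ∀ c ∈ {c : ENNReal | ∃ π : Measure (E d × E d), IsCoupling μ ν π ∧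
      c = ∫⁻ p, ENNReal.ofReal ‖p.1 - p.2‖ ∂π}, ENNReal.ofReal (D / Λ) ≤ c := by
    rintro c ⟨π, hπ, rfl⟩
    have hprob := coupling_prob hπ
    have hae := ae_fst_snd_mem hπ hYm hμ hν
    have e1 : ∫ y, f y ∂ν = ∫ p, f p.2 ∂π := by
      rw [← hπ.2, integral_map measurable_snd.aemeasurable hfc.aestronglyMeasurable]
    have e2 : ∫ y, f y ∂μ = ∫ p, f p.1 ∂π := by
      rw [← hπ.1, integral_map measurable_fst.aemeasurable hfc.aestronglyMeasurable]
    have i1 : Integrable (fun p : E d × E d => f p.2) π := by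
      apply Integrable.of_bound (hfc.comp continuous_snd).aestronglyMeasurable Bf
      filter_upwards [hae] with p hp
      exact hBf _ hp.2
    have i2 : Integrable (fun p : E d × E d => f p.1) π := by
      apply Integrable.of_bound (hfc.comp continuous_fst).aestronglyMeasurable Bf
      filter_upwards [hae] with p hp
      exact hBf _ hp.1
    have hgc : Continuous (fun p : E d × E d => ‖p.1 - p.2‖) := by fun_prop
    have hgb : ∀ᵐ p ∂π, ‖p.1 - p.2‖ ≤ 2 * R := by
      filter_upwards [hae] with p hp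
      have h1 := hR _ hp.1
      have h2 := hR _ hp.2
      exact (norm_sub_le _ _).trans (by linarith)
    have i3 : Integrable (fun p : E d × E d => ‖p.1 - p.2‖) π := by
      apply Integrable.of_bound hgc.aestronglyMeasurable (2 * R)
      filter_upwards [hgb] with p hp
      rwa [norm_norm]
    have h1 : D ≤ Λ * ∫ p, ‖p.1 - p.2‖ ∂π := by
      rw [hD, e1, e2, ← integral_sub i1 i2, ← integral_const_mul]
      apply integral_mono (i1.sub i2) (i3.const_mul _)
      intro p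
      have := hf p.2 p.1
      rw [norm_sub_rev] at this
      show f p.2 - f p.1 ≤ Λ * ‖p.1 - p.2‖
      linarith
    have h4 : D / Λ ≤ ∫ p, ‖p.1 - p.2‖ ∂π := by
      rw [div_le_iff₀ hΛ]
      linarith
    rw [← ofReal_integral_eq_lintegral_ofReal i3 (ae_of_all _ (fun p => norm_nonneg _))]
    exact ENNReal.ofReal_le_ofReal h4
  have h1 := le_sInf key
  have hne := W1_inf_ne_top (μ := μ) (ν := ν) hYm hμ hν hR
  have h2 := ENNReal.toReal_mono hne h1
  rw [ENNReal.toReal_ofReal (by positivity)] at h2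
  have h3 : D / Λ ≤ W1 μ ν := h2
  rw [div_le_iff₀ hΛ] at h3
  linarith

/-- The stability estimate with the first transport distance. -/
theorem stability_one {d : ℕ} (hd : 1 ≤ d) (K : Set (E d)) (hKc : IsCompact K)
    (hKconv : Convex ℝ K) (hKint : (interior K).Nonempty) (Y : Set (E d)) (hY : IsCompact Y) :
    ∃ C : ℝ, ∀ μ ν : Measure (E d), IsProbabilityMeasure μ → IsProbabilityMeasure ν → μ Yᶜ = 0 →
      ν Yᶜ = 0 → ∀ T S : E d → E d, IsOptimalMap K μ T → IsOptimalMap K ν S →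
      L2dist K T S ≤ C * W1 μ ν ^ ((1 : ℝ) / 4) := by
  obtain ⟨C, hC⟩ := stability_core hd K hKc hKconv hKint Y hY
  refine ⟨C, ?_⟩
  intro μ ν hμp hνp hμY hνY T S hT hS
  exact hC μ ν hμp hνp hμY hνY T S hT hS (W1 μ ν) (W1_nonneg _ _)
    (fun f Λ hΛ hf => W1_bound hY hμY hνY hΛ hf)

open scoped Classical in
/-- The family of examples, with the bound on the first transport distance. -/
lemma family_one {d : ℕ} {i j : Fin d} (hij : i ≠ j) {s : ℝ} (hs0 : 0 < s) (hs1 : s ≤ 1 / 2) :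
    ∃ μ ν : Measure (E d), ∃ T S : E d → E d,
      IsProbabilityMeasure μ ∧ IsProbabilityMeasure ν ∧
      μ (Metric.closedBall 0 2)ᶜ = 0 ∧ ν (Metric.closedBall 0 2)ᶜ = 0 ∧
      IsOptimalMap (cube d) μ T ∧ IsOptimalMap (cube d) ν S ∧
      s / 3 ≤ L2dist (cube d) T S ∧ W1 μ ν ≤ 2 * s ^ 4 := by
  obtain ⟨ρ, hρ⟩ : ∃ ρ, ρ = unif (cube d) := ⟨_, rfl⟩
  have : IsProbabilityMeasure ρ := by rw [hρ]; infer_instance
  obtain ⟨m, hm⟩ : ∃ m : ℝ, m = s ^ 2 := ⟨_, rfl⟩
  obtain ⟨δ, hδ⟩ : ∃ δ : ℝ, δ = 2 * m := ⟨_, rfl⟩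
  have hm0 : 0 < m := by rw [hm]; positivity
  have hmq : m ≤ 1 / 4 := by rw [hm]; nlinarith
  have hδ0 : 0 < δ := by rw [hδ]; positivity
  obtain ⟨ei, hei⟩ : ∃ e : E d, e = EuclideanSpace.single i (1:ℝ) := ⟨_, rfl⟩
  obtain ⟨ej, hej⟩ : ∃ e : E d, e = EuclideanSpace.single j (1:ℝ) := ⟨_, rfl⟩
  have hiei : ∀ x : E d, inner ℝ x ei = x i := fun x => by rw [hei]; exact inner_single' x i
  have hiej : ∀ x : E d, inner ℝ x ej = x j := fun x => by rw [hej]; exact inner_single' x j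
  have hnei : ‖ei‖ = 1 := by simp [hei]
  have hnej : ‖ej‖ = 1 := by simp [hej]
  have heii : ei i = 1 := by simp [hei]
  have heij : ei j = 0 := by simp [hei, hij.symm]
  have hy1ne : ei ≠ (0 : E d) := by
    intro h
    rw [h, norm_zero] at hnei
    norm_num at hnei
  have hnδ : ‖δ • ej‖ = δ := by rw [norm_smul, hnej, mul_one, Real.norm_of_nonneg hδ0.le]
  obtain ⟨y2, hy2⟩ : ∃ y : E d, y = ei + δ • ej := ⟨_, rfl⟩
  have hny2 : ‖y2‖ ≤ 1 + δ := by
    rw [hy2]
    calc ‖ei + δ • ej‖ ≤ ‖ei‖ + ‖δ • ej‖ := norm_add_le _ _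
      _ = 1 + δ := by rw [hnei, hnδ]
  have hδq : δ ≤ 1 / 2 := by rw [hδ]; linarith
  have hy2ne : y2 ≠ (0 : E d) := by
    intro h
    have h3 : inner ℝ (ei : E d) y2 = 0 := by rw [h, inner_zero_right]
    rw [hy2, inner_add_right, inner_smul_right, hiej, hiei, heii, heij] at h3
    norm_num at h3
  -- the two half-spaces
  obtain ⟨L, hL⟩ : ∃ L : Set (E d), L = {x : E d | (1 - m) < inner ℝ x (ei - 0)} := ⟨_, rfl⟩
  obtain ⟨L', hL'⟩ : ∃ L : Set (E d), L = {x : E d | (1 - m + δ / 2) < inner ℝ x (y2 - 0)} := ⟨_, rfl⟩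
  have hLm : MeasurableSet L := by
    rw [hL]
    apply measurableSet_lt measurable_const
    exact (Continuous.inner continuous_id continuous_const).measurable
  have hLm' : MeasurableSet L' := by
    rw [hL']
    apply measurableSet_lt measurable_const
    exact (Continuous.inner continuous_id continuous_const).measurable
  have hLc : ∀ x, x ∈ L ↔ 1 - m < x i := by
    intro x
    rw [hL, Set.mem_ofPred_eq, sub_zero, hiei]
  have hLc' : ∀ x, x ∈ L' ↔ 1 - m + δ / 2 < x i + δ * x j := by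
    intro x
    rw [hL', Set.mem_ofPred_eq, sub_zero, hy2, inner_add_right, inner_smul_right, hiei, hiej]
  -- the joint law
  have hpm : Measurable (fun x : E d => (x i, x j)) :=
    (measurable_coord i).prodMk (measurable_coord j)
  have hlaw : ρ.map (fun x : E d => (x i, x j)) = U01.prod U01 := by
    rw [hρ]; exact joint_law (d := d) hij
  have hρL : ρ L = ENNReal.ofReal m := by
    have h := mass_halfplane (m := m) (δ := 0) le_rfl (by linarith) (by linarith)
    rw [← hlaw, Measure.map_apply hpm (measurableSet_lt measurable_const (by fun_prop))] at h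
    rw [← h]
    congr 1
    ext x
    rw [hLc]
    simp
  have hρL' : ρ L' = ENNReal.ofReal m := by
    have h := mass_halfplane (m := m) (δ := δ) hδ0.le (by rw [hδ]; linarith) (by rw [hδ]; linarith)
    rw [← hlaw, Measure.map_apply hpm (measurableSet_lt measurable_const (by fun_prop))] at h
    rw [← h]
    congr 1
    ext x
    rw [hLc']
    simp only [mem_preimage, Set.mem_ofPred_eq]
    constructor <;> intro h' <;> linarith
  have hρLc : ρ Lᶜ = ρ L'ᶜ := by
    rw [prob_compl_eq_one_sub hLm, prob_compl_eq_one_sub hLm', hρL, hρL']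
  -- the maps
  obtain ⟨T, hT⟩ : ∃ T : E d → E d, T = fun x => if x ∈ L then ei else 0 := ⟨_, rfl⟩
  obtain ⟨T', hT'⟩ : ∃ T : E d → E d, T = fun x => if x ∈ L' then y2 else 0 := ⟨_, rfl⟩
  obtain ⟨T2, hT2⟩ : ∃ T : E d → E d, T = fun x => if x ∈ L then y2 else 0 := ⟨_, rfl⟩
  have hTm : Measurable T := by
    rw [hT]; exact Measurable.ite hLm measurable_const measurable_const
  have hTm' : Measurable T' := by
    rw [hT']; exact Measurable.ite hLm' measurable_const measurable_const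
  have hTm2 : Measurable T2 := by
    rw [hT2]; exact Measurable.ite hLm measurable_const measurable_const
  have hT_ball : ∀ x, T x ∈ Metric.closedBall (0 : E d) 2 := by
    intro x
    rw [mem_closedBall_zero_iff]
    simp only [hT]
    split_ifs
    · rw [hnei]; norm_num
    · simp
  have hT'_ball : ∀ x, T' x ∈ Metric.closedBall (0 : E d) 2 := by
    intro x
    rw [mem_closedBall_zero_iff]
    simp only [hT']
    split_ifs
    · linarith
    · simp
  have hball : MeasurableSet (Metric.closedBall (0 : E d) 2)ᶜ :=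
    Metric.isClosed_closedBall.measurableSet.compl
  refine ⟨ρ.map T, ρ.map T', T, T', Measure.isProbabilityMeasure_map hTm.aemeasurable,
    Measure.isProbabilityMeasure_map hTm'.aemeasurable, ?_, ?_, ?_, ?_, ?_, ?_⟩
  · rw [Measure.map_apply hTm hball]
    have : T ⁻¹' (Metric.closedBall (0 : E d) 2)ᶜ = ∅ := by
      ext x
      simpa using hT_ball x
    rw [this, measure_empty]
  · rw [Measure.map_apply hTm' hball]
    have : T' ⁻¹' (Metric.closedBall (0 : E d) 2)ᶜ = ∅ := by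
      ext x
      simpa using hT'_ball x
    rw [this, measure_empty]
  · refine ⟨hTm, by rw [hρ], fun S hS hmap => ?_⟩
    rw [← hρ] at hmap
    have hmap' : ρ.map S = ρ.map (fun x => if x ∈ L then ei else 0) := by
      rw [hmap, hT]
    have := halfspace_optimal ρ hy1ne (1 - m) hL hS hmap'
    simp only [cost]
    rw [← hρ, hT]
    exact this
  · refine ⟨hTm', by rw [hρ], fun S hS hmap => ?_⟩
    rw [← hρ] at hmap
    have hmap' : ρ.map S = ρ.map (fun x => if x ∈ L' then y2 else 0) := by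
      rw [hmap, hT']
    have := halfspace_optimal ρ hy2ne (1 - m + δ / 2) hL' hS hmap'
    simp only [cost]
    rw [← hρ, hT']
    exact this
  · -- lower bound
    rw [L2dist, ← hρ]
    apply Real.le_sqrt_of_sq_le
    -- finiteness
    have hbdd : ∀ x, ENNReal.ofReal (‖T x - T' x‖ ^ 2) ≤ ENNReal.ofReal 16 := by
      intro x
      apply ENNReal.ofReal_le_ofReal
      have h1 := mem_closedBall_zero_iff.mp (hT_ball x)
      have h2 := mem_closedBall_zero_iff.mp (hT'_ball x)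
      have h3 : ‖T x - T' x‖ ≤ 4 := by
        calc ‖T x - T' x‖ ≤ ‖T x‖ + ‖T' x‖ := norm_sub_le _ _
          _ ≤ 4 := by linarith
      have h4 := norm_nonneg (T x - T' x)
      nlinarith
    have hfin : ∫⁻ x, ENNReal.ofReal (‖T x - T' x‖ ^ 2) ∂ρ ≠ ⊤ := by
      have := lintegral_mono (μ := ρ) hbdd
      rw [lintegral_const, measure_univ, mul_one] at this
      exact ne_top_of_le_ne_top ENNReal.ofReal_ne_top this
    rw [← ENNReal.ofReal_le_iff_le_toReal hfin]
    -- the rectangle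
    have hrect : MeasurableSet (Ioc (1 - m) (1 - m + δ / 4) ×ˢ Icc (0:ℝ) (1 / 4)) :=
      measurableSet_Ioc.prod measurableSet_Icc
    have hprect : ρ ((fun x : E d => (x i, x j)) ⁻¹' (Ioc (1 - m) (1 - m + δ / 4) ×ˢ Icc (0:ℝ) (1 / 4)))
        = ENNReal.ofReal (δ / 4) * ENNReal.ofReal (1 / 4) := by
      rw [← Measure.map_apply hpm hrect, hlaw, Measure.prod_prod,
        U01_Ioc (by linarith) (by rw [hδ]; linarith), U01_Icc le_rfl (by norm_num)]
      congr 2
      · ring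
      · norm_num
    have hsub : ∀ x ∈ (fun x : E d => (x i, x j)) ⁻¹' (Ioc (1 - m) (1 - m + δ / 4) ×ˢ Icc (0:ℝ) (1 / 4)),
        ENNReal.ofReal (‖T x - T' x‖ ^ 2) = 1 := by
      rintro x ⟨⟨h1, h2⟩, ⟨h3, h4⟩⟩
      have h1' : 1 - m < x i := h1
      have h2' : x i ≤ 1 - m + δ / 4 := h2
      have h3' : 0 ≤ x j := h3
      have h4' : x j ≤ 1 / 4 := h4
      have hxL : x ∈ L := (hLc x).mpr h1'
      have hxL' : x ∉ L' := by
        rw [hLc' x]
        have : δ * x j ≤ δ * (1 / 4) := mul_le_mul_of_nonneg_left h4' hδ0.le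
        linarith
      have hTx : T x = ei := by rw [hT]; simp [hxL]
      have hTx' : T' x = 0 := by rw [hT']; simp [hxL']
      rw [hTx, hTx', sub_zero, hnei]
      norm_num
    have hmeasR : MeasurableSet ((fun x : E d => (x i, x j)) ⁻¹' (Ioc (1 - m) (1 - m + δ / 4) ×ˢ Icc (0:ℝ) (1 / 4))) :=
      hpm hrect
    calc ENNReal.ofReal ((s / 3) ^ 2) ≤ ENNReal.ofReal (δ / 4) * ENNReal.ofReal (1 / 4) := by
          rw [← ENNReal.ofReal_mul (by positivity)]
          apply ENNReal.ofReal_le_ofReal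
          rw [hδ, hm]
          nlinarith
      _ = ∫⁻ x in ((fun x : E d => (x i, x j)) ⁻¹' (Ioc (1 - m) (1 - m + δ / 4) ×ˢ Icc (0:ℝ) (1 / 4))), 1 ∂ρ := by
          rw [setLIntegral_one, hprect]
      _ = ∫⁻ x in ((fun x : E d => (x i, x j)) ⁻¹' (Ioc (1 - m) (1 - m + δ / 4) ×ˢ Icc (0:ℝ) (1 / 4))),
            ENNReal.ofReal (‖T x - T' x‖ ^ 2) ∂ρ := by
          apply setLIntegral_congr_fun hmeasR
          intro x hx
          exact (hsub x hx).symm
      _ ≤ ∫⁻ x, ENNReal.ofReal (‖T x - T' x‖ ^ 2) ∂ρ := setLIntegral_le_lintegral _ _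
  · -- upper bound
    rw [W1]
    have hF : Measurable (fun x => (T x, T2 x)) := hTm.prodMk hTm2
    have hcoup : IsCoupling (ρ.map T) (ρ.map T') (ρ.map (fun x => (T x, T2 x))) := by
      constructor
      · rw [Measure.map_map measurable_fst hF]
        rfl
      · rw [Measure.map_map measurable_snd hF]
        have : Prod.snd ∘ (fun x => (T x, T2 x)) = T2 := rfl
        rw [this]
        ext A hA
        rw [hT2, hT', map_two_valued ρ hLm y2 0 hA, map_two_valued ρ hLm' y2 0 hA, hρL, hρL', hρLc]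
    have hval : ∫⁻ p, ENNReal.ofReal ‖p.1 - p.2‖ ∂(ρ.map (fun x => (T x, T2 x)))
        = ENNReal.ofReal δ * ENNReal.ofReal m := by
      rw [lintegral_map (by fun_prop) hF, ← hρL, ← lintegral_indicator_const hLm]
      apply lintegral_congr
      intro x
      by_cases hx : x ∈ L
      · have h1 : T x = ei := by rw [hT]; simp [hx]
        have h2 : T2 x = y2 := by rw [hT2]; simp [hx]
        simp only [h1, h2, hx, indicator_of_mem]
        rw [hy2]
        have : ei - (ei + δ • ej) = - (δ • ej) := by abel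
        rw [this, norm_neg, hnδ]
      · have h1 : T x = 0 := by rw [hT]; simp [hx]
        have h2 : T2 x = 0 := by rw [hT2]; simp [hx]
        simp [h1, h2, hx]
    apply ENNReal.toReal_le_of_le_ofReal (by positivity)
    have hmem : ∫⁻ p, ENNReal.ofReal ‖p.1 - p.2‖ ∂(ρ.map (fun x => (T x, T2 x))) ∈
        {c : ENNReal | ∃ π : Measure (E d × E d), IsCoupling (ρ.map T) (ρ.map T') π ∧
          c = ∫⁻ p, ENNReal.ofReal ‖p.1 - p.2‖ ∂π} := by
      rw [Set.mem_ofPred_eq]
      exact ⟨_, hcoup, rfl⟩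
    refine (sInf_le hmem).trans ?_
    rw [hval, ← ENNReal.ofReal_mul (by positivity)]
    apply ENNReal.ofReal_le_ofReal
    rw [hδ, hm]
    apply le_of_eq
    ring

/-- No exponent above `1/4` is possible with the first transport distance. -/
theorem not_one_stable {d : ℕ} (hd : 2 ≤ d) {α : ℝ} (hα : 1 / 4 < α) :
    ¬ ∃ C : ℝ, ∀ μ ν : Measure (E d), IsProbabilityMeasure μ → IsProbabilityMeasure ν →
      μ (Metric.closedBall 0 2)ᶜ = 0 → ν (Metric.closedBall 0 2)ᶜ = 0 →
      ∀ T S : E d → E d, IsOptimalMap (cube d) μ T → IsOptimalMap (cube d) ν S →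
      L2dist (cube d) T S ≤ C * W1 μ ν ^ α := by
  rintro ⟨C, hC⟩
  have hi : (0:ℕ) < d := by omega
  have hj : (1:ℕ) < d := by omega
  have hij : (⟨0, hi⟩ : Fin d) ≠ ⟨1, hj⟩ := by
    intro h
    simpa using congrArg Fin.val h
  have key : ∀ s : ℝ, 0 < s → s ≤ 1 / 2 → s / 3 ≤ C * (2 * s ^ 4) ^ α := by
    intro s hs0 hs1
    obtain ⟨μ, ν, T, S, h1, h2, h3, h4, h5, h6, h7, h8⟩ := family_one hij hs0 hs1
    have h9 := hC μ ν h1 h2 h3 h4 T S h5 h6
    have hW0 : 0 ≤ W1 μ ν := W1_nonneg _ _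
    have hpos : 0 < C * W1 μ ν ^ α := by
      have : 0 < s / 3 := by positivity
      linarith
    have hCpos : 0 < C := by
      by_contra hC0
      have hC0' : C ≤ 0 := not_lt.mp hC0
      have : C * W1 μ ν ^ α ≤ 0 := mul_nonpos_of_nonpos_of_nonneg hC0' (Real.rpow_nonneg hW0 _)
      linarith
    have hmono : W1 μ ν ^ α ≤ (2 * s ^ 4) ^ α :=
      Real.rpow_le_rpow hW0 h8 (by linarith)
    calc s / 3 ≤ L2dist (cube d) T S := h7
      _ ≤ C * W1 μ ν ^ α := h9
      _ ≤ C * (2 * s ^ 4) ^ α := mul_le_mul_of_nonneg_left hmono hCpos.le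
  have hγ : 0 < 4 * α - 1 := by linarith
  have hCabs : ∀ s : ℝ, 0 < s → s ≤ 1 / 2 → 1 / 3 ≤ |C| * 2 ^ α * s ^ (4 * α - 1) := by
    intro s hs0 hs1
    have h := key s hs0 hs1
    have e1 : (2 * s ^ 4) ^ α = 2 ^ α * s ^ (4 * α) := by
      rw [Real.mul_rpow (by norm_num) (by positivity), ← Real.rpow_natCast s 4,
        ← Real.rpow_mul hs0.le]
      norm_num
    have e2 : s ^ (4 * α) = s * s ^ (4 * α - 1) := by
      rw [Real.rpow_sub hs0, Real.rpow_one]
      field_simp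
    rw [e1, e2] at h
    have h3 : s * (1 / 3) ≤ s * (|C| * 2 ^ α * s ^ (4 * α - 1)) := by
      have hC' : C ≤ |C| := le_abs_self C
      have hnn : 0 ≤ 2 ^ α * (s * s ^ (4 * α - 1)) := by positivity
      have := mul_le_mul_of_nonneg_right hC' hnn
      calc s * (1 / 3) = s / 3 := by ring
        _ ≤ C * (2 ^ α * (s * s ^ (4 * α - 1))) := h
        _ ≤ |C| * (2 ^ α * (s * s ^ (4 * α - 1))) := this
        _ = s * (|C| * 2 ^ α * s ^ (4 * α - 1)) := by ring
    exact le_of_mul_le_mul_left h3 hs0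
  have hlim : Filter.Tendsto (fun s : ℝ => |C| * 2 ^ α * s ^ (4 * α - 1)) (nhds 0) (nhds 0) := by
    have hc : ContinuousAt (fun s : ℝ => s ^ (4 * α - 1)) 0 :=
      Real.continuousAt_rpow_const 0 _ (Or.inr hγ.le)
    have := hc.tendsto.const_mul (|C| * 2 ^ α)
    simpa [Real.zero_rpow hγ.ne'] using this
  have hev : ∀ᶠ s in nhdsWithin (0:ℝ) (Ioi 0), |C| * 2 ^ α * s ^ (4 * α - 1) < 1 / 3 ∧ s < 1 / 2 ∧ 0 < s := by
    have h1 : ∀ᶠ s in nhds (0:ℝ), |C| * 2 ^ α * s ^ (4 * α - 1) < 1 / 3 :=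
      hlim.eventually (gt_mem_nhds (by norm_num))
    have h2 : ∀ᶠ s in nhds (0:ℝ), s < 1 / 2 := gt_mem_nhds (by norm_num)
    have h3 : ∀ᶠ s in nhdsWithin (0:ℝ) (Ioi 0), 0 < s := self_mem_nhdsWithin
    filter_upwards [nhdsWithin_le_nhds h1, nhdsWithin_le_nhds h2, h3] with s a b c
    exact ⟨a, b, c⟩
  obtain ⟨s, hs1, hs2, hs3⟩ := hev.exists
  have := hCabs s hs3 hs2.le
  linarith

/-- `α` is admissible for the first transport distance in dimension `d`: for every compact convex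
`K` with nonempty interior and every compact `Y` there is `C` with
`‖T_μ - T_ν‖_{L²(ρ)} ≤ C W₁(μ, ν)^α` for all Borel probability measures `μ, ν` carried by `Y` and
all optimal maps `T_μ`, `T_ν`. -/
def AdmissibleOne (d : ℕ) (α : ℝ) : Prop :=
  ∀ K : Set (E d), IsCompact K → Convex ℝ K → (interior K).Nonempty →
    ∀ Y : Set (E d), IsCompact Y → ∃ C : ℝ, ∀ μ ν : Measure (E d),
      IsProbabilityMeasure μ → IsProbabilityMeasure ν → μ Yᶜ = 0 → ν Yᶜ = 0 →
      ∀ T S : E d → E d, IsOptimalMap K μ T → IsOptimalMap K ν S →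
        L2dist K T S ≤ C * W1 μ ν ^ α

theorem admissibleOne_quarter {d : ℕ} (hd : 1 ≤ d) : AdmissibleOne d (1 / 4) :=
  fun K hKc hKconv hKint Y hY => stability_one hd K hKc hKconv hKint Y hY

theorem not_admissibleOne {d : ℕ} (hd : 2 ≤ d) {α : ℝ} (hα : 1 / 4 < α) : ¬ AdmissibleOne d α := by
  intro h
  exact not_one_stable hd hα (h (cube d) (cube_compact d) (cube_convex d) (cube_interior d)
    (Metric.closedBall 0 2) (isCompact_closedBall 0 2))

end Vale.Agent.P074
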